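import Mathlib
import Vale.Agent.Lib.P328.Defs

/-!
# P328: the Barvinok-Luria-Samorodnitsky-Yong density on `R_+^{m x n}` (definitions)
-/

namespace Vale.Agent.Lib.P328.Blsy

open Finset MeasureTheory ProbabilityTheory
open scoped ENNReal

section Tables

variable {R C : Type} [Fintype R] [Fintype C] [DecidableEq R] [DecidableEq C]

/-- The weight `∏ s_ij ^ x_ij / x_ij !` of a table `X`. -/
noncomputable def wt (s : R → C → ℝ) (X : R → C → ℕ) : ℝ :=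
  ∏ i, ∏ j, s i j ^ X i j / ((X i j).factorial : ℝ)

/-- `F(s) = ∑_{X ∈ Ω(r,c)} ∏ s_ij ^ x_ij / x_ij !`. -/
noncomputable def FF (r : R → ℕ) (c : C → ℕ) (s : R → C → ℝ) : ℝ :=
  ∑ X ∈ tables r c, wt s X

/-- The capacity: the infimum over positive `α, β` of
`exp (∑ α_i β_j s_ij) / (∏ α_i ^ r_i ∏ β_j ^ c_j)`. -/
noncomputable def cap (r : R → ℕ) (c : C → ℕ) (s : R → C → ℝ) : ℝ :=
  ⨅ p : {p : (R → ℝ) × (C → ℝ) // (∀ i, 0 < p.1 i) ∧ ∀ j, 0 < p.2 j},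
    Real.exp (∑ i, ∑ j, p.1.1 i * p.1.2 j * s i j) /
      ((∏ i, p.1.1 i ^ r i) * ∏ j, p.1.2 j ^ c j)

/-- The total mass `N = ∑ r_i`. -/
def total (r : R → ℕ) : ℕ := ∑ i, r i

/-- The normalising constant `e^{-N} (N!/N^N) ∏ r_i^{r_i}/r_i! ∏ c_j^{c_j}/c_j!`. -/
noncomputable def Rlow (r : R → ℕ) (c : C → ℕ) : ℝ :=
  Real.exp (-(total r : ℝ)) * (((total r).factorial : ℝ) / (total r : ℝ) ^ total r) *
    (∏ i, (r i : ℝ) ^ r i / ((r i).factorial : ℝ)) * ∏ j, (c j : ℝ) ^ c j / ((c j).factorial : ℝ)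

/-- Given a table `X`: independent `Gamma(x_ij + 1, 1)` entries. -/
noncomputable def muX (X : R → C → ℕ) : Measure (R → C → ℝ) :=
  Measure.pi fun i => Measure.pi fun j => gammaMeasure ((X i j : ℝ) + 1) 1

/-- The law of `s`: `X` uniform on `Ω(r,c)`, then independent `Gamma(x_ij + 1, 1)` entries.
Its density on the positive orthant is `exp (-∑ s_ij) F(s) / |Ω(r,c)|`. -/
noncomputable def nu (r : R → ℕ) (c : C → ℕ) : Measure (R → C → ℝ) :=
  (((tables r c).card : ℝ≥0∞)⁻¹) • ∑ X ∈ tables r c, muX X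

/-- `G N^N / N!` where `G = ∏ r_i! ∏ c_j! F_b(r,c)`. -/
noncomputable def KK (r : R → ℕ) (c : C → ℕ) (b : R → C → ℝ) : ℝ :=
  (∏ i, ((r i).factorial : ℝ)) * (∏ j, ((c j).factorial : ℝ)) * FF r c b *
    ((total r : ℝ) ^ total r / ((total r).factorial : ℝ))

/-- `L_N = N (H_N - 1)/(N - 1)` -/
noncomputable def LN (N : ℕ) : ℝ := (N : ℝ) * (((harmonic N : ℚ) : ℝ) - 1) / ((N : ℝ) - 1)

end Tables

end Vale.Agent.Lib.P328.Blsy
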