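import Mathlib
import Vale.Agent.Lib.P328.Defs
import Vale.Agent.Lib.P328.Blsy.Defs

/-!
# P328: the block entropic bound (part P of the blueprint)
-/

namespace Vale.Agent.Lib.P328.Blsy

open Finset

set_option linter.unusedSectionVars false
set_option linter.unnecessarySeqFocus false
set_option linter.unusedSimpArgs false

variable {R C : Type} [Fintype R] [Fintype C] [DecidableEq R] [DecidableEq C]

/-- Remove one unit from coordinate `a`. -/
def dec {α : Type} [DecidableEq α] (f : α → ℕ) (a : α) : α → ℕ :=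
  fun x => if x = a then f x - 1 else f x

/-- Add one unit to the cell `(i,j)`. -/
def addCell (i : R) (j : C) (X : R → C → ℕ) : R → C → ℕ :=
  fun k l => X k l + if k = i ∧ l = j then 1 else 0

/-- Remove one unit from the cell `(i,j)`. -/
def subCell (i : R) (j : C) (X : R → C → ℕ) : R → C → ℕ :=
  fun k l => X k l - if k = i ∧ l = j then 1 else 0

omit [Fintype R] in
theorem sum_row_addCell (i : R) (j : C) (X : R → C → ℕ) (k : R) :
    ∑ l, addCell i j X k l = ∑ l, X k l + if k = i then 1 else 0 := by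
  unfold addCell
  rw [Finset.sum_add_distrib]
  congr 1
  by_cases h : k = i
  · simp [h]
  · simp [h]

omit [Fintype C] in
theorem sum_col_addCell (i : R) (j : C) (X : R → C → ℕ) (l : C) :
    ∑ k, addCell i j X k l = ∑ k, X k l + if l = j then 1 else 0 := by
  unfold addCell
  rw [Finset.sum_add_distrib]
  congr 1
  by_cases h : l = j
  · simp [h]
  · simp [h]

theorem addCell_mem {r : R → ℕ} {c : C → ℕ} {i : R} {j : C} (hi : 0 < r i) (hj : 0 < c j)
    {X : R → C → ℕ} (hX : X ∈ tables (dec r i) (dec c j)) : addCell i j X ∈ tables r c := by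
  rw [mem_tables] at hX ⊢
  refine ⟨fun k => ?_, fun l => ?_⟩
  · rw [sum_row_addCell, hX.1 k]
    unfold dec
    by_cases h : k = i
    · subst h; simp; omega
    · simp [h]
  · rw [sum_col_addCell, hX.2 l]
    unfold dec
    by_cases h : l = j
    · subst h; simp; omega
    · simp [h]

theorem subCell_mem {r : R → ℕ} {c : C → ℕ} {i : R} {j : C}
    {X : R → C → ℕ} (hX : X ∈ tables r c) (hx : 1 ≤ X i j) :
    subCell i j X ∈ tables (dec r i) (dec c j) := by
  have hsub : addCell i j (subCell i j X) = X := by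
    funext k l
    unfold addCell subCell
    by_cases h : k = i ∧ l = j
    · obtain ⟨rfl, rfl⟩ := h; simp; omega
    · simp [h]
  rw [mem_tables] at hX ⊢
  refine ⟨fun k => ?_, fun l => ?_⟩
  · have := sum_row_addCell i j (subCell i j X) k
    rw [hsub, hX.1 k] at this
    unfold dec
    by_cases h : k = i
    · subst h; simp at this ⊢; omega
    · simp [h] at this ⊢; omega
  · have := sum_col_addCell i j (subCell i j X) l
    rw [hsub, hX.2 l] at this
    unfold dec
    by_cases h : l = j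
    · subst h; simp at this ⊢; omega
    · simp [h] at this ⊢; omega

theorem addCell_subCell {i : R} {j : C} {X : R → C → ℕ} (hx : 1 ≤ X i j) :
    addCell i j (subCell i j X) = X := by
  funext k l
  unfold addCell subCell
  by_cases h : k = i ∧ l = j
  · obtain ⟨rfl, rfl⟩ := h; simp; omega
  · simp [h]

theorem subCell_addCell {i : R} {j : C} {X : R → C → ℕ} :
    subCell i j (addCell i j X) = X := by
  funext k l
  unfold addCell subCell
  by_cases h : k = i ∧ l = j
  · obtain ⟨rfl, rfl⟩ := h; simp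
  · simp [h]

theorem addCell_self (i : R) (j : C) (X : R → C → ℕ) : addCell i j X i j = X i j + 1 := by
  simp [addCell]

/-- `X̃(X) = ∑ x_ij b_ij`. -/
noncomputable def Xt (b : R → C → ℝ) (X : R → C → ℕ) : ℝ := ∑ k, ∑ l, (X k l : ℝ) * b k l

theorem Xt_addCell (b : R → C → ℝ) (i : R) (j : C) (X : R → C → ℕ) :
    Xt b (addCell i j X) = Xt b X + b i j := by
  unfold Xt addCell
  have : ∀ k l, (((X k l + if k = i ∧ l = j then 1 else 0 : ℕ) : ℝ)) * b k l =
      (X k l : ℝ) * b k l + if k = i then (if l = j then b k l else 0) else 0 := by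
    intro k l
    by_cases hk : k = i <;> by_cases hl : l = j <;> simp [hk, hl] <;> ring
  simp_rw [this, Finset.sum_add_distrib]
  congr 1
  rw [Finset.sum_eq_single i]
  · rw [Finset.sum_eq_single j] <;> simp +contextual
  · intro k _ hk; simp [hk]
  · simp

theorem wt_addCell (b : R → C → ℝ) (i : R) (j : C) (X : R → C → ℕ) :
    ((X i j : ℝ) + 1) * wt b (addCell i j X) = b i j * wt b X := by
  have key : ∀ k l, b k l ^ addCell i j X k l / ((addCell i j X k l).factorial : ℝ) =
      (b k l ^ X k l / ((X k l).factorial : ℝ)) *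
        (if k = i then (if l = j then b k l / ((X k l : ℝ) + 1) else 1) else 1) := by
    intro k l
    unfold addCell
    by_cases hk : k = i <;> by_cases hl : l = j
    · subst hk hl
      simp only [and_self, if_true]
      rw [Nat.factorial_succ, pow_succ]
      push_cast
      have h1 : ((X k l).factorial : ℝ) ≠ 0 := by positivity
      have h2 : ((X k l : ℝ) + 1) ≠ 0 := by positivity
      field_simp
    · simp [hk, hl]
    · simp [hk, hl]
    · simp [hk, hl]
  unfold wt
  simp_rw [key, Finset.prod_mul_distrib]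
  have e1 : ∏ k, ∏ l, (if k = i then (if l = j then b k l / ((X k l : ℝ) + 1) else 1) else 1) =
      b i j / ((X i j : ℝ) + 1) := by
    rw [Finset.prod_eq_single i]
    · rw [Finset.prod_eq_single j]
      · simp
      · intro l _ hl; simp [hl]
      · simp
    · intro k _ hk; simp [hk]
    · simp
  rw [e1]
  have h2 : ((X i j : ℝ) + 1) ≠ 0 := by positivity
  field_simp

theorem wt_pos (b : R → C → ℝ) (hb : ∀ i j, 0 < b i j) (X : R → C → ℕ) : 0 < wt b X := by
  unfold wt
  refine Finset.prod_pos fun i _ => Finset.prod_pos fun j _ => ?_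
  have := hb i j
  positivity

/-- The master identity. -/
theorem master (b : R → C → ℝ) {r : R → ℕ} {c : C → ℕ} {i : R} {j : C}
    (hi : 0 < r i) (hj : 0 < c j) (g : (R → C → ℕ) → ℝ) :
    ∑ X ∈ tables r c, (X i j : ℝ) * wt b X * g X =
      b i j * ∑ X ∈ tables (dec r i) (dec c j), wt b X * g (addCell i j X) := by
  have h1 : ∑ X ∈ tables r c, (X i j : ℝ) * wt b X * g X =
      ∑ X ∈ (tables r c).filter (fun X => 1 ≤ X i j), (X i j : ℝ) * wt b X * g X := by
    rw [Finset.sum_filter]
    refine Finset.sum_congr rfl fun X _ => ?_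
    by_cases h : 1 ≤ X i j
    · simp [h]
    · have : X i j = 0 := by omega
      simp [h, this]
  rw [h1, Finset.mul_sum]
  refine Finset.sum_nbij' (subCell i j) (addCell i j) ?_ ?_ ?_ ?_ ?_
  · intro X hX
    rw [Finset.mem_filter] at hX
    exact subCell_mem hX.1 hX.2
  · intro X hX
    rw [Finset.mem_filter]
    refine ⟨addCell_mem hi hj hX, ?_⟩
    rw [addCell_self]; omega
  · intro X hX
    rw [Finset.mem_filter] at hX
    exact addCell_subCell hX.2
  · intro X _
    exact subCell_addCell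
  · intro X hX
    rw [Finset.mem_filter] at hX
    have hadd := addCell_subCell hX.2
    have := wt_addCell b i j (subCell i j X)
    rw [hadd] at this
    have hval : ((subCell i j X i j : ℕ) : ℝ) + 1 = X i j := by
      have h2 : subCell i j X i j + 1 = X i j := by
        have := hX.2
        simp [subCell]; omega
      exact_mod_cast h2
    rw [hval] at this
    rw [this, hadd]
    ring


theorem sum_dec {α : Type} [Fintype α] [DecidableEq α] (f : α → ℕ) (a : α) (h : 0 < f a) :
    ∑ x, dec f a x + 1 = ∑ x, f x := by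
  unfold dec
  rw [← Finset.add_sum_erase _ _ (Finset.mem_univ a), ← Finset.add_sum_erase _ f (Finset.mem_univ a)]
  have : ∑ x ∈ univ.erase a, (if x = a then f x - 1 else f x) = ∑ x ∈ univ.erase a, f x := by
    refine Finset.sum_congr rfl fun x hx => ?_
    simp [Finset.ne_of_mem_erase hx]
  rw [this]
  simp
  omega

theorem prod_fact_dec {α : Type} [Fintype α] [DecidableEq α] (f : α → ℕ) (a : α) (h : 0 < f a) :
    (f a : ℝ) * ∏ x, ((dec f a x).factorial : ℝ) = ∏ x, ((f x).factorial : ℝ) := by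
  unfold dec
  rw [← Finset.mul_prod_erase _ _ (Finset.mem_univ a),
    ← Finset.mul_prod_erase _ (fun x => ((f x).factorial : ℝ)) (Finset.mem_univ a)]
  have : ∏ x ∈ univ.erase a, (((if x = a then f x - 1 else f x).factorial : ℕ) : ℝ) =
      ∏ x ∈ univ.erase a, ((f x).factorial : ℝ) := by
    refine Finset.prod_congr rfl fun x hx => ?_
    simp [Finset.ne_of_mem_erase hx]
  rw [this, ← mul_assoc]
  congr 1
  simp only [if_true]
  obtain ⟨k, hk⟩ : ∃ k, f a = k + 1 := ⟨f a - 1, by omega⟩
  rw [hk, Nat.factorial_succ]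
  push_cast
  simp

theorem exists_pos_of_sum_pos {α : Type} [Fintype α] (f : α → ℕ) (h : 0 < ∑ x, f x) :
    ∃ a, 0 < f a := by
  by_contra hh
  push Not at hh
  have : ∑ x, f x = 0 := Finset.sum_eq_zero fun x _ => by have := hh x; omega
  omega

theorem tables_nonempty : ∀ (M : ℕ) (r : R → ℕ) (c : C → ℕ), ∑ i, r i = M → ∑ j, c j = M →
    (tables r c).Nonempty := by
  intro M
  induction M with
  | zero =>
    intro r c hr hc
    refine ⟨fun _ _ => 0, ?_⟩
    rw [mem_tables]
    refine ⟨fun i => ?_, fun j => ?_⟩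
    · have := (Finset.sum_eq_zero_iff.mp hr) i (Finset.mem_univ i)
      simp [this]
    · have := (Finset.sum_eq_zero_iff.mp hc) j (Finset.mem_univ j)
      simp [this]
  | succ M ih =>
    intro r c hr hc
    obtain ⟨i, hi⟩ := exists_pos_of_sum_pos r (by omega)
    obtain ⟨j, hj⟩ := exists_pos_of_sum_pos c (by omega)
    have h1 := sum_dec r i hi
    have h2 := sum_dec c j hj
    obtain ⟨X, hX⟩ := ih (dec r i) (dec c j) (by omega) (by omega)
    exact ⟨_, addCell_mem hi hj hX⟩

theorem FF_pos (b : R → C → ℝ) (hb : ∀ i j, 0 < b i j) (r : R → ℕ) (c : C → ℕ)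
    (h : ∑ i, r i = ∑ j, c j) : 0 < FF r c b := by
  unfold FF
  exact Finset.sum_pos (fun X _ => wt_pos b hb X) (tables_nonempty _ r c rfl h.symm)

/-- `E_π[x_ij] F`. -/
noncomputable def AA (b : R → C → ℝ) (r : R → ℕ) (c : C → ℕ) (i : R) (j : C) : ℝ :=
  ∑ X ∈ tables r c, (X i j : ℝ) * wt b X

/-- `E_π[X̃] F`. -/
noncomputable def EE (b : R → C → ℝ) (r : R → ℕ) (c : C → ℕ) : ℝ :=
  ∑ X ∈ tables r c, wt b X * Xt b X

/-- `∑ r_k b_kl c_l`. -/
noncomputable def BB (b : R → C → ℝ) (r : R → ℕ) (c : C → ℕ) : ℝ :=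
  ∑ k, ∑ l, (r k : ℝ) * b k l * c l

/-- `∑ c_l b_il`. -/
noncomputable def SS (b : R → C → ℝ) (c : C → ℕ) (i : R) : ℝ := ∑ l, (c l : ℝ) * b i l

/-- `∑ r_k b_kj`. -/
noncomputable def SSc (b : R → C → ℝ) (r : R → ℕ) (j : C) : ℝ := ∑ k, (r k : ℝ) * b k j

/-- `∏ r_i! ∏ c_j! F`. -/
noncomputable def GG (b : R → C → ℝ) (r : R → ℕ) (c : C → ℕ) : ℝ :=
  (∏ i, ((r i).factorial : ℝ)) * (∏ j, ((c j).factorial : ℝ)) * FF r c b

theorem AA_nonneg (b : R → C → ℝ) (hb : ∀ i j, 0 < b i j) (r : R → ℕ) (c : C → ℕ) (i : R) (j : C) :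
    0 ≤ AA b r c i j := by
  unfold AA
  exact Finset.sum_nonneg fun X _ => mul_nonneg (Nat.cast_nonneg _) (wt_pos b hb X).le

theorem AA_row (b : R → C → ℝ) (r : R → ℕ) (c : C → ℕ) (i : R) :
    ∑ j, AA b r c i j = (r i : ℝ) * FF r c b := by
  unfold AA FF
  rw [Finset.sum_comm, Finset.mul_sum]
  refine Finset.sum_congr rfl fun X hX => ?_
  rw [← Finset.sum_mul]
  have := (mem_tables.mp hX).1 i
  rw [← this]; push_cast; rfl

theorem AA_col (b : R → C → ℝ) (r : R → ℕ) (c : C → ℕ) (j : C) :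
    ∑ i, AA b r c i j = (c j : ℝ) * FF r c b := by
  unfold AA FF
  rw [Finset.sum_comm, Finset.mul_sum]
  refine Finset.sum_congr rfl fun X hX => ?_
  rw [← Finset.sum_mul]
  have := (mem_tables.mp hX).2 j
  rw [← this]; push_cast; rfl

theorem AA_eq (b : R → C → ℝ) {r : R → ℕ} {c : C → ℕ} {i : R} {j : C} (hi : 0 < r i) (hj : 0 < c j) :
    AA b r c i j = b i j * FF (dec r i) (dec c j) b := by
  have := master b hi hj (fun _ => 1)
  simpa [AA, FF] using this

theorem entry_zero_row {r : R → ℕ} {c : C → ℕ} {X : R → C → ℕ} (hX : X ∈ tables r c) {i : R}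
    (hi : r i = 0) (j : C) : X i j = 0 := by
  have := (mem_tables.mp hX).1 i
  rw [hi] at this
  exact (Finset.sum_eq_zero_iff.mp this) j (Finset.mem_univ j)

theorem entry_zero_col {r : R → ℕ} {c : C → ℕ} {X : R → C → ℕ} (hX : X ∈ tables r c) {j : C}
    (hj : c j = 0) (i : R) : X i j = 0 := by
  have := (mem_tables.mp hX).2 j
  rw [hj] at this
  exact (Finset.sum_eq_zero_iff.mp this) i (Finset.mem_univ i)

theorem AA_zero_of_row (b : R → C → ℝ) {r : R → ℕ} {c : C → ℕ} {i : R} (hi : r i = 0) (j : C) :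
    AA b r c i j = 0 := by
  unfold AA
  refine Finset.sum_eq_zero fun X hX => ?_
  simp [entry_zero_row hX hi j]

theorem AA_zero_of_col (b : R → C → ℝ) {r : R → ℕ} {c : C → ℕ} {j : C} (hj : c j = 0) (i : R) :
    AA b r c i j = 0 := by
  unfold AA
  refine Finset.sum_eq_zero fun X hX => ?_
  simp [entry_zero_col hX hj i]

theorem EE_eq (b : R → C → ℝ) (r : R → ℕ) (c : C → ℕ) :
    EE b r c = ∑ i, ∑ j, b i j * AA b r c i j := by
  unfold EE AA Xt
  simp_rw [Finset.mul_sum]
  rw [Finset.sum_comm]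
  refine Finset.sum_congr rfl fun i _ => ?_
  rw [Finset.sum_comm]
  refine Finset.sum_congr rfl fun j _ => ?_
  refine Finset.sum_congr rfl fun X _ => ?_
  ring

/-- `∑_X x_ij w(X) (X̃(X) - b_ij)` -/
noncomputable def ZZ (b : R → C → ℝ) (r : R → ℕ) (c : C → ℕ) (i : R) (j : C) : ℝ :=
  ∑ X ∈ tables r c, (X i j : ℝ) * wt b X * (Xt b X - b i j)

theorem ZZ_eq (b : R → C → ℝ) {r : R → ℕ} {c : C → ℕ} {i : R} {j : C} (hi : 0 < r i) (hj : 0 < c j) :
    ZZ b r c i j = b i j * EE b (dec r i) (dec c j) := by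
  have := master b hi hj (fun X => Xt b X - b i j)
  unfold ZZ EE
  rw [this]
  congr 1
  refine Finset.sum_congr rfl fun X _ => ?_
  rw [Xt_addCell]; ring

theorem ZZ_zero_of_row (b : R → C → ℝ) {r : R → ℕ} {c : C → ℕ} {i : R} (hi : r i = 0) (j : C) :
    ZZ b r c i j = 0 := by
  unfold ZZ
  refine Finset.sum_eq_zero fun X hX => ?_
  simp [entry_zero_row hX hi j]

theorem ZZ_zero_of_col (b : R → C → ℝ) {r : R → ℕ} {c : C → ℕ} {j : C} (hj : c j = 0) (i : R) :
    ZZ b r c i j = 0 := by
  unfold ZZ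
  refine Finset.sum_eq_zero fun X hX => ?_
  simp [entry_zero_col hX hj i]

theorem ZZ_sum (b : R → C → ℝ) (r : R → ℕ) (c : C → ℕ) (M : ℕ) (hM : ∑ i, r i = M + 1) :
    ∑ i, ∑ j, ZZ b r c i j = (M : ℝ) * EE b r c := by
  unfold ZZ EE
  have : ∀ i j, ∑ X ∈ tables r c, (X i j : ℝ) * wt b X * (Xt b X - b i j) =
      ∑ X ∈ tables r c, wt b X * ((X i j : ℝ) * Xt b X - (X i j : ℝ) * b i j) := by
    intro i j
    refine Finset.sum_congr rfl fun X _ => ?_
    ring
  simp_rw [this]
  rw [Finset.mul_sum]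
  have hswap : ∑ i, ∑ j, ∑ X ∈ tables r c, wt b X * ((X i j : ℝ) * Xt b X - (X i j : ℝ) * b i j) =
      ∑ X ∈ tables r c, ∑ i, ∑ j, wt b X * ((X i j : ℝ) * Xt b X - (X i j : ℝ) * b i j) := by
    calc _ = ∑ i, ∑ X ∈ tables r c, ∑ j, wt b X * ((X i j : ℝ) * Xt b X - (X i j : ℝ) * b i j) :=
          Finset.sum_congr rfl fun i _ => Finset.sum_comm
      _ = _ := Finset.sum_comm
  rw [hswap]
  refine Finset.sum_congr rfl fun X hX => ?_
  simp_rw [← Finset.mul_sum]
  have hsum : ∑ i, ∑ j, ((X i j : ℝ) * Xt b X - (X i j : ℝ) * b i j) =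
      (M + 1 : ℝ) * Xt b X - Xt b X := by
    simp_rw [Finset.sum_sub_distrib]
    congr 1
    have h1 : ∑ i, ∑ j, (X i j : ℝ) = (M + 1 : ℝ) := by
      have : ∀ i, ∑ j, (X i j : ℝ) = (r i : ℝ) := by
        intro i
        have := (mem_tables.mp hX).1 i
        rw [← this]; push_cast; rfl
      simp_rw [this]
      rw [← Nat.cast_sum, hM]; push_cast; rfl
    simp_rw [← Finset.sum_mul]
    rw [h1]
  rw [hsum]
  ring


/-- Gibbs inequality. -/
theorem gibbs {ι : Type} [Fintype ι] (p a : ι → ℝ) (hp : ∀ j, 0 ≤ p j) (hsum : ∑ j, p j = 1)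
    (ha : ∀ j, 0 ≤ a j) (hpa : ∀ j, 0 < p j → 0 < a j) :
    ∑ j, p j * Real.log (a j / p j) ≤ Real.log (∑ j, a j) := by
  have hex : ∃ j, 0 < p j := by
    by_contra hh
    push Not at hh
    have : ∑ j, p j ≤ 0 := Finset.sum_nonpos fun j _ => hh j
    linarith
  obtain ⟨j0, hj0⟩ := hex
  have hS : 0 < ∑ j, a j :=
    Finset.sum_pos' (fun j _ => ha j) ⟨j0, Finset.mem_univ _, hpa j0 hj0⟩
  set S := ∑ j, a j with hSdef
  have key : ∀ j, p j * Real.log (a j / p j) ≤ p j * Real.log S + (a j / S - p j) := by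
    intro j
    rcases (hp j).eq_or_lt with h0 | hpos
    · rw [← h0]; simp
      exact div_nonneg (ha j) hS.le
    · have hap := hpa j hpos
      have : Real.log (a j / p j) = Real.log S + Real.log (a j / (p j * S)) := by
        rw [← Real.log_mul hS.ne' (by positivity)]
        congr 1
        field_simp
      rw [this]
      have h2 := Real.log_le_sub_one_of_pos (show 0 < a j / (p j * S) by positivity)
      have h3 : p j * (a j / (p j * S) - 1) = a j / S - p j := by
        field_simp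
      nlinarith [mul_le_mul_of_nonneg_left h2 hpos.le]
  calc ∑ j, p j * Real.log (a j / p j) ≤ ∑ j, (p j * Real.log S + (a j / S - p j)) :=
        Finset.sum_le_sum fun j _ => key j
    _ = Real.log S := by
        rw [Finset.sum_add_distrib, Finset.sum_sub_distrib, ← Finset.sum_mul, hsum, ← Finset.sum_div,
          div_self hS.ne']
        ring

theorem GG_pos (b : R → C → ℝ) (hb : ∀ i j, 0 < b i j) (r : R → ℕ) (c : C → ℕ)
    (h : ∑ i, r i = ∑ j, c j) : 0 < GG b r c := by
  unfold GG
  have h1 := FF_pos b hb r c h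
  have h2 : 0 < ∏ i, ((r i).factorial : ℝ) := Finset.prod_pos fun i _ => by positivity
  have h3 : 0 < ∏ j, ((c j).factorial : ℝ) := Finset.prod_pos fun i _ => by positivity
  positivity

/-- The one-step recursion in the form used by the Gibbs step. -/
theorem GG_step (b : R → C → ℝ) {r : R → ℕ} {c : C → ℕ} {i : R} {j : C} (hi : 0 < r i)
    (hj : 0 < c j) :
    GG b r c * (AA b r c i j / ((r i : ℝ) * FF r c b)) * FF r c b =
      (c j : ℝ) * b i j * GG b (dec r i) (dec c j) * FF r c b := by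
  unfold GG
  rw [AA_eq b hi hj, ← prod_fact_dec r i hi, ← prod_fact_dec c j hj]
  have hr : (r i : ℝ) ≠ 0 := by positivity
  by_cases hF : FF r c b = 0
  · simp [hF]
  · field_simp

/-- The Gibbs step for one row. -/
theorem row_ineq (b : R → C → ℝ) (hb : ∀ i j, 0 < b i j) (r : R → ℕ) (c : C → ℕ)
    (h : ∑ i, r i = ∑ j, c j) (i : R) :
    (r i : ℝ) * Real.log (GG b r c) ≤ (r i : ℝ) * Real.log (SS b c i) +
      (1 / FF r c b) * ∑ j, AA b r c i j * Real.log (GG b (dec r i) (dec c j)) := by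
  have hF := FF_pos b hb r c h
  rcases Nat.eq_zero_or_pos (r i) with hi | hi
  · simp [hi, AA_zero_of_row b hi]
  · have hri : (0 : ℝ) < r i := by exact_mod_cast hi
    have hG := GG_pos b hb r c h
    set p : C → ℝ := fun j => AA b r c i j / ((r i : ℝ) * FF r c b) with hp
    have hp0 : ∀ j, 0 ≤ p j := fun j => div_nonneg (AA_nonneg b hb r c i j) (by positivity)
    have hpsum : ∑ j, p j = 1 := by
      simp only [hp]
      rw [← Finset.sum_div, AA_row]
      exact div_self (by positivity)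
    have hcpos : ∀ j, 0 < p j → 0 < c j := by
      intro j hj
      by_contra hc
      have hc0 : c j = 0 := by omega
      simp only [hp, AA_zero_of_col b hc0 i] at hj
      simp at hj
    have hg := gibbs p (fun j => (c j : ℝ) * b i j) hp0 hpsum
      (fun j => mul_nonneg (Nat.cast_nonneg _) (hb i j).le)
      (fun j hj => mul_pos (by exact_mod_cast hcpos j hj) (hb i j))
    have hterm : ∀ j, p j * Real.log (GG b r c) =
        p j * Real.log ((c j : ℝ) * b i j / p j) +
          p j * Real.log (GG b (dec r i) (dec c j)) := by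
      intro j
      rcases (hp0 j).eq_or_lt with h0 | hpos
      · rw [← h0]; simp
      · have hcj := hcpos j hpos
        have hs := GG_step b hi hcj
        have hs2 : GG b r c * p j = (c j : ℝ) * b i j * GG b (dec r i) (dec c j) := by
          have := mul_right_cancel₀ hF.ne' hs
          simpa [hp] using this
        have hcR : (0 : ℝ) < c j := by exact_mod_cast hcj
        have hbij := hb i j
        have hG' : 0 < GG b (dec r i) (dec c j) := by
          by_contra hneg
          have hle : GG b (dec r i) (dec c j) ≤ 0 := not_lt.mp hneg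
          have : GG b r c * p j ≤ 0 := by
            rw [hs2]
            exact mul_nonpos_of_nonneg_of_nonpos (by positivity) hle
          have hpos2 : 0 < GG b r c * p j := by positivity
          linarith
        rw [← mul_add, ← Real.log_mul (by positivity) hG'.ne']
        congr 2
        field_simp
        linarith [hs2, mul_comm (p j) (GG b r c)]
    have hsum : Real.log (GG b r c) = ∑ j, p j * Real.log ((c j : ℝ) * b i j / p j) +
        ∑ j, p j * Real.log (GG b (dec r i) (dec c j)) := by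
      rw [← Finset.sum_add_distrib]
      simp_rw [← hterm]
      rw [← Finset.sum_mul, hpsum, one_mul]
    have hSS : ∑ j, (c j : ℝ) * b i j = SS b c i := rfl
    rw [hSS] at hg
    have hlast : (r i : ℝ) * ∑ j, p j * Real.log (GG b (dec r i) (dec c j)) =
        (1 / FF r c b) * ∑ j, AA b r c i j * Real.log (GG b (dec r i) (dec c j)) := by
      rw [Finset.mul_sum, Finset.mul_sum]
      refine Finset.sum_congr rfl fun j _ => ?_
      simp only [hp]
      field_simp
    rw [hsum, mul_add, hlast]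
    nlinarith [mul_le_mul_of_nonneg_left hg hri.le]

/-- `β_M` of the potential. -/
noncomputable def betaS (N : ℝ) : ℕ → ℝ
  | 0 => 0
  | M + 1 => N / ((M : ℝ) + 1) ^ 2 + (1 - 2 / ((M : ℝ) + 1)) * betaS N M

/-- `α_M` of the potential. -/
noncomputable def alphaS (N : ℝ) : ℕ → ℝ
  | 0 => 0
  | M + 1 => ((M : ℝ) * alphaS N M + betaS N M) / ((M : ℝ) + 1)

theorem dec_cast {α : Type} [DecidableEq α] (f : α → ℕ) (a : α) (h : 0 < f a) (x : α) :
    ((dec f a x : ℕ) : ℝ) = (f x : ℝ) - if x = a then 1 else 0 := by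
  unfold dec
  by_cases hx : x = a
  · subst hx
    simp only [if_true]
    rw [Nat.cast_sub (by omega)]
    simp
  · simp [hx]

theorem BB_dec (b : R → C → ℝ) {r : R → ℕ} {c : C → ℕ} {i : R} {j : C} (hi : 0 < r i)
    (hj : 0 < c j) :
    BB b (dec r i) (dec c j) = BB b r c - SS b c i - SSc b r j + b i j := by
  unfold BB SS SSc
  simp_rw [dec_cast r i hi, dec_cast c j hj]
  have : ∀ k l, ((r k : ℝ) - if k = i then 1 else 0) * b k l * ((c l : ℝ) - if l = j then 1 else 0) =
      (r k : ℝ) * b k l * c l - (if k = i then (c l : ℝ) * b k l else 0)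
        - (if l = j then (r k : ℝ) * b k l else 0)
        + (if k = i then (if l = j then b k l else 0) else 0) := by
    intro k l
    by_cases hk : k = i <;> by_cases hl : l = j <;> simp [hk, hl] <;> ring
  simp_rw [this, Finset.sum_add_distrib, Finset.sum_sub_distrib]
  congr 1
  · congr 1
    · congr 1
      rw [Finset.sum_eq_single i]
      · simp
      · intro k _ hk; simp [hk]
      · simp
    · rw [Finset.sum_comm]
      rw [Finset.sum_eq_single j]
      · simp
      · intro l _ hl; simp [hl]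
      · simp
  · rw [Finset.sum_eq_single i]
    · rw [Finset.sum_eq_single j]
      · simp
      · intro l _ hl; simp [hl]
      · simp
    · intro k _ hk; simp [hk]
    · simp

theorem sum_r_SS (b : R → C → ℝ) (r : R → ℕ) (c : C → ℕ) :
    ∑ i, (r i : ℝ) * SS b c i = BB b r c := by
  unfold BB SS
  refine Finset.sum_congr rfl fun i _ => ?_
  rw [Finset.mul_sum]
  refine Finset.sum_congr rfl fun j _ => ?_
  ring

theorem sum_c_SSc (b : R → C → ℝ) (r : R → ℕ) (c : C → ℕ) :
    ∑ j, (c j : ℝ) * SSc b r j = BB b r c := by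
  unfold BB SSc
  rw [Finset.sum_comm]
  refine Finset.sum_congr rfl fun j _ => ?_
  rw [Finset.mul_sum]
  refine Finset.sum_congr rfl fun i _ => ?_
  ring

theorem tables_zero {r : R → ℕ} {c : C → ℕ} (hr : ∑ i, r i = 0) :
    tables r c ⊆ {fun _ _ => 0} := by
  intro X hX
  rw [Finset.mem_singleton]
  funext i j
  have hri : r i = 0 := (Finset.sum_eq_zero_iff.mp hr) i (Finset.mem_univ i)
  exact entry_zero_row hX hri j

theorem GG_zero (b : R → C → ℝ) {r : R → ℕ} {c : C → ℕ} (hr : ∑ i, r i = 0) (hc : ∑ j, c j = 0) :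
    GG b r c = 1 := by
  have h0 : tables r c = {fun _ _ => 0} := by
    refine Finset.Subset.antisymm (tables_zero hr) ?_
    rw [Finset.singleton_subset_iff, mem_tables]
    refine ⟨fun i => ?_, fun j => ?_⟩
    · simp [(Finset.sum_eq_zero_iff.mp hr) i (Finset.mem_univ i)]
    · simp [(Finset.sum_eq_zero_iff.mp hc) j (Finset.mem_univ j)]
  unfold GG FF
  rw [h0, Finset.sum_singleton]
  have h1 : ∀ i, r i = 0 := fun i => (Finset.sum_eq_zero_iff.mp hr) i (Finset.mem_univ i)
  have h2 : ∀ j, c j = 0 := fun j => (Finset.sum_eq_zero_iff.mp hc) j (Finset.mem_univ j)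
  simp [wt, h1, h2]

/-- The pairwise consequence of the induction hypothesis. -/
theorem pair_bound (b : R → C → ℝ) (hb : ∀ i j, 0 < b i j) (r : R → ℕ) (c : C → ℕ)
    (M : ℕ) (hr : ∑ i, r i = M + 1) (hc : ∑ j, c j = M + 1) (c0 α β : ℝ)
    (IH : ∀ (r' : R → ℕ) (c' : C → ℕ), ∑ i, r' i = M → ∑ j, c' j = M →
      Real.log (GG b r' c') ≤ c0 + α * (EE b r' c' / FF r' c' b) + β * BB b r' c') (i : R) (j : C) :
    AA b r c i j * Real.log (GG b (dec r i) (dec c j)) ≤
      AA b r c i j * c0 + α * ZZ b r c i j +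
        β * (AA b r c i j * (BB b r c - SS b c i - SSc b r j + b i j)) := by
  rcases Nat.eq_zero_or_pos (r i) with hi | hi
  · simp [AA_zero_of_row b hi, ZZ_zero_of_row b hi]
  rcases Nat.eq_zero_or_pos (c j) with hj | hj
  · simp [AA_zero_of_col b hj, ZZ_zero_of_col b hj]
  have h1 := sum_dec r i hi
  have h2 := sum_dec c j hj
  have hF' : 0 < FF (dec r i) (dec c j) b := FF_pos b hb _ _ (by omega)
  have hIH := IH (dec r i) (dec c j) (by omega) (by omega)
  rw [AA_eq b hi hj, ZZ_eq b hi hj, ← BB_dec b hi hj]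
  have hA : 0 < b i j * FF (dec r i) (dec c j) b := mul_pos (hb i j) hF'
  have := mul_le_mul_of_nonneg_left hIH hA.le
  have e : b i j * FF (dec r i) (dec c j) b *
      (c0 + α * (EE b (dec r i) (dec c j) / FF (dec r i) (dec c j) b) +
        β * BB b (dec r i) (dec c j)) =
      b i j * FF (dec r i) (dec c j) b * c0 + α * (b i j * EE b (dec r i) (dec c j)) +
        β * (b i j * FF (dec r i) (dec c j) b * BB b (dec r i) (dec c j)) := by
    field_simp
  rw [e] at this
  exact this

/-- Summing `pair_bound` over all cells. -/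
theorem sum_pair_bound (b : R → C → ℝ) (hb : ∀ i j, 0 < b i j) (r : R → ℕ) (c : C → ℕ)
    (M : ℕ) (hr : ∑ i, r i = M + 1) (hc : ∑ j, c j = M + 1) (c0 α β : ℝ)
    (IH : ∀ (r' : R → ℕ) (c' : C → ℕ), ∑ i, r' i = M → ∑ j, c' j = M →
      Real.log (GG b r' c') ≤ c0 + α * (EE b r' c' / FF r' c' b) + β * BB b r' c') :
    (1 / FF r c b) * ∑ i, ∑ j, AA b r c i j * Real.log (GG b (dec r i) (dec c j)) ≤
      ((M : ℝ) + 1) * c0 + α * (M * (EE b r c / FF r c b)) +
        β * (((M : ℝ) - 1) * BB b r c + EE b r c / FF r c b) := by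
  have hF := FF_pos b hb r c (by rw [hr, hc])
  have hsum : ∑ i, ∑ j, AA b r c i j * Real.log (GG b (dec r i) (dec c j)) ≤
      ∑ i, ∑ j, (AA b r c i j * c0 + α * ZZ b r c i j +
        β * (AA b r c i j * (BB b r c - SS b c i - SSc b r j + b i j))) :=
    Finset.sum_le_sum fun i _ => Finset.sum_le_sum fun j _ =>
      pair_bound b hb r c M hr hc c0 α β IH i j
  have hR : ((∑ i, (r i : ℝ)) : ℝ) = (M : ℝ) + 1 := by
    rw [← Nat.cast_sum, hr]; push_cast; rfl
  have e1 : ∑ i, ∑ j, AA b r c i j = ((M : ℝ) + 1) * FF r c b := by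
    simp_rw [AA_row]
    rw [← Finset.sum_mul, hR]
  have e2 : ∑ i, ∑ j, ZZ b r c i j = (M : ℝ) * EE b r c := ZZ_sum b r c M hr
  have e3 : ∑ i, ∑ j, AA b r c i j * SS b c i = FF r c b * BB b r c := by
    rw [← sum_r_SS b r c, Finset.mul_sum]
    refine Finset.sum_congr rfl fun i _ => ?_
    rw [← Finset.sum_mul, AA_row]; ring
  have e4 : ∑ i, ∑ j, AA b r c i j * SSc b r j = FF r c b * BB b r c := by
    rw [← sum_c_SSc b r c, Finset.mul_sum, Finset.sum_comm]
    refine Finset.sum_congr rfl fun j _ => ?_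
    rw [← Finset.sum_mul, AA_col]; ring
  have e5 : ∑ i, ∑ j, AA b r c i j * b i j = EE b r c := by
    rw [EE_eq]
    refine Finset.sum_congr rfl fun i _ => Finset.sum_congr rfl fun j _ => ?_
    ring
  have eR : ∑ i, ∑ j, (AA b r c i j * c0 + α * ZZ b r c i j +
        β * (AA b r c i j * (BB b r c - SS b c i - SSc b r j + b i j))) =
      c0 * (((M : ℝ) + 1) * FF r c b) + α * ((M : ℝ) * EE b r c) +
        β * (BB b r c * (((M : ℝ) + 1) * FF r c b) - FF r c b * BB b r c
          - FF r c b * BB b r c + EE b r c) := by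
    have heq : ∑ i, ∑ j, (AA b r c i j * c0 + α * ZZ b r c i j +
        β * (AA b r c i j * (BB b r c - SS b c i - SSc b r j + b i j))) =
        c0 * (∑ i, ∑ j, AA b r c i j) + α * (∑ i, ∑ j, ZZ b r c i j) +
        β * (BB b r c * (∑ i, ∑ j, AA b r c i j) - (∑ i, ∑ j, AA b r c i j * SS b c i)
          - (∑ i, ∑ j, AA b r c i j * SSc b r j) + (∑ i, ∑ j, AA b r c i j * b i j)) := by
      simp only [Finset.mul_sum, ← Finset.sum_sub_distrib, ← Finset.sum_add_distrib]
      refine Finset.sum_congr rfl fun i _ => Finset.sum_congr rfl fun j _ => ?_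
      ring
    rw [heq, e1, e2, e3, e4, e5]
  rw [eR] at hsum
  have hFinv : 0 < 1 / FF r c b := by positivity
  have := mul_le_mul_of_nonneg_left hsum hFinv.le
  refine this.trans (le_of_eq ?_)
  field_simp
  ring

theorem SS_pos (b : R → C → ℝ) (hb : ∀ i j, 0 < b i j) (c : C → ℕ) (hc : 0 < ∑ j, c j) (i : R) :
    0 < SS b c i := by
  obtain ⟨j, hj⟩ := exists_pos_of_sum_pos c hc
  unfold SS
  refine Finset.sum_pos' (fun l _ => mul_nonneg (Nat.cast_nonneg _) (hb i l).le)
    ⟨j, Finset.mem_univ _, mul_pos (by exact_mod_cast hj) (hb i j)⟩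

/-- The potential inequality. -/
theorem potential (b : R → C → ℝ) (hb : ∀ i j, 0 < b i j) (N : ℝ) (hN : 0 < N) :
    ∀ (M : ℕ) (r : R → ℕ) (c : C → ℕ), ∑ i, r i = M → ∑ j, c j = M →
      Real.log (GG b r c) ≤ (Real.log ((M.factorial : ℝ) / N ^ M) - M) +
        alphaS N M * (EE b r c / FF r c b) + betaS N M * BB b r c := by
  intro M
  induction M with
  | zero =>
    intro r c hr hc
    rw [GG_zero b hr hc]
    simp [alphaS, betaS]
  | succ M ih =>
    intro r c hr hc
    push_cast
    have hM1 : (0 : ℝ) < (M : ℝ) + 1 := by positivity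
    have hF := FF_pos b hb r c (by rw [hr, hc])
    set Y := Real.log (GG b r c) with hY
    -- sum the row inequalities
    have hrow : ∑ i, (r i : ℝ) * Y ≤ ∑ i, ((r i : ℝ) * Real.log (SS b c i) +
        (1 / FF r c b) * ∑ j, AA b r c i j * Real.log (GG b (dec r i) (dec c j))) :=
      Finset.sum_le_sum fun i _ => row_ineq b hb r c (by rw [hr, hc]) i
    have hR : ((∑ i, (r i : ℝ)) : ℝ) = (M : ℝ) + 1 := by
      rw [← Nat.cast_sum, hr]; push_cast; rfl
    rw [← Finset.sum_mul, hR, Finset.sum_add_distrib, ← Finset.mul_sum] at hrow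
    have hpair := sum_pair_bound b hb r c M hr hc _ _ _ ih
    -- tangent line for the log
    have hSpos : ∀ i, 0 < SS b c i := SS_pos b hb c (by omega)
    have hNM : 0 < ((M : ℝ) + 1) / N := by positivity
    have htan : ∀ i, (r i : ℝ) * Real.log (SS b c i) ≤
        (r i : ℝ) * (Real.log (((M : ℝ) + 1) / N) - 1) +
          (N / ((M : ℝ) + 1)) * ((r i : ℝ) * SS b c i) := by
      intro i
      have h1 := Real.log_le_sub_one_of_pos (show 0 < SS b c i / (((M : ℝ) + 1) / N) by
        exact div_pos (hSpos i) hNM)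
      rw [Real.log_div (hSpos i).ne' hNM.ne'] at h1
      have h2 : SS b c i / (((M : ℝ) + 1) / N) = N / ((M : ℝ) + 1) * SS b c i := by
        field_simp
      rw [h2] at h1
      have h3 := mul_le_mul_of_nonneg_left h1 (Nat.cast_nonneg (α := ℝ) (r i))
      nlinarith [h3]
    have hlogsum : ∑ i, (r i : ℝ) * Real.log (SS b c i) ≤
        ((M : ℝ) + 1) * (Real.log (((M : ℝ) + 1) / N) - 1) +
          (N / ((M : ℝ) + 1)) * BB b r c := by
      calc ∑ i, (r i : ℝ) * Real.log (SS b c i)
          ≤ ∑ i, ((r i : ℝ) * (Real.log (((M : ℝ) + 1) / N) - 1) +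
              (N / ((M : ℝ) + 1)) * ((r i : ℝ) * SS b c i)) :=
            Finset.sum_le_sum fun i _ => htan i
        _ = _ := by
            rw [Finset.sum_add_distrib, ← Finset.sum_mul, hR, ← Finset.mul_sum, sum_r_SS]
    have hlogfact : Real.log (((M + 1).factorial : ℝ) / N ^ (M + 1)) =
        Real.log (((M : ℝ) + 1) / N) + Real.log ((M.factorial : ℝ) / N ^ M) := by
      rw [← Real.log_mul (by positivity) (by positivity)]
      congr 1
      rw [Nat.factorial_succ, pow_succ]
      push_cast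
      field_simp
    rw [hlogfact]
    simp only [alphaS, betaS]
    have hmain : ((M : ℝ) + 1) * Y ≤ ((M : ℝ) + 1) * (Real.log (((M : ℝ) + 1) / N) - 1) +
          (N / ((M : ℝ) + 1)) * BB b r c +
        (((M : ℝ) + 1) * (Real.log ((M.factorial : ℝ) / N ^ M) - M) +
          alphaS N M * (M * (EE b r c / FF r c b)) +
          betaS N M * (((M : ℝ) - 1) * BB b r c + EE b r c / FF r c b)) := by
      linarith
    have hgoal : Y ≤ Real.log (((M : ℝ) + 1) / N) + Real.log ((M.factorial : ℝ) / N ^ M) -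
          ((M : ℝ) + 1) +
        (((M : ℝ) * alphaS N M + betaS N M) / ((M : ℝ) + 1)) * (EE b r c / FF r c b) +
        (N / ((M : ℝ) + 1) ^ 2 + (1 - 2 / ((M : ℝ) + 1)) * betaS N M) * BB b r c := by
      have hscale : ((M : ℝ) + 1) * Y ≤ ((M : ℝ) + 1) *
          (Real.log (((M : ℝ) + 1) / N) + Real.log ((M.factorial : ℝ) / N ^ M) -
          ((M : ℝ) + 1) +
        (((M : ℝ) * alphaS N M + betaS N M) / ((M : ℝ) + 1)) * (EE b r c / FF r c b) +
        (N / ((M : ℝ) + 1) ^ 2 + (1 - 2 / ((M : ℝ) + 1)) * betaS N M) * BB b r c) := by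
        refine hmain.trans (le_of_eq ?_)
        field_simp
        ring
      exact le_of_mul_le_mul_left hscale hM1
    exact hgoal

theorem alpha_add_beta (N : ℝ) : ∀ M : ℕ, 1 ≤ M → alphaS N M + (M : ℝ) * betaS N M = N := by
  intro M hM
  induction M, hM using Nat.le_induction with
  | base => simp [alphaS, betaS]
  | succ M hM ih =>
    simp only [alphaS, betaS]
    push_cast
    have hM1 : ((M : ℝ) + 1) ≠ 0 := by positivity
    have hα : alphaS N M = N - (M : ℝ) * betaS N M := by linarith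
    rw [hα]
    field_simp
    ring

theorem beta_closed (N : ℝ) : ∀ M : ℕ,
    (M : ℝ) * ((M : ℝ) - 1) * betaS N M = N * ((M : ℝ) - ((harmonic M : ℚ) : ℝ)) := by
  intro M
  induction M with
  | zero => simp [betaS]
  | succ M ih =>
    simp only [betaS]
    rw [harmonic_succ]
    push_cast
    have hM1 : ((M : ℝ) + 1) ≠ 0 := by positivity
    have e : ((M : ℝ) + 1) * ((M : ℝ) + 1 - 1) *
        (N / ((M : ℝ) + 1) ^ 2 + (1 - 2 / ((M : ℝ) + 1)) * betaS N M) =
        (M : ℝ) * N / ((M : ℝ) + 1) + (M : ℝ) * ((M : ℝ) - 1) * betaS N M := by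
      field_simp
      ring
    rw [e, ih]
    field_simp
    ring

theorem harmonic_ge_three_halves (N : ℕ) (hN : 2 ≤ N) : (3 / 2 : ℝ) ≤ ((harmonic N : ℚ) : ℝ) := by
  induction N, hN using Nat.le_induction with
  | base => norm_num [harmonic]
  | succ M hM ih =>
    rw [harmonic_succ]
    push_cast
    have : (0 : ℝ) ≤ ((M : ℝ) + 1)⁻¹ := by positivity
    linarith

theorem LN_pos_le (N : ℕ) (hN : 2 ≤ N) : 0 < LN N ∧ LN N ≤ 2 * Real.log N := by
  have hN1 : (2 : ℝ) ≤ N := by exact_mod_cast hN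
  have hH := harmonic_ge_three_halves N hN
  have hup := harmonic_le_one_add_log N
  have hlog : 0 ≤ Real.log N := Real.log_nonneg (by linarith)
  unfold LN
  constructor
  · apply div_pos
    · apply mul_pos (by linarith)
      linarith
    · linarith
  · rw [div_le_iff₀ (by linarith)]
    have h1 : ((harmonic N : ℚ) : ℝ) - 1 ≤ Real.log N := by linarith
    have h2 : (N : ℝ) * (((harmonic N : ℚ) : ℝ) - 1) ≤ (N : ℝ) * Real.log N :=
      mul_le_mul_of_nonneg_left h1 (by linarith)
    nlinarith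

/-- `α_N = L_N`. -/
theorem alphaS_top (N : ℕ) (hN : 2 ≤ N) : alphaS (N : ℝ) N = LN N := by
  have hN1 : (2 : ℝ) ≤ N := by exact_mod_cast hN
  have h1 := alpha_add_beta (N : ℝ) N (by omega)
  have h2 := beta_closed (N : ℝ) N
  have hne : (N : ℝ) ≠ 0 := by linarith
  have hne1 : (N : ℝ) - 1 ≠ 0 := by
    intro h; linarith
  have h3 : ((N : ℝ) - 1) * betaS (N : ℝ) N = (N : ℝ) - ((harmonic N : ℚ) : ℝ) := by
    have : (N : ℝ) * (((N : ℝ) - 1) * betaS (N : ℝ) N) =
        (N : ℝ) * ((N : ℝ) - ((harmonic N : ℚ) : ℝ)) := by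
      rw [← h2]; ring
    exact mul_left_cancel₀ hne this
  unfold LN
  rw [eq_div_iff hne1]
  have h4 : alphaS (N : ℝ) N = (N : ℝ) - (N : ℝ) * betaS (N : ℝ) N := by linarith
  rw [h4]
  have : ((N : ℝ) - (N : ℝ) * betaS (N : ℝ) N) * ((N : ℝ) - 1) =
      (N : ℝ) * ((N : ℝ) - 1) - (N : ℝ) * (((N : ℝ) - 1) * betaS (N : ℝ) N) := by ring
  rw [this, h3]
  ring

/-- The bound `(C')` for row-stochastic matrices. -/
theorem first_moment_bound (b : R → C → ℝ) (hb : ∀ i j, 0 < b i j) (r : R → ℕ) (c : C → ℕ)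
    (hsum : ∑ i, r i = ∑ j, c j) (hN : 2 ≤ total r) (hst : ∀ i, ∑ j, (c j : ℝ) * b i j = 1) :
    Real.log (KK r c b) ≤ LN (total r) * (EE b r c / FF r c b - 1) := by
  set N := total r with hNdef
  have hN1 : (2 : ℝ) ≤ N := by exact_mod_cast hN
  have hN0 : (0 : ℝ) < N := by linarith
  have hr : ∑ i, r i = N := rfl
  have hc : ∑ j, c j = N := hsum.symm.trans hr
  have hpot := potential b hb (N : ℝ) hN0 N r c hr hc
  rw [alphaS_top N hN] at hpot
  have hBB : BB b r c = N := by
    rw [← sum_r_SS]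
    have : ∀ i, SS b c i = 1 := hst
    simp_rw [this, mul_one]
    rw [← Nat.cast_sum, hr]
  rw [hBB] at hpot
  have h1 := alpha_add_beta (N : ℝ) N (by omega)
  rw [alphaS_top N hN] at h1
  have hG := GG_pos b hb r c hsum
  have hfact : (0 : ℝ) < (N.factorial : ℝ) := by positivity
  have hpow : (0 : ℝ) < (N : ℝ) ^ N := by positivity
  have hKK : KK r c b = GG b r c * ((N : ℝ) ^ N / (N.factorial : ℝ)) := rfl
  rw [hKK, Real.log_mul hG.ne' (by positivity)]
  have hlog : Real.log ((N : ℝ) ^ N / (N.factorial : ℝ)) =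
      - Real.log ((N.factorial : ℝ) / (N : ℝ) ^ N) := by
    rw [← Real.log_inv, inv_div]
  rw [hlog]
  nlinarith [hpot, h1]

/-- Tilted weights. -/
theorem wt_tilt (b : R → C → ℝ) (τ : ℝ) (X : R → C → ℕ) :
    wt (fun i j => b i j * Real.exp (τ * b i j)) X = wt b X * Real.exp (τ * Xt b X) := by
  unfold wt Xt
  rw [Finset.mul_sum, Real.exp_sum, ← Finset.prod_mul_distrib]
  refine Finset.prod_congr rfl fun i _ => ?_
  rw [Finset.mul_sum, Real.exp_sum, ← Finset.prod_mul_distrib]
  refine Finset.prod_congr rfl fun j _ => ?_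
  rw [mul_pow, ← Real.exp_nat_mul]
  have : (X i j : ℝ) * (τ * b i j) = τ * ((X i j : ℝ) * b i j) := by ring
  rw [this]
  ring

/-- Jensen for the tilt. -/
theorem tilt_jensen (b : R → C → ℝ) (hb : ∀ i j, 0 < b i j) (r : R → ℕ) (c : C → ℕ)
    (hsum : ∑ i, r i = ∑ j, c j) (τ : ℝ) :
    Real.exp (τ * (EE b r c / FF r c b)) ≤
      FF r c (fun i j => b i j * Real.exp (τ * b i j)) / FF r c b := by
  have hF := FF_pos b hb r c hsum
  have hw : ∑ X ∈ tables r c, wt b X / FF r c b = 1 := by
    rw [← Finset.sum_div]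
    exact div_self hF.ne'
  have hj := convexOn_exp.map_sum_le (t := tables r c) (w := fun X => wt b X / FF r c b)
    (p := fun X => τ * Xt b X) (fun X _ => div_nonneg (wt_pos b hb X).le hF.le) hw
    (fun X _ => Set.mem_univ _)
  have e1 : ∑ X ∈ tables r c, (wt b X / FF r c b) • (τ * Xt b X) = τ * (EE b r c / FF r c b) := by
    unfold EE
    rw [Finset.sum_div, Finset.mul_sum]
    refine Finset.sum_congr rfl fun X _ => ?_
    simp only [smul_eq_mul]
    ring
  have e2 : ∑ X ∈ tables r c, (wt b X / FF r c b) • Real.exp (τ * Xt b X) =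
      FF r c (fun i j => b i j * Real.exp (τ * b i j)) / FF r c b := by
    unfold FF
    rw [Finset.sum_div]
    refine Finset.sum_congr rfl fun X _ => ?_
    rw [wt_tilt]
    simp only [smul_eq_mul]
    ring
  rw [e1, e2] at hj
  exact hj

/-- The one-row recursion for `G`. -/
theorem GG_rec (b : R → C → ℝ) (hb : ∀ i j, 0 < b i j) (r : R → ℕ) (c : C → ℕ)
    (hsum : ∑ i, r i = ∑ j, c j) (i : R) (hi : 0 < r i) :
    GG b r c = ∑ j, (c j : ℝ) * b i j * GG b (dec r i) (dec c j) := by
  have hF := FF_pos b hb r c hsum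
  have hri : (0 : ℝ) < r i := by exact_mod_cast hi
  have e : ∀ j, (c j : ℝ) * b i j * GG b (dec r i) (dec c j) =
      GG b r c * (AA b r c i j / ((r i : ℝ) * FF r c b)) := by
    intro j
    rcases Nat.eq_zero_or_pos (c j) with hj | hj
    · simp [hj, AA_zero_of_col b hj]
    · have hs := GG_step b hi hj
      have := mul_right_cancel₀ hF.ne' hs
      linarith
  simp_rw [e]
  rw [← Finset.mul_sum, ← Finset.sum_div, AA_row, div_self (by positivity), mul_one]

theorem SS_dec_le (b : R → C → ℝ) (hb : ∀ i j, 0 < b i j) (c : C → ℕ) (j : C) (k : R) :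
    SS b (dec c j) k ≤ SS b c k := by
  unfold SS
  refine Finset.sum_le_sum fun l _ => mul_le_mul_of_nonneg_right ?_ (hb k l).le
  unfold dec
  split_ifs
  · exact_mod_cast Nat.sub_le _ _
  · exact le_rfl

theorem prod_pow_dec {α : Type} [Fintype α] [DecidableEq α] (S : α → ℝ) (f : α → ℕ) (a : α)
    (h : 0 < f a) : S a * ∏ x, S x ^ dec f a x = ∏ x, S x ^ f x := by
  unfold dec
  rw [← Finset.mul_prod_erase _ _ (Finset.mem_univ a),
    ← Finset.mul_prod_erase _ (fun x => S x ^ f x) (Finset.mem_univ a)]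
  have : ∏ x ∈ univ.erase a, S x ^ (if x = a then f x - 1 else f x) =
      ∏ x ∈ univ.erase a, S x ^ f x := by
    refine Finset.prod_congr rfl fun x hx => ?_
    simp [Finset.ne_of_mem_erase hx]
  rw [this, ← mul_assoc]
  congr 1
  simp only [if_true]
  obtain ⟨k, hk⟩ : ∃ k, f a = k + 1 := ⟨f a - 1, by omega⟩
  rw [hk]
  simp [pow_succ]
  ring

/-- The product bound for `G`. -/
theorem GG_le_prod (b : R → C → ℝ) (hb : ∀ i j, 0 < b i j) :
    ∀ (M : ℕ) (r : R → ℕ) (c : C → ℕ), ∑ i, r i = M → ∑ j, c j = M →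
      GG b r c ≤ ∏ i, SS b c i ^ r i := by
  intro M
  induction M with
  | zero =>
    intro r c hr hc
    rw [GG_zero b hr hc]
    have h1 : ∀ i, r i = 0 := fun i => (Finset.sum_eq_zero_iff.mp hr) i (Finset.mem_univ i)
    simp [h1]
  | succ M ih =>
    intro r c hr hc
    obtain ⟨i, hi⟩ := exists_pos_of_sum_pos r (by omega)
    rw [GG_rec b hb r c (by rw [hr, hc]) i hi, ← prod_pow_dec (SS b c) r i hi]
    have hS : SS b c i = ∑ j, (c j : ℝ) * b i j := rfl
    rw [hS, Finset.sum_mul]
    refine Finset.sum_le_sum fun j _ => ?_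
    rcases Nat.eq_zero_or_pos (c j) with hj | hj
    · simp [hj]
    · have h1 := sum_dec r i hi
      have h2 := sum_dec c j hj
      have h3 := ih (dec r i) (dec c j) (by omega) (by omega)
      refine mul_le_mul_of_nonneg_left ?_ (mul_nonneg (Nat.cast_nonneg _) (hb i j).le)
      refine h3.trans ?_
      refine Finset.prod_le_prod (fun k _ => ?_) (fun k _ => ?_)
      · have : 0 ≤ SS b (dec c j) k := Finset.sum_nonneg fun l _ =>
          mul_nonneg (Nat.cast_nonneg _) (hb k l).le
        positivity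
      · refine pow_le_pow_left₀ ?_ (SS_dec_le b hb c j k) _
        exact Finset.sum_nonneg fun l _ => mul_nonneg (Nat.cast_nonneg _) (hb k l).le

/-- The tilt bound. -/
theorem tilt_bound (b : R → C → ℝ) (hb : ∀ i j, 0 < b i j) (r : R → ℕ) (c : C → ℕ)
    (hsum : ∑ i, r i = ∑ j, c j) (hpos : 0 < ∑ j, c j) (τ : ℝ) :
    τ * (EE b r c / FF r c b) ≤
      ∑ i, (r i : ℝ) * Real.log (∑ j, (c j : ℝ) * (b i j * Real.exp (τ * b i j))) -
        Real.log (GG b r c) := by
  have hb' : ∀ i j, 0 < b i j * Real.exp (τ * b i j) := fun i j => mul_pos (hb i j) (Real.exp_pos _)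
  have hF := FF_pos b hb r c hsum
  have hF' := FF_pos _ hb' r c hsum
  have hG := GG_pos b hb r c hsum
  have hJ := tilt_jensen b hb r c hsum τ
  have hP := GG_le_prod _ hb' _ r c rfl hsum.symm
  have hSpos : ∀ i, 0 < SS (fun i j => b i j * Real.exp (τ * b i j)) c i := SS_pos _ hb' c hpos
  have hlog1 : τ * (EE b r c / FF r c b) ≤ Real.log (FF r c (fun i j => b i j * Real.exp (τ * b i j)) / FF r c b) := by
    rw [Real.le_log_iff_exp_le (by positivity)]
    exact hJ
  have hratio : FF r c (fun i j => b i j * Real.exp (τ * b i j)) / FF r c b =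
      GG (fun i j => b i j * Real.exp (τ * b i j)) r c / GG b r c := by
    unfold GG
    have h2 : (∏ i, ((r i).factorial : ℝ)) ≠ 0 := by positivity
    have h3 : (∏ j, ((c j).factorial : ℝ)) ≠ 0 := by positivity
    rw [mul_div_mul_left _ _ (mul_ne_zero h2 h3)]
  rw [hratio] at hlog1
  have hG' := GG_pos _ hb' r c hsum
  rw [Real.log_div hG'.ne' hG.ne'] at hlog1
  have hlogP : Real.log (GG (fun i j => b i j * Real.exp (τ * b i j)) r c) ≤
      ∑ i, (r i : ℝ) * Real.log (∑ j, (c j : ℝ) * (b i j * Real.exp (τ * b i j))) := by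
    have := Real.log_le_log hG' hP
    rw [Real.log_prod (fun i _ => (pow_pos (hSpos i) _).ne')] at this
    simp_rw [Real.log_pow] at this
    exact this
  linarith

/-- The block entropic bound. -/
theorem block_bound (r : R → ℕ) (c : C → ℕ) (hsum : ∑ i, r i = ∑ j, c j) (hN : 2 ≤ total r)
    (b : R → C → ℝ) (hb : ∀ i j, 0 < b i j) (hst : ∀ i, ∑ j, (c j : ℝ) * b i j = 1)
    (θ : ℝ) (hθ : 0 < θ) :
    (1 + θ * LN (total r) / total r) * Real.log (KK r c b) ≤
      θ * LN (total r) / total r * ((total r : ℝ) + ∑ i, (r i : ℝ) * Real.log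
        (∑ j, (c j : ℝ) * b i j * Real.exp (((total r : ℝ) * b i j - 1) / θ))) := by
  set N := total r with hNdef
  have hN1 : (2 : ℝ) ≤ N := by exact_mod_cast hN
  have hN0 : (0 : ℝ) < N := by linarith
  have hr : ∑ i, r i = N := rfl
  have hc : ∑ j, c j = N := hsum.symm.trans hr
  have hcpos : 0 < ∑ j, c j := by omega
  have hL := (LN_pos_le N hN).1
  have hC := first_moment_bound b hb r c hsum hN hst
  set τ : ℝ := (N : ℝ) / θ with hτ
  have hτpos : 0 < τ := by positivity
  have hT := tilt_bound b hb r c hsum hcpos τ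
  have hG := GG_pos b hb r c hsum
  have hfact : (0 : ℝ) < (N.factorial : ℝ) := by positivity
  have hpow : (0 : ℝ) < (N : ℝ) ^ N := by positivity
  have hKK : KK r c b = GG b r c * ((N : ℝ) ^ N / (N.factorial : ℝ)) := rfl
  have hKlog : Real.log (KK r c b) = Real.log (GG b r c) + Real.log ((N : ℝ) ^ N / (N.factorial : ℝ)) := by
    rw [hKK, Real.log_mul hG.ne' (by positivity)]
  have hfac : Real.log ((N : ℝ) ^ N / (N.factorial : ℝ)) ≤ N := by
    have := Real.pow_div_factorial_le_exp (x := (N : ℝ)) hN0.le N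
    have h2 := Real.log_le_log (by positivity) this
    rwa [Real.log_exp] at h2
  -- rewriting `a_i`
  have hai : ∀ i, (∑ j, (c j : ℝ) * (b i j * Real.exp (τ * b i j))) =
      Real.exp (1 / θ) * ∑ j, (c j : ℝ) * b i j * Real.exp (((N : ℝ) * b i j - 1) / θ) := by
    intro i
    rw [Finset.mul_sum]
    refine Finset.sum_congr rfl fun j _ => ?_
    have : Real.exp (τ * b i j) = Real.exp (1 / θ) * Real.exp (((N : ℝ) * b i j - 1) / θ) := by
      rw [← Real.exp_add]
      congr 1
      rw [hτ]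
      field_simp
      ring
    rw [this]
    ring
  set a : R → ℝ := fun i => ∑ j, (c j : ℝ) * b i j * Real.exp (((N : ℝ) * b i j - 1) / θ) with ha
  have hapos : ∀ i, 0 < a i := by
    intro i
    obtain ⟨j, hj⟩ := exists_pos_of_sum_pos c hcpos
    refine Finset.sum_pos' (fun l _ => ?_) ⟨j, Finset.mem_univ _, ?_⟩
    · have := hb i l
      positivity
    · have := hb i j
      have hj' : (0 : ℝ) < c j := by exact_mod_cast hj
      positivity
  have hlogs : ∑ i, (r i : ℝ) * Real.log (∑ j, (c j : ℝ) * (b i j * Real.exp (τ * b i j))) =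
      (N : ℝ) / θ + ∑ i, (r i : ℝ) * Real.log (a i) := by
    have h1 : ∀ i, (r i : ℝ) * Real.log (∑ j, (c j : ℝ) * (b i j * Real.exp (τ * b i j))) =
        (r i : ℝ) * (1 / θ) + (r i : ℝ) * Real.log (a i) := by
      intro i
      rw [hai i, Real.log_mul (Real.exp_pos _).ne' (hapos i).ne', Real.log_exp]
      ring
    simp_rw [h1]
    rw [Finset.sum_add_distrib, ← Finset.sum_mul]
    have : ((∑ i, (r i : ℝ)) : ℝ) = N := by rw [← Nat.cast_sum, hr]
    rw [this]
    ring
  rw [hlogs] at hT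
  -- from the tilt bound: `E/F ≤ (θ/N) (N/θ + A - log G)`
  set A := ∑ i, (r i : ℝ) * Real.log (a i) with hA
  have hEF : EE b r c / FF r c b - 1 ≤ (θ / N) * (A - Real.log (GG b r c)) := by
    have h1 : (θ / N) * (τ * (EE b r c / FF r c b)) = EE b r c / FF r c b := by
      rw [hτ]; field_simp
    have h2 := mul_le_mul_of_nonneg_left hT (show (0 : ℝ) ≤ θ / N by positivity)
    rw [h1] at h2
    have h3 : (θ / N) * ((N : ℝ) / θ + A - Real.log (GG b r c)) =
        1 + (θ / N) * (A - Real.log (GG b r c)) := by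
      field_simp
      ring
    rw [h3] at h2
    linarith
  have hfinal : Real.log (KK r c b) ≤ LN N * ((θ / N) * (A - Real.log (GG b r c))) :=
    hC.trans (mul_le_mul_of_nonneg_left hEF hL.le)
  have hκ : θ * LN N / N = LN N * (θ / N) := by ring
  rw [hκ]
  have hκpos : 0 < LN N * (θ / N) := by positivity
  set κ := LN N * (θ / N) with hκdef
  have h5 : Real.log (KK r c b) ≤ κ * (A - Real.log (GG b r c)) := by
    rw [hκdef]
    calc _ ≤ _ := hfinal
      _ = _ := by ring
  have h6 : - Real.log (GG b r c) ≤ - Real.log (KK r c b) + N := by linarith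
  have h7 : κ * (A - Real.log (GG b r c)) ≤ κ * (A + (- Real.log (KK r c b) + N)) :=
    mul_le_mul_of_nonneg_left (by linarith) hκpos.le
  nlinarith

end Vale.Agent.Lib.P328.Blsy

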