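import Mathlib

/-!
# P328: box slices are symmetric and unimodal
-/

namespace Vale.Agent.Lib.P328.Blsy

open Finset

variable {C : Type} [DecidableEq C]

/-- number of `u ≤ d` with sum `p` -/
def boxCount [Fintype C] (d : C → ℕ) (p : ℕ) : ℕ :=
  ((Fintype.piFinset fun j => range (d j + 1)).filter fun u => ∑ j, u j = p).card

/-- Symmetric unimodal sequences with centre `D / 2` and support in `[0, D]`. -/
structure SU (f : ℕ → ℕ) (D : ℕ) : Prop where
  supp : ∀ p, D < p → f p = 0
  symm : ∀ p, p ≤ D → f (D - p) = f p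
  step : ∀ p, 2 * p + 1 ≤ D → f p ≤ f (p + 1)

theorem SU.mono {f : ℕ → ℕ} {D : ℕ} (h : SU f D) {a b : ℕ} (hab : a ≤ b) (hb : 2 * b ≤ D) :
    f a ≤ f b := by
  induction b, hab using Nat.le_induction with
  | base => exact le_rfl
  | succ b hb' ih =>
    exact (ih (by omega)).trans (h.step b (by omega))

theorem SU.main {f : ℕ → ℕ} {D : ℕ} (h : SU f D) {p q : ℕ}
    (hpq : |2 * (q : ℤ) - D| ≤ |2 * (p : ℤ) - D|) : f p ≤ f q := by
  by_cases hp : D < p
  · rw [h.supp p hp]; exact Nat.zero_le _
  push Not at hp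
  have hq : q ≤ D := by
    rw [abs_le] at hpq
    have h1 := hpq.2
    have h2 : |2 * (p : ℤ) - D| ≤ D := by
      rw [abs_le]; constructor <;> omega
    omega
  -- reflections
  obtain ⟨p', hp'1, hp'2, hp'3⟩ : ∃ p', 2 * p' ≤ D ∧ f p' = f p ∧ |2 * (p : ℤ) - D| = D - 2 * p' := by
    by_cases hc : 2 * p ≤ D
    · refine ⟨p, hc, rfl, ?_⟩
      rw [abs_of_nonpos (by omega)]; ring
    · refine ⟨D - p, by omega, h.symm p hp, ?_⟩
      rw [abs_of_nonneg (by omega)]; omega
  obtain ⟨q', hq'1, hq'2, hq'3⟩ : ∃ q', 2 * q' ≤ D ∧ f q' = f q ∧ |2 * (q : ℤ) - D| = D - 2 * q' := by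
    by_cases hc : 2 * q ≤ D
    · refine ⟨q, hc, rfl, ?_⟩
      rw [abs_of_nonpos (by omega)]; ring
    · refine ⟨D - q, by omega, h.symm q hq, ?_⟩
      rw [abs_of_nonneg (by omega)]; omega
  rw [← hp'2, ← hq'2]
  rw [hp'3, hq'3] at hpq
  exact h.mono (by omega) hq'1

/-- the convolution with the box `[0,d]` -/
def conv (f : ℕ → ℕ) (d p : ℕ) : ℕ :=
  ∑ u ∈ range (d + 1), if u ≤ p then f (p - u) else 0

theorem conv_succ (f : ℕ → ℕ) (d p : ℕ) :
    conv f d (p + 1) + (if d ≤ p then f (p - d) else 0) = f (p + 1) + conv f d p := by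
  unfold conv
  rw [Finset.sum_range_succ', Finset.sum_range_succ (fun u => if u ≤ p then f (p - u) else 0)]
  have : ∀ u, (if u + 1 ≤ p + 1 then f (p + 1 - (u + 1)) else 0)
      = (if u ≤ p then f (p - u) else 0) := by
    intro u
    by_cases hu : u ≤ p
    · rw [if_pos hu, if_pos (by omega)]
      congr 1
      omega
    · rw [if_neg hu, if_neg (by omega)]
  simp only [this]
  simp only [Nat.zero_le, if_true, Nat.sub_zero]
  ring

theorem SU.conv {f : ℕ → ℕ} {D : ℕ} (h : SU f D) (d : ℕ) : SU (conv f d) (D + d) := by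
  refine ⟨?_, ?_, ?_⟩
  · intro p hp
    unfold Blsy.conv
    apply Finset.sum_eq_zero
    intro u hu
    rw [Finset.mem_range] at hu
    split_ifs with huu
    · exact h.supp _ (by omega)
    · rfl
  · intro p hp
    unfold Blsy.conv
    rw [← Finset.sum_range_reflect]
    apply Finset.sum_congr rfl
    intro u hu
    rw [Finset.mem_range] at hu
    have e1 : d + 1 - 1 - u = d - u := by omega
    rw [e1]
    by_cases hup : u ≤ p
    · rw [if_pos hup]
      by_cases hc : d - u ≤ D + d - p
      · rw [if_pos hc]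
        by_cases hpu : p - u ≤ D
        · rw [← h.symm _ hpu]
          congr 1
          omega
        · omega
      · rw [if_neg hc]
        rw [h.supp _ (by omega)]
    · rw [if_neg hup]
      by_cases hc : d - u ≤ D + d - p
      · rw [if_pos hc]
        exact h.supp _ (by omega)
      · rw [if_neg hc]
  · intro p hp
    have key := conv_succ f d p
    by_cases hdp : d ≤ p
    · rw [if_pos hdp] at key
      -- `f (p - d) ≤ f (p + 1)`
      have hle : f (p - d) ≤ f (p + 1) := by
        by_cases hc : 2 * (p + 1) ≤ D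
        · exact h.mono (by omega) hc
        · have hb : p + 1 ≤ D := by omega
          rw [← h.symm _ hb]
          exact h.mono (by omega) (by omega)
      omega
    · rw [if_neg hdp] at key
      omega

/-- Generating polynomial of the box on `S`. -/
noncomputable def boxPoly (d : C → ℕ) (S : Finset C) : Polynomial ℕ :=
  ∏ j ∈ S, ∑ k ∈ range (d j + 1), (Polynomial.X : Polynomial ℕ) ^ k

theorem boxPoly_coeff_insert (d : C → ℕ) (S : Finset C) (a : C) (ha : a ∉ S) (p : ℕ) :
    (boxPoly d (insert a S)).coeff p = conv (fun t => (boxPoly d S).coeff t) (d a) p := by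
  unfold boxPoly
  rw [Finset.prod_insert ha, mul_comm, Finset.mul_sum, Polynomial.finsetSum_coeff]
  unfold conv
  apply Finset.sum_congr rfl
  intro u _
  rw [Polynomial.coeff_mul_X_pow']

theorem boxPoly_SU (d : C → ℕ) (S : Finset C) :
    SU (fun t => (boxPoly d S).coeff t) (∑ j ∈ S, d j) := by
  induction S using Finset.induction_on with
  | empty =>
    refine ⟨?_, ?_, ?_⟩
    · intro p hp
      simp only [boxPoly, Finset.prod_empty, Polynomial.coeff_one]
      rw [if_neg]
      simp only [Finset.sum_empty] at hp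
      omega
    · intro p hp
      simp only [Finset.sum_empty] at hp ⊢
      have : p = 0 := by omega
      subst this
      rfl
    · intro p hp
      simp only [Finset.sum_empty] at hp
      omega
  | insert a S ha ih =>
    have h := ih.conv (d a)
    rw [Finset.sum_insert ha, add_comm]
    have e : (fun t => (boxPoly d (insert a S)).coeff t) =
        Blsy.conv (fun t => (boxPoly d S).coeff t) (d a) := by
      funext t
      exact boxPoly_coeff_insert d S a ha t
    rw [e]
    exact h

theorem boxCount_eq_coeff [Fintype C] (d : C → ℕ) (p : ℕ) :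
    boxCount d p = (boxPoly d univ).coeff p := by
  unfold boxCount boxPoly
  rw [Finset.prod_univ_sum, Polynomial.finsetSum_coeff, Finset.card_filter]
  apply Finset.sum_congr rfl
  intro u _
  rw [Finset.prod_pow_eq_pow_sum, Polynomial.coeff_X_pow]
  by_cases h : ∑ j, u j = p
  · simp [h]
  · rw [if_neg h, if_neg (fun h' => h h'.symm)]

theorem boxCount_le [Fintype C] (d : C → ℕ) (p q : ℕ)
    (h : |2 * (q : ℤ) - ∑ j, (d j : ℤ)| ≤ |2 * (p : ℤ) - ∑ j, (d j : ℤ)|) :
    boxCount d p ≤ boxCount d q := by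
  rw [boxCount_eq_coeff, boxCount_eq_coeff]
  have hS := boxPoly_SU d univ
  apply hS.main (p := p) (q := q)
  have e : ((∑ j, d j : ℕ) : ℤ) = ∑ j, (d j : ℤ) := by push_cast; rfl
  rw [e]
  exact h

end Vale.Agent.Lib.P328.Blsy
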