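import Mathlib
import Vale.Agent.Lib.P328.Defs
import Vale.Agent.Lib.P328.Blsy.Box

/-!
# P328: Schur concavity of the number of tables in the row sums
-/

namespace Vale.Agent.Lib.P328.Blsy

open Finset

variable {R C : Type} [Fintype R] [Fintype C] [DecidableEq R] [DecidableEq C]

/-- The tables with the rows `p, q` erased. -/
def restRows (p q : R) (X : R → C → ℕ) : R → C → ℕ :=
  fun i => if i = p ∨ i = q then 0 else X i

/-- The fibre of `restRows` over `Z` in `tables a c`. -/
def restFib (a : R → ℕ) (c : C → ℕ) (p q : R) (Z : R → C → ℕ) : Finset (R → C → ℕ) :=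
  (tables a c).filter fun X => restRows p q X = Z

/-- The fibre injects into a box slice by reading row `p`. -/
theorem restFib_card_le (a : R → ℕ) (c : C → ℕ) {p q : R} (hpq : p ≠ q) (X₀ : R → C → ℕ)
    (hX₀ : X₀ ∈ tables a c) :
    (restFib a c p q (restRows p q X₀)).card ≤
      boxCount (fun j => X₀ p j + X₀ q j) (a p) := by
  unfold boxCount restFib
  apply Finset.card_le_card_of_injOn (fun X => X p)
  · intro X hX
    simp only [Finset.coe_filter, Set.mem_ofPred_eq] at hX ⊢
    obtain ⟨hXt, hXZ⟩ := hX
    have hXm := Vale.Agent.Lib.P328.mem_tables.1 hXt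
    have hX0m := Vale.Agent.Lib.P328.mem_tables.1 hX₀
    refine ⟨?_, hXm.1 p⟩
    rw [Fintype.mem_piFinset]
    intro j
    rw [Finset.mem_range, Nat.lt_succ_iff]
    -- the other rows agree
    have hoff : ∀ i, i ≠ p → i ≠ q → X i = X₀ i := by
      intro i hip hiq
      have := congrFun hXZ i
      simp only [restRows] at this
      rw [if_neg (by tauto), if_neg (by tauto)] at this
      exact this
    have hcolX := hXm.2 j
    have hcolX0 := hX0m.2 j
    rw [← Finset.add_sum_erase _ _ (Finset.mem_univ p),
      ← Finset.add_sum_erase _ _ (Finset.mem_erase.2 ⟨hpq.symm, Finset.mem_univ q⟩)] at hcolX hcolX0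
    have hrest : ∑ i ∈ ((univ : Finset R).erase p).erase q, X i j =
        ∑ i ∈ ((univ : Finset R).erase p).erase q, X₀ i j := by
      apply Finset.sum_congr rfl
      intro i hi
      simp only [Finset.mem_erase, Finset.mem_univ, and_true] at hi
      rw [hoff i hi.2 hi.1]
    omega
  · intro X hX Y hY hXY
    simp only [Finset.coe_filter, Set.mem_ofPred_eq] at hX hY
    obtain ⟨hXt, hXZ⟩ := hX
    obtain ⟨hYt, hYZ⟩ := hY
    have hXm := Vale.Agent.Lib.P328.mem_tables.1 hXt
    have hYm := Vale.Agent.Lib.P328.mem_tables.1 hYt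
    simp only at hXY
    have hoff : ∀ i, i ≠ p → i ≠ q → X i = Y i := by
      intro i hip hiq
      have h1 := congrFun hXZ i
      have h2 := congrFun hYZ i
      simp only [restRows] at h1 h2
      rw [if_neg (by tauto)] at h1 h2
      rw [h1, h2]
    funext i j
    by_cases hip : i = p
    · subst hip; rw [hXY]
    by_cases hiq : i = q
    · subst hiq
      have hc1 := hXm.2 j
      have hc2 := hYm.2 j
      rw [← Finset.add_sum_erase _ _ (Finset.mem_univ p),
        ← Finset.add_sum_erase _ _ (Finset.mem_erase.2 ⟨hpq.symm, Finset.mem_univ i⟩)] at hc1 hc2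
      have hrest : ∑ k ∈ ((univ : Finset R).erase p).erase i, X k j =
          ∑ k ∈ ((univ : Finset R).erase p).erase i, Y k j := by
        apply Finset.sum_congr rfl
        intro k hk
        simp only [Finset.mem_erase, Finset.mem_univ, and_true] at hk
        rw [hoff k hk.2 hk.1]
      have hpj : X p j = Y p j := congrFun hXY j
      omega
    · rw [hoff i hip hiq]

/-- The box slice injects into the fibre over the rows of a table with the same off rows. -/
theorem boxCount_le_restFib (a a' : R → ℕ) (c : C → ℕ) {p q : R} (hpq : p ≠ q) (X₀ : R → C → ℕ)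
    (hX₀ : X₀ ∈ tables a c) (hoff : ∀ i, i ≠ p → i ≠ q → a' i = a i)
    (hsum : a' p + a' q = a p + a q) :
    boxCount (fun j => X₀ p j + X₀ q j) (a' p) ≤
      (restFib a' c p q (restRows p q X₀)).card := by
  classical
  unfold boxCount restFib
  have hX0m := Vale.Agent.Lib.P328.mem_tables.1 hX₀
  let build : (C → ℕ) → R → C → ℕ := fun u i j =>
    if i = p then u j else if i = q then X₀ p j + X₀ q j - u j else X₀ i j
  apply Finset.card_le_card_of_injOn build
  · intro u hu
    simp only [Finset.coe_filter, Set.mem_ofPred_eq, Fintype.mem_piFinset, Finset.mem_range,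
      Nat.lt_succ_iff] at hu
    obtain ⟨hu1, hu2⟩ := hu
    simp only [Finset.coe_filter, Set.mem_ofPred_eq]
    refine ⟨?_, ?_⟩
    · rw [Vale.Agent.Lib.P328.mem_tables]
      refine ⟨?_, ?_⟩
      · intro i
        by_cases hip : i = p
        · subst hip
          simp only [build, if_true]
          exact hu2
        by_cases hiq : i = q
        · subst hiq
          simp only [build, if_neg hip, if_true]
          have h1 : ∑ z, (X₀ p z + X₀ i z - u z) + ∑ z, u z = ∑ z, (X₀ p z + X₀ i z) := by
            rw [← Finset.sum_add_distrib]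
            apply Finset.sum_congr rfl
            intro z _
            exact Nat.sub_add_cancel (hu1 z)
          rw [Finset.sum_add_distrib, hX0m.1 p, hX0m.1 i, hu2] at h1
          omega
        · simp only [build, if_neg hip, if_neg hiq]
          rw [hX0m.1 i, hoff i hip hiq]
      · intro j
        have hc := hX0m.2 j
        rw [← Finset.add_sum_erase _ _ (Finset.mem_univ p),
          ← Finset.add_sum_erase _ _ (Finset.mem_erase.2 ⟨hpq.symm, Finset.mem_univ q⟩)] at hc ⊢
        have hrest : ∑ k ∈ ((univ : Finset R).erase p).erase q, build u k j =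
            ∑ k ∈ ((univ : Finset R).erase p).erase q, X₀ k j := by
          apply Finset.sum_congr rfl
          intro k hk
          simp only [Finset.mem_erase, Finset.mem_univ, and_true] at hk
          simp only [build, if_neg hk.2, if_neg hk.1]
        rw [hrest]
        have h1 : build u p j = u j := by simp only [build, if_true]
        have h2 : build u q j = X₀ p j + X₀ q j - u j := by
          simp only [build, if_neg hpq.symm, if_true]
        rw [h1, h2]
        have := hu1 j
        omega
    · funext i
      simp only [restRows]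
      by_cases h : i = p ∨ i = q
      · rw [if_pos h, if_pos h]
      · rw [if_neg h, if_neg h]
        funext j
        have hip : i ≠ p := fun e => h (Or.inl e)
        have hiq : i ≠ q := fun e => h (Or.inr e)
        simp only [build, if_neg hip, if_neg hiq]
  · intro u _ v _ huv
    funext j
    have := congrFun (congrFun huv p) j
    simpa only [build, if_true] using this

theorem tables_card_le_of_transfer (a a' : R → ℕ) (c : C → ℕ) {p q : R} (hpq : p ≠ q)
    (hoff : ∀ i, i ≠ p → i ≠ q → a' i = a i) (hsum : a' p + a' q = a p + a q)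
    (hd : |(a' p : ℤ) - a' q| ≤ |(a p : ℤ) - a q|) :
    (tables a c).card ≤ (tables a' c).card := by
  classical
  -- sum over the image of `restRows`
  set T := (tables a c).image (restRows p q) with hT
  have h1 : (tables a c).card = ∑ Z ∈ T, (restFib a c p q Z).card := by
    unfold restFib
    exact Finset.card_eq_sum_card_fiberwise (fun X hX => Finset.mem_coe.2 (Finset.mem_image_of_mem _ hX))
  have h2 : ∑ Z ∈ T, (restFib a' c p q Z).card ≤ (tables a' c).card := by
    have hdisj : (T : Set (R → C → ℕ)).PairwiseDisjoint (restFib a' c p q) := by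
      intro Z _ W _ hZW
      refine Finset.disjoint_left.2 ?_
      intro X hX hX'
      simp only [restFib, Finset.mem_filter] at hX hX'
      exact hZW (hX.2.symm.trans hX'.2)
    rw [← Finset.card_biUnion hdisj]
    apply Finset.card_le_card
    intro X hX
    rw [Finset.mem_biUnion] at hX
    obtain ⟨Z, _, hZ⟩ := hX
    simp only [restFib, Finset.mem_filter] at hZ
    exact hZ.1
  rw [h1]
  refine le_trans (Finset.sum_le_sum ?_) h2
  intro Z hZ
  obtain ⟨X₀, hX₀, rfl⟩ := Finset.mem_image.1 hZ
  refine (restFib_card_le a c hpq X₀ hX₀).trans (le_trans ?_ (boxCount_le_restFib a a' c hpq X₀ hX₀ hoff hsum))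
  apply boxCount_le
  have hX0m := Vale.Agent.Lib.P328.mem_tables.1 hX₀
  have hD : ∑ j, ((X₀ p j + X₀ q j : ℕ) : ℤ) = (a p : ℤ) + a q := by
    have : ∑ j, (X₀ p j + X₀ q j) = a p + a q := by
      rw [Finset.sum_add_distrib, hX0m.1 p, hX0m.1 q]
    exact_mod_cast this
  rw [hD]
  have hs : (a' p : ℤ) + a' q = a p + a q := by exact_mod_cast hsum
  have e1 : 2 * (a' p : ℤ) - ((a p : ℤ) + a q) = (a' p : ℤ) - a' q := by linarith
  have e2 : 2 * (a p : ℤ) - ((a p : ℤ) + a q) = (a p : ℤ) - a q := by ring
  rw [e1, e2]
  exact hd

end Vale.Agent.Lib.P328.Blsy
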