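import Mathlib
import Vale.Agent.Lib.P328.Defs
import Vale.Agent.Lib.P328.Blsy.Schur

/-!
# P328: tail of a cell in tables with equal row sums
-/

namespace Vale.Agent.Lib.P328.Blsy

open Finset

variable {R C : Type} [Fintype R] [Fintype C] [DecidableEq R] [DecidableEq C]

/-- The tables with all row sums `r` whose entries in column `j` dominate `d`. -/
def QQ (r : ℕ) (c : C → ℕ) (j : C) (d : R → ℕ) : Finset (R → C → ℕ) :=
  (tables (fun _ : R => r) c).filter fun X => ∀ i, d i ≤ X i j

/-- Shift bijection. -/
theorem QQ_card_eq (r : ℕ) (c : C → ℕ) (j : C) (d : R → ℕ) (hd : ∀ i, d i ≤ r)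
    (hc : ∑ i, d i ≤ c j) :
    (QQ r c j d).card =
      (tables (fun i => r - d i) (Function.update c j (c j - ∑ i, d i))).card := by
  classical
  have hD : ∀ i, ∑ k, (if k = j then d i else 0) = d i := by
    intro i
    simp
  refine Finset.card_nbij' (fun X i k => X i k - (if k = j then d i else 0))
    (fun Y i k => Y i k + (if k = j then d i else 0)) ?_ ?_ ?_ ?_
  · intro X hX
    simp only [QQ, Finset.coe_filter, Set.mem_ofPred_eq, mem_tables, Finset.mem_coe] at hX ⊢
    obtain ⟨⟨hrow, hcol⟩, hdX⟩ := hX
    have hle : ∀ i k, (if k = j then d i else 0) ≤ X i k := by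
      intro i k
      split_ifs with h
      · subst h; exact hdX i
      · exact Nat.zero_le _
    constructor
    · intro i
      have h1 : ∑ k, (X i k - (if k = j then d i else 0)) + ∑ k, (if k = j then d i else 0)
          = ∑ k, X i k := by
        rw [← Finset.sum_add_distrib]
        exact Finset.sum_congr rfl fun k _ => Nat.sub_add_cancel (hle i k)
      rw [hD, hrow i] at h1
      omega
    · intro k
      have h1 : ∑ i, (X i k - (if k = j then d i else 0)) + ∑ i, (if k = j then d i else 0)
          = ∑ i, X i k := by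
        rw [← Finset.sum_add_distrib]
        exact Finset.sum_congr rfl fun i _ => Nat.sub_add_cancel (hle i k)
      by_cases hk : k = j
      · subst hk
        simp only [if_true, Function.update_self] at h1 ⊢
        rw [hcol k] at h1
        omega
      · simp only [hk, if_false, Function.update_of_ne hk, Finset.sum_const_zero, add_zero,
          Nat.sub_zero] at h1 ⊢
        exact (hcol k)
  · intro Y hY
    simp only [QQ, Finset.coe_filter, Set.mem_ofPred_eq, mem_tables, Finset.mem_coe] at hY ⊢
    obtain ⟨hrow, hcol⟩ := hY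
    refine ⟨⟨?_, ?_⟩, ?_⟩
    · intro i
      rw [Finset.sum_add_distrib, hrow i, hD]
      exact Nat.sub_add_cancel (hd i)
    · intro k
      rw [Finset.sum_add_distrib, hcol k]
      by_cases hk : k = j
      · subst hk
        simp only [if_true, Function.update_self]
        exact Nat.sub_add_cancel hc
      · simp [hk, Function.update_of_ne hk]
    · intro i
      simp
  · intro X hX
    simp only [QQ, Finset.coe_filter, Set.mem_ofPred_eq, mem_tables, Finset.mem_coe] at hX
    funext i k
    have : (if k = j then d i else 0) ≤ X i k := by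
      split_ifs with h
      · subst h; exact hX.2 i
      · exact Nat.zero_le _
    exact Nat.sub_add_cancel this
  · intro Y _
    funext i k
    exact Nat.add_sub_cancel _ _

/-- An entry is at most the row sum. -/
theorem entry_le_row {r : ℕ} {c : C → ℕ} {X : R → C → ℕ} (hX : X ∈ tables (fun _ : R => r) c)
    (i : R) (j : C) : X i j ≤ r := by
  have h := (mem_tables.1 hX).1 i
  rw [← h]
  exact Finset.single_le_sum (f := fun z => X i z) (fun _ _ => Nat.zero_le _) (mem_univ j)

/-- Schur concavity for the lower bounds in one column. -/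
theorem QQ_le (r : ℕ) (c : C → ℕ) (j : C) (d d' : R → ℕ) {p q : R} (hpq : p ≠ q)
    (hoff : ∀ i, i ≠ p → i ≠ q → d' i = d i) (hsum : d' p + d' q = d p + d q)
    (hd : |(d' p : ℤ) - d' q| ≤ |(d p : ℤ) - d q|) :
    (QQ r c j d).card ≤ (QQ r c j d').card := by
  classical
  by_cases hdr : ∀ i, d i ≤ r
  swap
  · push Not at hdr
    obtain ⟨i, hi⟩ := hdr
    have : QQ r c j d = ∅ := by
      apply Finset.filter_eq_empty_iff.2
      intro X hX hall
      have h1 := entry_le_row hX i j
      have h2 := hall i
      omega
    rw [this]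
    simp
  have hSum : ∑ i, d' i = ∑ i, d i := by
    rw [← Finset.add_sum_erase _ _ (Finset.mem_univ p),
      ← Finset.add_sum_erase _ _ (Finset.mem_erase.2 ⟨hpq.symm, Finset.mem_univ q⟩),
      ← Finset.add_sum_erase _ d (Finset.mem_univ p),
      ← Finset.add_sum_erase _ d (Finset.mem_erase.2 ⟨hpq.symm, Finset.mem_univ q⟩)]
    have : ∑ i ∈ ((univ : Finset R).erase p).erase q, d' i =
        ∑ i ∈ ((univ : Finset R).erase p).erase q, d i := by
      apply Finset.sum_congr rfl
      intro i hi
      simp only [Finset.mem_erase, Finset.mem_univ, and_true] at hi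
      exact hoff i hi.2 hi.1
    omega
  by_cases hc : ∑ i, d i ≤ c j
  swap
  · have : QQ r c j d = ∅ := by
      apply Finset.filter_eq_empty_iff.2
      intro X hX hall
      apply hc
      rw [← (mem_tables.1 hX).2 j]
      exact Finset.sum_le_sum fun i _ => hall i
    rw [this]
    simp
  have hdp := hdr p
  have hdq := hdr q
  have hbd : (d' p : ℤ) ≤ r ∧ (d' q : ℤ) ≤ r := by
    have h1 : ((d' p : ℤ) + d' q) = (d p : ℤ) + d q := by exact_mod_cast hsum
    have h2 : (d p : ℤ) ≤ r := by exact_mod_cast hdp
    have h3 : (d q : ℤ) ≤ r := by exact_mod_cast hdq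
    rcases abs_cases ((d' p : ℤ) - d' q) with ⟨h5, _⟩ | ⟨h5, _⟩ <;>
      rcases abs_cases ((d p : ℤ) - d q) with ⟨h6, _⟩ | ⟨h6, _⟩ <;>
      rw [h5, h6] at hd <;> constructor <;> linarith
  have hdr' : ∀ i, d' i ≤ r := by
    intro i
    by_cases hip : i = p
    · subst hip; exact_mod_cast hbd.1
    by_cases hiq : i = q
    · subst hiq; exact_mod_cast hbd.2
    rw [hoff i hip hiq]; exact hdr i
  rw [QQ_card_eq r c j d hdr hc, QQ_card_eq r c j d' hdr' (by rw [hSum]; exact hc), hSum]
  apply tables_card_le_of_transfer _ _ _ hpq
  · intro i hip hiq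
    simp only [hoff i hip hiq]
  · have := hdr' p
    have := hdr' q
    omega
  · have e1 : ((r - d' p : ℕ) : ℤ) - ((r - d' q : ℕ) : ℤ) = (d' q : ℤ) - d' p := by
      rw [Nat.cast_sub (hdr' p), Nat.cast_sub (hdr' q)]; ring
    have e2 : ((r - d p : ℕ) : ℤ) - ((r - d q : ℕ) : ℤ) = (d q : ℤ) - d p := by
      rw [Nat.cast_sub (hdr p), Nat.cast_sub (hdr q)]; ring
    rw [e1, e2, abs_sub_comm, abs_sub_comm (d q : ℤ)]
    exact hd

/-- The intermediate lower bounds of the chain of block transfers. -/
def dT (b s : ℕ) (l : R) (T : Finset R) : R → ℕ :=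
  fun i => if i = l then b * (s - T.card) else if i ∈ T then b else 0

theorem QQ_chain (r : ℕ) (c : C → ℕ) (j : C) (b s : ℕ) (l : R) (T : Finset R) :
    l ∉ T → T.card < s →
    (QQ r c j (dT b s l (∅ : Finset R))).card ≤ (QQ r c j (dT b s l T)).card := by
  classical
  induction T using Finset.induction_on with
  | empty => intro _ _; exact le_rfl
  | insert i T hi IH =>
    intro hl hcard
    have hl' : l ∉ T := fun h => hl (Finset.mem_insert_of_mem h)
    have hil : i ≠ l := fun h => hl (h ▸ Finset.mem_insert_self _ _)
    have hc' : (insert i T).card = T.card + 1 := Finset.card_insert_of_notMem hi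
    rw [hc'] at hcard
    refine (IH hl' (by omega)).trans ?_
    apply QQ_le r c j _ _ (p := l) (q := i) hil.symm
    · intro i' hi'l hi'i
      simp only [dT, if_neg hi'l, Finset.mem_insert, hi'i, false_or]
    · simp only [dT, if_true, if_neg hil, Finset.mem_insert_self, if_neg hi, hc']
      obtain ⟨u, hu⟩ : ∃ u, s = T.card + 1 + u + 1 := ⟨s - T.card - 2, by omega⟩
      have h1 : s - (T.card + 1) = u + 1 := by omega
      have h2 : s - T.card = u + 2 := by omega
      rw [h1, h2]; ring
    · simp only [dT, if_true, if_neg hil, Finset.mem_insert_self, if_neg hi, hc']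
      obtain ⟨u, hu⟩ : ∃ u, s = T.card + 1 + u + 1 := ⟨s - T.card - 2, by omega⟩
      have h1 : s - (T.card + 1) = u + 1 := by omega
      have h2 : s - T.card = u + 2 := by omega
      rw [h1, h2]
      push_cast
      simp only [sub_zero]
      have hb : (0 : ℤ) ≤ b := by positivity
      have hu0 : (0 : ℤ) ≤ u := by positivity
      rw [abs_of_nonneg (a := (b : ℤ) * (u + 2)) (by positivity)]
      rw [abs_le]
      constructor <;> nlinarith [mul_nonneg hb hu0]

/-- Row symmetry of the tail. -/
theorem tail_symm (r : ℕ) (c : C → ℕ) (j : C) (t : ℕ) (l l' : R) :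
    ((tables (fun _ : R => r) c).filter fun X => t ≤ X l j).card =
      ((tables (fun _ : R => r) c).filter fun X => t ≤ X l' j).card := by
  classical
  have key : ∀ X ∈ tables (fun _ : R => r) c,
      (fun i => X (Equiv.swap l l' i)) ∈ tables (fun _ : R => r) c := by
    intro X hX
    rw [mem_tables] at hX ⊢
    refine ⟨fun i => hX.1 _, fun z => ?_⟩
    rw [← hX.2 z]
    exact Equiv.sum_comp (Equiv.swap l l') (fun i => X i z)
  refine Finset.card_nbij' (fun X i => X (Equiv.swap l l' i)) (fun X i => X (Equiv.swap l l' i))
    ?_ ?_ ?_ ?_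
  · intro X hX
    simp only [Finset.coe_filter, Set.mem_ofPred_eq] at hX ⊢
    refine ⟨key X hX.1, ?_⟩
    simpa using hX.2
  · intro X hX
    simp only [Finset.coe_filter, Set.mem_ofPred_eq] at hX ⊢
    refine ⟨key X hX.1, ?_⟩
    simpa using hX.2
  · intro X _
    funext i
    simp
  · intro X _
    funext i
    simp

/-- Transfers: the tail at `b s` is at most the count with `b` on all rows of `S`. -/
theorem tail_le_block (r : ℕ) (c : C → ℕ) (l : R) (j : C) (b : ℕ) (S : Finset R) :
    ((tables (fun _ : R => r) c).filter fun X => b * S.card ≤ X l j).card ≤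
      (QQ r c j (fun i => if i ∈ S then b else 0)).card := by
  classical
  rcases S.eq_empty_or_nonempty with rfl | ⟨l', hl'⟩
  · have : QQ r c j (fun i => if i ∈ (∅ : Finset R) then b else 0) =
        tables (fun _ : R => r) c := by
      apply Finset.filter_true_of_mem
      intro X _ i
      simp
    rw [this]
    exact Finset.card_filter_le _ _
  · rw [tail_symm r c j _ l l']
    have hcardpos : 0 < S.card := Finset.card_pos.2 ⟨l', hl'⟩
    have h1 := QQ_chain r c j b S.card l' (S.erase l') (Finset.notMem_erase _ _)
      (by rw [Finset.card_erase_of_mem hl']; omega)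
    have e1 : (QQ r c j (dT b S.card l' (∅ : Finset R))) =
        (tables (fun _ : R => r) c).filter fun X => b * S.card ≤ X l' j := by
      unfold QQ
      apply Finset.filter_congr
      intro X _
      constructor
      · intro h
        have := h l'
        simpa [dT] using this
      · intro h i
        by_cases hi : i = l'
        · subst hi; simpa [dT] using h
        · simp [dT, hi]
    have e2 : dT b S.card l' (S.erase l') = fun i => if i ∈ S then b else 0 := by
      funext i
      unfold dT
      rw [Finset.card_erase_of_mem hl']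
      by_cases hi : i = l'
      · subst hi
        have : S.card - (S.card - 1) = 1 := by omega
        simp [this, hl']
      · simp [hi]
    rw [← e1]
    rwa [e2] at h1

/-- **Cell tail.** In tables with equal row sums `P(x_lj ≥ b s) ≤ C(⌊c_j/b⌋, s) / C(m, s)`. -/
theorem cell_tail (r : ℕ) (c : C → ℕ) (l : R) (j : C) (b s : ℕ) (hb : 1 ≤ b)
    (_hs : s ≤ Fintype.card R) :
    ((tables (fun _ : R => r) c).filter (fun X => b * s ≤ X l j)).card *
        (Fintype.card R).choose s ≤
      (tables (fun _ : R => r) c).card * (c j / b).choose s := by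
  classical
  set Om := tables (fun _ : R => r) c with hOm
  set PS := powersetCard s (univ : Finset R) with hPS
  have hPScard : PS.card = (Fintype.card R).choose s := by
    rw [hPS, Finset.card_powersetCard]; rfl
  -- the block counts summed over all `S`
  have h1 : ((Om.filter (fun X => b * s ≤ X l j)).card) * PS.card ≤
      ∑ S ∈ PS, (QQ r c j (fun i => if i ∈ S then b else 0)).card := by
    rw [mul_comm, ← smul_eq_mul]
    apply Finset.card_nsmul_le_sum
    intro S hS
    have hScard : S.card = s := (Finset.mem_powersetCard.1 hS).2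
    have := tail_le_block r c l j b S
    rwa [hScard] at this
  have h2 : ∑ S ∈ PS, (QQ r c j (fun i => if i ∈ S then b else 0)).card ≤
      Om.card * (c j / b).choose s := by
    have e := Finset.sum_card_bipartiteAbove_eq_sum_card_bipartiteBelow (s := PS) (t := Om)
      (fun (S : Finset R) (X : R → C → ℕ) => ∀ i, (if i ∈ S then b else 0) ≤ X i j)
    have e' : ∑ S ∈ PS, (QQ r c j (fun i => if i ∈ S then b else 0)).card =
        ∑ S ∈ PS, (Finset.bipartiteAbove
          (fun (S : Finset R) (X : R → C → ℕ) => ∀ i, (if i ∈ S then b else 0) ≤ X i j)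
          Om S).card := by
      apply Finset.sum_congr rfl
      intro S _
      rfl
    rw [e', e, ← smul_eq_mul]
    apply Finset.sum_le_card_nsmul
    intro X hX
    set Y := (univ : Finset R).filter (fun i => b ≤ X i j) with hY
    have hYcard : Y.card ≤ c j / b := by
      rw [Nat.le_div_iff_mul_le hb]
      have h3 : Y.card • b ≤ ∑ i ∈ Y, X i j := by
        apply Finset.card_nsmul_le_sum
        intro i hi
        exact (Finset.mem_filter.1 hi).2
      have h4 : ∑ i ∈ Y, X i j ≤ ∑ i, X i j :=
        Finset.sum_le_sum_of_subset_of_nonneg (Finset.subset_univ _) (fun _ _ _ => Nat.zero_le _)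
      rw [(mem_tables.1 hX).2 j] at h4
      rw [smul_eq_mul] at h3
      omega
    have h5 : (Finset.bipartiteBelow
          (fun (S : Finset R) (X : R → C → ℕ) => ∀ i, (if i ∈ S then b else 0) ≤ X i j)
          PS X) ⊆ powersetCard s Y := by
      intro S hS
      have hS' := Finset.mem_filter.1 hS
      have hSP := Finset.mem_powersetCard.1 hS'.1
      refine Finset.mem_powersetCard.2 ⟨?_, hSP.2⟩
      intro i hi
      refine Finset.mem_filter.2 ⟨Finset.mem_univ _, ?_⟩
      have := hS'.2 i
      rwa [if_pos hi] at this
    calc _ ≤ (powersetCard s Y).card := Finset.card_le_card h5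
      _ = Y.card.choose s := Finset.card_powersetCard _ _
      _ ≤ _ := Nat.choose_le_choose s hYcard
  rw [hPScard] at h1
  exact h1.trans h2

end Vale.Agent.Lib.P328.Blsy
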