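import Mathlib
import Vale.Agent.Lib.P328.Defs
import Vale.Agent.Lib.P328.Blsy.Tail

/-!
# P328: exponential moment of a cell in tables with equal row sums
-/

namespace Vale.Agent.Lib.P328.Blsy

open Finset

variable {R C : Type} [Fintype R] [Fintype C] [DecidableEq R] [DecidableEq C]

/-- `E[e exp(e/100)]` for `e = Gamma(x+1)/(1+z)` -/
noncomputable def hh (z : ℝ) (x : ℕ) : ℝ :=
  ((x : ℝ) + 1) / (1 + z) * (1 - 1 / (100 * (1 + z)))⁻¹ ^ (x + 2)

theorem two_pow_mul_descFactorial_le (a t : ℕ) :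
    2 ^ t * a.descFactorial t ≤ (2 * a).descFactorial t := by
  induction t with
  | zero => simp
  | succ t IH =>
    rw [Nat.descFactorial_succ, Nat.descFactorial_succ, pow_succ]
    have h1 : 2 * (a - t) ≤ 2 * a - t := by omega
    calc 2 ^ t * 2 * ((a - t) * a.descFactorial t)
        = (2 * (a - t)) * (2 ^ t * a.descFactorial t) := by ring
      _ ≤ (2 * a - t) * (2 * a).descFactorial t := Nat.mul_le_mul h1 IH

theorem two_pow_mul_choose_le {a m : ℕ} (h : 2 * a ≤ m) (t : ℕ) :
    2 ^ t * a.choose t ≤ m.choose t := by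
  refine le_trans ?_ (Nat.choose_le_choose t h)
  have h1 := two_pow_mul_descFactorial_le a t
  rw [Nat.descFactorial_eq_factorial_mul_choose, Nat.descFactorial_eq_factorial_mul_choose] at h1
  have hf : 0 < t.factorial := Nat.factorial_pos t
  have : t.factorial * (2 ^ t * a.choose t) ≤ t.factorial * (2 * a).choose t := by
    calc t.factorial * (2 ^ t * a.choose t) = 2 ^ t * (t.factorial * a.choose t) := by ring
      _ ≤ _ := h1
  exact Nat.le_of_mul_le_mul_left this hf

/-- An entry is at most the column sum. -/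
theorem entry_le_col {r : ℕ} {c : C → ℕ} {X : R → C → ℕ} (hX : X ∈ tables (fun _ : R => r) c)
    (i : R) (j : C) : X i j ≤ c j := by
  have h := (mem_tables.1 hX).2 j
  rw [← h]
  exact Finset.single_le_sum (f := fun i => X i j) (fun _ _ => Nat.zero_le _) (mem_univ i)

/-- `P(x_lj ≥ b t) ≤ 2^{-t}` when `c_j ≤ b m / 2`. -/
theorem tail_half (r : ℕ) (c : C → ℕ) (l : R) (j : C) (b t : ℕ) (hb : 1 ≤ b)
    (hc : 2 * c j ≤ b * Fintype.card R) :
    ((tables (fun _ : R => r) c).filter (fun X => b * t ≤ X l j)).card * 2 ^ t ≤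
      (tables (fun _ : R => r) c).card := by
  classical
  by_cases ht : t ≤ Fintype.card R
  · have h1 := cell_tail r c l j b t hb ht
    have ha : 2 * (c j / b) ≤ Fintype.card R := by
      have h2 : c j / b * b ≤ c j := Nat.div_mul_le_self _ _
      have h3 : b * (2 * (c j / b)) ≤ b * Fintype.card R := by nlinarith
      exact Nat.le_of_mul_le_mul_left h3 hb
    have h4 := two_pow_mul_choose_le ha t
    have hpos : 0 < (Fintype.card R).choose t := Nat.choose_pos ht
    set T := ((tables (fun _ : R => r) c).filter (fun X => b * t ≤ X l j)).card with hT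
    set O := (tables (fun _ : R => r) c).card with hO
    set A := (c j / b).choose t with hA
    set M := (Fintype.card R).choose t with hM
    rcases Nat.eq_zero_or_pos A with hA0 | hApos
    · rw [hA0] at h1
      have : T * M = 0 := by omega
      have hT0 : T = 0 := by
        rcases Nat.mul_eq_zero.1 this with h | h
        · exact h
        · omega
      rw [hT0]; simp
    · have h5 : (T * 2 ^ t) * A ≤ O * A := by
        calc (T * 2 ^ t) * A = T * (2 ^ t * A) := by ring
          _ ≤ T * M := Nat.mul_le_mul_left _ h4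
          _ ≤ O * A := h1
      exact Nat.le_of_mul_le_mul_right h5 hApos
  · have : (tables (fun _ : R => r) c).filter (fun X => b * t ≤ X l j) = ∅ := by
      apply Finset.filter_eq_empty_iff.2
      intro X hX hle
      have h1 := entry_le_col hX l j
      have h2 : b * (Fintype.card R + 1) ≤ b * t := Nat.mul_le_mul_left _ (by omega)
      have h3 : b * (Fintype.card R + 1) = b * Fintype.card R + b := by ring
      omega
    rw [this]
    simp

/-- Pointwise bound for `hh`. -/
theorem hh_le (z : ℝ) (hz : 0 ≤ z) (x : ℕ) :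
    hh z x ≤ 100 * Real.exp (3 / (100 * (1 + z)) * ((x : ℝ) + 2)) := by
  have hw : 1 ≤ 1 + z := by linarith
  set τ : ℝ := 1 / (100 * (1 + z)) with hτ
  have hτpos : 0 < τ := by positivity
  have hτle : τ ≤ 1 / 100 := by
    rw [hτ]
    apply one_div_le_one_div_of_le (by norm_num)
    nlinarith
  have hone : 0 < 1 - τ := by linarith
  have h1 : (1 - τ)⁻¹ ≤ Real.exp (2 * τ) := by
    rw [inv_le_comm₀ hone (Real.exp_pos _), ← Real.exp_neg]
    have h2 : 1 + 2 * τ ≤ Real.exp (2 * τ) := by linarith [Real.add_one_le_exp (2 * τ)]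
    have h3 : Real.exp (-(2 * τ)) ≤ (1 + 2 * τ)⁻¹ := by
      rw [Real.exp_neg]
      exact inv_anti₀ (by positivity) h2
    refine h3.trans ?_
    rw [inv_le_iff_one_le_mul₀ (by positivity)]
    nlinarith
  have h4 : ((x : ℝ) + 1) / (1 + z) ≤ 100 * Real.exp (τ * ((x : ℝ) + 2)) := by
    have h5 : ((x : ℝ) + 1) / (1 + z) = 100 * (τ * ((x : ℝ) + 1)) := by
      rw [hτ]; field_simp
    rw [h5]
    have h6 : τ * ((x : ℝ) + 1) ≤ τ * ((x : ℝ) + 2) :=
      mul_le_mul_of_nonneg_left (by linarith) hτpos.le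
    have h7 := Real.add_one_le_exp (τ * ((x : ℝ) + 2))
    nlinarith
  have h8 : (1 - τ)⁻¹ ^ (x + 2) ≤ Real.exp (2 * τ * ((x : ℝ) + 2)) := by
    have : Real.exp (2 * τ * ((x : ℝ) + 2)) = Real.exp (2 * τ) ^ (x + 2) := by
      rw [← Real.exp_nat_mul]
      congr 1
      push_cast
      ring
    rw [this]
    exact pow_le_pow_left₀ (by positivity) h1 _
  have h9 : 3 / (100 * (1 + z)) * ((x : ℝ) + 2) = τ * ((x : ℝ) + 2) + 2 * τ * ((x : ℝ) + 2) := by
    rw [hτ]; field_simp; ring
  unfold hh
  rw [h9, Real.exp_add]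
  calc ((x : ℝ) + 1) / (1 + z) * (1 - 1 / (100 * (1 + z)))⁻¹ ^ (x + 2)
      ≤ (100 * Real.exp (τ * ((x : ℝ) + 2))) * Real.exp (2 * τ * ((x : ℝ) + 2)) :=
        mul_le_mul h4 h8 (by positivity) (by positivity)
    _ = _ := by ring

/-- **Cell moment.** -/
theorem cell_moment (r : ℕ) (c : C → ℕ) (l : R) (j : C) (z : ℝ) (hz : 0 < z)
    (hc : (c j : ℝ) ≤ 2 * z * Fintype.card R) :
    ∑ X ∈ tables (fun _ : R => r) c, hh z (X l j) ≤
      280 * ((tables (fun _ : R => r) c).card : ℝ) := by
  classical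
  set Om := tables (fun _ : R => r) c with hOm
  set b : ℕ := ⌈4 * z⌉₊ with hbdef
  have hb4 : 4 * z ≤ b := Nat.le_ceil _
  have hb41 : (b : ℝ) < 4 * z + 1 := Nat.ceil_lt_add_one (by positivity)
  have hb : 1 ≤ b := by
    rw [hbdef]
    exact Nat.one_le_ceil_iff.2 (by positivity)
  have hcb : 2 * c j ≤ b * Fintype.card R := by
    have h1 : (2 * (c j : ℝ)) ≤ (b : ℝ) * Fintype.card R := by
      have hm : (0 : ℝ) ≤ Fintype.card R := by positivity
      nlinarith
    exact_mod_cast h1
  set ρ : ℝ := Real.exp (12 / 100) with hρ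
  have hρpos : 0 < ρ := Real.exp_pos _
  have hρle : ρ ≤ 114 / 100 := by
    have h1 : 1 - 12 / 100 ≤ Real.exp (-(12 / 100)) := by
      have := Real.add_one_le_exp (-(12 / 100 : ℝ))
      linarith
    have h2 : Real.exp (12 / 100) * Real.exp (-(12 / 100)) = 1 := by
      rw [← Real.exp_add]; simp
    have h3 : 0 < Real.exp (12 / 100 : ℝ) := Real.exp_pos _
    rw [hρ]
    nlinarith
  have hE : Real.exp (15 / 100) ≤ 118 / 100 := by
    have h1 : 1 - 15 / 100 ≤ Real.exp (-(15 / 100)) := by
      have := Real.add_one_le_exp (-(15 / 100 : ℝ))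
      linarith
    have h2 : Real.exp (15 / 100) * Real.exp (-(15 / 100)) = 1 := by
      rw [← Real.exp_add]; simp
    have h3 : 0 < Real.exp (15 / 100 : ℝ) := Real.exp_pos _
    nlinarith
  -- pointwise
  have hpt : ∀ x : ℕ, hh z x ≤ 100 * Real.exp (15 / 100) * ρ ^ (x / b) := by
    intro x
    refine (hh_le z hz.le x).trans ?_
    set ζ : ℝ := 3 / (100 * (1 + z)) with hζ
    have hζpos : 0 < ζ := by positivity
    have hζ1 : ζ ≤ 3 / 100 := by
      rw [hζ, div_le_div_iff₀ (by positivity) (by norm_num)]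
      nlinarith
    have hζb : ζ * b ≤ 12 / 100 := by
      rw [hζ, div_mul_eq_mul_div, div_le_div_iff₀ (by positivity) (by norm_num)]
      nlinarith
    have hx : (x : ℝ) + 1 ≤ b * ((x / b : ℕ) : ℝ) + b := by
      have h1 : x < b * (x / b) + b := by
        have := Nat.div_add_mod x b
        have h2 := Nat.mod_lt x (show b > 0 by omega)
        omega
      have h3 : x + 1 ≤ b * (x / b) + b := h1
      exact_mod_cast h3
    have hs : (0 : ℝ) ≤ ((x / b : ℕ) : ℝ) := by positivity
    have h4 : ζ * ((x : ℝ) + 2) ≤ 15 / 100 + ((x / b : ℕ) : ℝ) * (12 / 100) := by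
      have h5 : ζ * ((x : ℝ) + 2) ≤ ζ * (b * ((x / b : ℕ) : ℝ) + b + 1) :=
        mul_le_mul_of_nonneg_left (by linarith) hζpos.le
      have h6 : ζ * (b * ((x / b : ℕ) : ℝ) + b + 1) =
          (ζ * b) * ((x / b : ℕ) : ℝ) + ζ * b + ζ := by ring
      have h7 : (ζ * b) * ((x / b : ℕ) : ℝ) ≤ (12 / 100) * ((x / b : ℕ) : ℝ) :=
        mul_le_mul_of_nonneg_right hζb hs
      linarith
    have h8 : Real.exp (15 / 100 + ((x / b : ℕ) : ℝ) * (12 / 100)) =
        Real.exp (15 / 100) * ρ ^ (x / b) := by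
      rw [Real.exp_add, Real.exp_nat_mul]
    have h9 := Real.exp_le_exp.2 h4
    rw [h8] at h9
    linarith
  -- geometric layer cake
  set M : ℕ := c j + 1 with hM
  have hlayer : ∀ X ∈ Om, ρ ^ (X l j / b) ≤
      ∑ t ∈ range M, if b * t ≤ X l j then ρ ^ t else 0 := by
    intro X hX
    have hs : X l j / b ∈ range M := by
      rw [Finset.mem_range]
      have h1 := entry_le_col hX l j
      have h2 : X l j / b ≤ X l j := Nat.div_le_self _ _
      omega
    have hle : b * (X l j / b) ≤ X l j := Nat.mul_div_le _ _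
    have := Finset.single_le_sum (f := fun t => if b * t ≤ X l j then ρ ^ t else 0)
      (s := range M) (fun t _ => by positivity) hs
    simpa [hle] using this
  have hcount : ∀ t, (((Om.filter (fun X => b * t ≤ X l j)).card : ℝ)) ≤
      (1 / 2) ^ t * (Om.card : ℝ) := by
    intro t
    have h1 := tail_half r c l j b t hb hcb
    have h2 : (((Om.filter (fun X => b * t ≤ X l j)).card : ℝ)) * 2 ^ t ≤ (Om.card : ℝ) := by
      exact_mod_cast h1
    have h3 : ((1 : ℝ) / 2) ^ t * 2 ^ t = 1 := by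
      rw [← mul_pow]; norm_num
    have h4 : (0 : ℝ) < 2 ^ t := by positivity
    calc (((Om.filter (fun X => b * t ≤ X l j)).card : ℝ))
        = ((1 / 2) ^ t * 2 ^ t) * (((Om.filter (fun X => b * t ≤ X l j)).card : ℝ)) := by
          rw [h3, one_mul]
      _ = (1 / 2) ^ t * ((((Om.filter (fun X => b * t ≤ X l j)).card : ℝ)) * 2 ^ t) := by ring
      _ ≤ _ := mul_le_mul_of_nonneg_left h2 (by positivity)
  have hsum1 : ∑ X ∈ Om, ρ ^ (X l j / b) ≤
      (∑ t ∈ range M, (ρ / 2) ^ t) * (Om.card : ℝ) := by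
    calc ∑ X ∈ Om, ρ ^ (X l j / b)
        ≤ ∑ X ∈ Om, ∑ t ∈ range M, (if b * t ≤ X l j then ρ ^ t else 0) :=
          Finset.sum_le_sum hlayer
      _ = ∑ t ∈ range M, ∑ X ∈ Om, (if b * t ≤ X l j then ρ ^ t else 0) := Finset.sum_comm
      _ = ∑ t ∈ range M, ρ ^ t * ((Om.filter (fun X => b * t ≤ X l j)).card : ℝ) := by
          apply Finset.sum_congr rfl
          intro t _
          rw [← Finset.sum_filter, Finset.sum_const, nsmul_eq_mul, mul_comm]
      _ ≤ ∑ t ∈ range M, ρ ^ t * ((1 / 2) ^ t * (Om.card : ℝ)) := by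
          apply Finset.sum_le_sum
          intro t _
          exact mul_le_mul_of_nonneg_left (hcount t) (by positivity)
      _ = _ := by
          rw [Finset.sum_mul]
          apply Finset.sum_congr rfl
          intro t _
          rw [← mul_assoc]
          congr 1
          rw [← mul_pow]
          congr 1
          ring
  have hq0 : 0 ≤ ρ / 2 := by positivity
  have hq1 : ρ / 2 ≤ 57 / 100 := by linarith
  have hgeom : (∑ t ∈ range M, (ρ / 2) ^ t) ≤ 233 / 100 := by
    have h1 := mul_neg_geom_sum (ρ / 2) M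
    have h2 : 0 ≤ (ρ / 2) ^ M := by positivity
    have h3 : 0 ≤ ∑ t ∈ range M, (ρ / 2) ^ t :=
      Finset.sum_nonneg fun t _ => by positivity
    have h4 : (43 / 100 : ℝ) * (∑ t ∈ range M, (ρ / 2) ^ t) ≤
        (1 - ρ / 2) * (∑ t ∈ range M, (ρ / 2) ^ t) :=
      mul_le_mul_of_nonneg_right (by linarith) h3
    rw [h1] at h4
    linarith
  have hOcard : (0 : ℝ) ≤ (Om.card : ℝ) := by positivity
  calc ∑ X ∈ Om, hh z (X l j)
      ≤ ∑ X ∈ Om, 100 * Real.exp (15 / 100) * ρ ^ (X l j / b) :=
        Finset.sum_le_sum fun X _ => hpt _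
    _ = 100 * Real.exp (15 / 100) * ∑ X ∈ Om, ρ ^ (X l j / b) := by
        rw [Finset.mul_sum]
    _ ≤ 100 * (118 / 100) * ((233 / 100) * (Om.card : ℝ)) := by
        apply mul_le_mul
        · nlinarith
        · exact hsum1.trans (mul_le_mul_of_nonneg_right hgeom hOcard)
        · exact Finset.sum_nonneg fun X _ => by positivity
        · norm_num
    _ ≤ _ := by nlinarith

end Vale.Agent.Lib.P328.Blsy
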