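import Mathlib

/-!
# P328: facts on the `Gamma(k+1,1)` law
-/

namespace Vale.Agent.Lib.P328.Blsy

open MeasureTheory ProbabilityTheory Set
open scoped ENNReal

/-- `Gamma(k+1,1)` -/
noncomputable abbrev gam (k : ℕ) : Measure ℝ := gammaMeasure ((k : ℝ) + 1) 1

theorem gam_prob (k : ℕ) : IsProbabilityMeasure (gam k) :=
  isProbabilityMeasure_gammaMeasure (by positivity) one_pos

theorem gammaPDF_toReal (k : ℕ) (x : ℝ) :
    (gammaPDF ((k : ℝ) + 1) 1 x).toReal = gammaPDFReal ((k : ℝ) + 1) 1 x := by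
  unfold gammaPDF
  exact ENNReal.toReal_ofReal (gammaPDFReal_nonneg (by positivity) one_pos x)

theorem measurable_gammaPDF' (k : ℕ) : Measurable (gammaPDF ((k : ℝ) + 1) 1) :=
  (measurable_gammaPDFReal _ _).ennreal_ofReal

theorem integral_gam (k : ℕ) (g : ℝ → ℝ) :
    ∫ x, g x ∂(gam k) = ∫ x, gammaPDFReal ((k : ℝ) + 1) 1 x * g x := by
  unfold gam gammaMeasure
  rw [integral_withDensity_eq_integral_toReal_smul (measurable_gammaPDF' k)
    (Filter.Eventually.of_forall fun x => ENNReal.ofReal_lt_top)]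
  apply integral_congr_ae
  filter_upwards with x
  rw [gammaPDF_toReal, smul_eq_mul]

theorem integrable_gam_iff (k : ℕ) (g : ℝ → ℝ) :
    Integrable g (gam k) ↔ Integrable (fun x => gammaPDFReal ((k : ℝ) + 1) 1 x * g x) := by
  unfold gam gammaMeasure
  rw [integrable_withDensity_iff_integrable_smul' (measurable_gammaPDF' k)
    (Filter.Eventually.of_forall fun x => ENNReal.ofReal_lt_top)]
  have : (fun x => (gammaPDF ((k : ℝ) + 1) 1 x).toReal • g x) =
      fun x => gammaPDFReal ((k : ℝ) + 1) 1 x * g x := by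
    funext x
    rw [gammaPDF_toReal, smul_eq_mul]
  rw [this]

/-- On the positive half line the density times a monomial exponential is an explicit
`Gamma`-integrand. -/
theorem pdf_mul_eq (k n : ℕ) (τ x : ℝ) (hx : 0 < x) :
    gammaPDFReal ((k : ℝ) + 1) 1 x * (x ^ n * Real.exp (τ * x)) =
      ((k.factorial : ℝ))⁻¹ * (x ^ ((((k + n + 1 : ℕ) : ℝ)) - 1) * Real.exp (-((1 - τ) * x))) := by
  unfold gammaPDFReal
  rw [if_pos hx.le]
  have hG : Real.Gamma ((k : ℝ) + 1) = (k.factorial : ℝ) := Real.Gamma_nat_eq_factorial k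
  rw [hG, Real.one_rpow]
  have e1 : x ^ ((k : ℝ) + 1 - 1) = x ^ k := by
    rw [add_sub_cancel_right, Real.rpow_natCast]
  have e2 : x ^ (((k + n + 1 : ℕ) : ℝ) - 1) = x ^ (k + n) := by
    have : (((k + n + 1 : ℕ) : ℝ)) - 1 = ((k + n : ℕ) : ℝ) := by push_cast; ring
    rw [this, Real.rpow_natCast]
  rw [e1, e2, pow_add]
  have e3 : Real.exp (-(1 - τ) * x) = Real.exp (-(1 * x)) * Real.exp (τ * x) := by
    rw [← Real.exp_add]; congr 1; ring
  have e4 : Real.exp (-((1 - τ) * x)) = Real.exp (-(1 * x)) * Real.exp (τ * x) := by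
    rw [← Real.exp_add]; congr 1; ring
  rw [e4]
  field_simp

theorem pdf_mul_zero (k : ℕ) (g : ℝ → ℝ) (x : ℝ) (hx : x ∉ Ici (0 : ℝ)) :
    gammaPDFReal ((k : ℝ) + 1) 1 x * g x = 0 := by
  unfold gammaPDFReal
  rw [if_neg (show ¬ (0 : ℝ) ≤ x from hx), zero_mul]

theorem gam_moment (k n : ℕ) (τ : ℝ) (hτ : τ < 1) :
    Integrable (fun s : ℝ => s ^ n * Real.exp (τ * s)) (gam k) ∧
    ∫ s, s ^ n * Real.exp (τ * s) ∂(gam k) =
      ((k + n).factorial : ℝ) / (k.factorial : ℝ) * ((1 - τ)⁻¹) ^ (k + n + 1) := by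
  have hr : 0 < 1 - τ := by linarith
  set F : ℝ → ℝ := fun x => gammaPDFReal ((k : ℝ) + 1) 1 x * (x ^ n * Real.exp (τ * x)) with hF
  set G : ℝ → ℝ := fun x =>
    ((k.factorial : ℝ))⁻¹ * (x ^ ((((k + n + 1 : ℕ) : ℝ)) - 1) * Real.exp (-((1 - τ) * x))) with hG
  have hFG : EqOn F G (Ioi 0) := fun x hx => pdf_mul_eq k n τ x hx
  have hGint : IntegrableOn G (Ioi 0) := by
    apply Integrable.const_mul
    have h := integrableOn_rpow_mul_exp_neg_mul_rpow (p := 1) (b := 1 - τ)
      (s := (((k + n + 1 : ℕ) : ℝ)) - 1) (by push_cast; have : (0 : ℝ) ≤ (k : ℝ) + n := by positivity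
                                             linarith) one_pos hr
    refine h.congr_fun (fun x _ => ?_) measurableSet_Ioi
    simp only [Real.rpow_one, neg_mul]
  have hFint : IntegrableOn F (Ioi 0) := hGint.congr_fun hFG.symm measurableSet_Ioi
  have hsupp : Function.support F ⊆ Ici 0 := by
    intro x hx
    by_contra hx'
    exact hx (pdf_mul_zero k (fun x => x ^ n * Real.exp (τ * x)) x hx')
  constructor
  · rw [integrable_gam_iff]
    rw [← integrableOn_iff_integrable_of_support_subset hsupp]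
    exact (integrableOn_Ici_iff_integrableOn_Ioi (by simp)).2 hFint
  · rw [integral_gam]
    have h1 : ∫ x, F x = ∫ x in Ici 0, F x :=
      (setIntegral_eq_integral_of_forall_compl_eq_zero
        (fun x hx => pdf_mul_zero k (fun x => x ^ n * Real.exp (τ * x)) x hx)).symm
    show ∫ x, F x = _
    rw [h1, integral_Ici_eq_integral_Ioi, setIntegral_congr_fun measurableSet_Ioi hFG]
    simp only [hG]
    rw [integral_const_mul]
    have hI := Real.integral_rpow_mul_exp_neg_mul_Ioi (a := ((k + n + 1 : ℕ) : ℝ)) (r := 1 - τ)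
      (by positivity) hr
    rw [hI]
    have hGam : Real.Gamma ((k + n + 1 : ℕ) : ℝ) = ((k + n).factorial : ℝ) := by
      have : ((k + n + 1 : ℕ) : ℝ) = ((k + n : ℕ) : ℝ) + 1 := by push_cast; ring
      rw [this, Real.Gamma_nat_eq_factorial]
    rw [hGam, Real.rpow_natCast, one_div]
    field_simp

theorem gam_mgf (k : ℕ) (τ : ℝ) (hτ : τ < 1) :
    Integrable (fun s => Real.exp (τ * s)) (gam k) ∧
    ∫ s, Real.exp (τ * s) ∂(gam k) = ((1 - τ)⁻¹) ^ (k + 1) := by
  obtain ⟨h1, h2⟩ := gam_moment k 0 τ hτ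
  simp only [pow_zero, one_mul, add_zero] at h1 h2
  refine ⟨h1, ?_⟩
  rw [h2, div_self (by positivity), one_mul]

theorem gam_smgf (k : ℕ) (τ : ℝ) (hτ : τ < 1) :
    Integrable (fun s => s * Real.exp (τ * s)) (gam k) ∧
    ∫ s, s * Real.exp (τ * s) ∂(gam k) = ((k : ℝ) + 1) * ((1 - τ)⁻¹) ^ (k + 2) := by
  obtain ⟨h1, h2⟩ := gam_moment k 1 τ hτ
  simp only [pow_one] at h1 h2
  refine ⟨h1, ?_⟩
  rw [h2]
  congr 1
  rw [Nat.factorial_succ]
  push_cast
  field_simp

theorem gam_small (k : ℕ) (lam : ℝ) (hlam : 0 ≤ lam) :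
    gam k (Set.Iio lam) ≤ ENNReal.ofReal lam := by
  unfold gam gammaMeasure
  rw [withDensity_apply _ measurableSet_Iio]
  have hle : ∀ x ∈ Iio lam, gammaPDF ((k : ℝ) + 1) 1 x ≤ (Ico 0 lam).indicator 1 x := by
    intro x hx
    by_cases h0 : 0 ≤ x
    · rw [indicator_of_mem (show x ∈ Ico 0 lam from ⟨h0, hx⟩)]
      rw [gammaPDF_of_nonneg h0]
      have : (1 : ℝ) ^ ((k : ℝ) + 1) / Real.Gamma ((k : ℝ) + 1) * x ^ ((k : ℝ) + 1 - 1) *
          Real.exp (-(1 * x)) ≤ 1 := by
        rw [Real.one_rpow, Real.Gamma_nat_eq_factorial, add_sub_cancel_right, Real.rpow_natCast,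
          one_mul]
        have h1 := Real.pow_div_factorial_le_exp x h0 k
        have h2 : 0 < Real.exp x := Real.exp_pos x
        rw [Real.exp_neg]
        have hf : (0 : ℝ) < k.factorial := by positivity
        rw [div_le_iff₀ hf] at h1
        calc 1 / (k.factorial : ℝ) * x ^ k * (Real.exp x)⁻¹
            = x ^ k / ((k.factorial : ℝ) * Real.exp x) := by field_simp
          _ ≤ 1 := by
              rw [div_le_one (by positivity)]
              linarith [h1, mul_comm (k.factorial : ℝ) (Real.exp x)]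
      calc ENNReal.ofReal _ ≤ ENNReal.ofReal 1 := ENNReal.ofReal_le_ofReal this
        _ = (1 : ℝ≥0∞) := ENNReal.ofReal_one
        _ = (1 : ℝ → ℝ≥0∞) x := rfl
    · rw [gammaPDF_of_neg (not_le.1 h0)]
      exact bot_le
  calc ∫⁻ x in Iio lam, gammaPDF ((k : ℝ) + 1) 1 x
      ≤ ∫⁻ x in Iio lam, (Ico 0 lam).indicator 1 x :=
        setLIntegral_mono' measurableSet_Iio hle
    _ ≤ ∫⁻ x, (Ico 0 lam).indicator 1 x := setLIntegral_le_lintegral _ _
    _ = volume (Ico 0 lam) := lintegral_indicator_one measurableSet_Ico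
    _ = ENNReal.ofReal lam := by rw [Real.volume_Ico, sub_zero]

theorem gam_pos (k : ℕ) : gam k (Set.Iic 0) = 0 := by
  unfold gam gammaMeasure
  rw [withDensity_apply _ measurableSet_Iic]
  rw [setLIntegral_congr Iio_ae_eq_Iic.symm]
  exact lintegral_gammaPDF_of_nonpos le_rfl

end Vale.Agent.Lib.P328.Blsy
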