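import Mathlib
import Vale.Agent.Lib.P328.Defs
import Vale.Agent.Lib.P328.Blsy.Defs
import Vale.Agent.Lib.P328.Blsy.GammaFacts

/-!
# P328: the three good events for the Gamma entries, uniformly in the table
-/

namespace Vale.Agent.Lib.P328.Blsy

open Finset MeasureTheory ProbabilityTheory
open scoped ENNReal

variable {R C : Type} [Fintype R] [Fintype C] [DecidableEq R] [DecidableEq C]

instance gam_isProb (k : ℕ) : IsProbabilityMeasure (gammaMeasure ((k : ℝ) + 1) 1) := gam_prob k

theorem muX_prob (X : R → C → ℕ) : IsProbabilityMeasure (muX X) := by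
  unfold muX
  infer_instance

/-- The row marginal. -/
theorem map_row (X : R → C → ℕ) (i : R) :
    (muX X).map (fun s => s i) = Measure.pi fun j => gam (X i j) := by
  unfold muX
  exact (measurePreserving_eval (fun i => Measure.pi fun j => gam (X i j)) i).map_eq

/-- The cell marginal inside a row. -/
theorem map_cell (k : C → ℕ) (j : C) :
    (Measure.pi fun j => gam (k j)).map (fun row : C → ℝ => row j) = gam (k j) :=
  (measurePreserving_eval (fun j => gam (k j)) j).map_eq

theorem integral_cell (k : C → ℕ) (j : C) (f : ℝ → ℝ) (hf : Measurable f) :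
    ∫ row : C → ℝ, f (row j) ∂(Measure.pi fun j => gam (k j)) = ∫ t, f t ∂(gam (k j)) := by
  rw [← map_cell k j, integral_map (measurable_pi_apply j).aemeasurable
    hf.aestronglyMeasurable]

theorem integrable_cell (k : C → ℕ) (j : C) (f : ℝ → ℝ) (hf : Integrable f (gam (k j))) :
    Integrable (fun row : C → ℝ => f (row j)) (Measure.pi fun j => gam (k j)) :=
  (measurePreserving_eval (fun j => gam (k j)) j).integrable_comp_of_integrable hf

/-- Independence inside a column. -/
theorem integral_col_prod (X : R → C → ℕ) (j : C) (f : R → ℝ → ℝ) (hf : ∀ i, Measurable (f i)) :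
    ∫ s, ∏ i, f i (s i j) ∂(muX X) = ∏ i, ∫ t, f i t ∂(gam (X i j)) := by
  unfold muX
  rw [integral_fintype_prod_eq_prod (𝕜 := ℝ) (fun (i : R) (row : C → ℝ) => f i (row j))]
  apply Finset.prod_congr rfl
  intro i _
  exact integral_cell (fun j => X i j) j (f i) (hf i)

theorem integrable_col_prod (X : R → C → ℕ) (j : C) (f : R → ℝ → ℝ)
    (hf : ∀ i, Integrable (f i) (gam (X i j))) :
    Integrable (fun s => ∏ i, f i (s i j)) (muX X) := by
  unfold muX
  exact Integrable.fintype_prod (𝕜 := ℝ) (f := fun (i : R) (row : C → ℝ) => f i (row j))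
    (fun i => integrable_cell (fun j => X i j) j (f i) (hf i))

/-- Independence inside a row. -/
theorem integral_row_prod (X : R → C → ℕ) (i : R) (f : C → ℝ → ℝ) (hf : ∀ j, Measurable (f j)) :
    ∫ s, ∏ j, f j (s i j) ∂(muX X) = ∏ j, ∫ t, f j t ∂(gam (X i j)) := by
  have hF : Measurable (fun row : C → ℝ => ∏ j, f j (row j)) :=
    Finset.measurable_prod _ fun j _ => (hf j).comp (measurable_pi_apply j)
  have h1 : ∫ s, ∏ j, f j (s i j) ∂(muX X) =
      ∫ row : C → ℝ, ∏ j, f j (row j) ∂((muX X).map (fun s => s i)) := by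
    rw [integral_map (measurable_pi_apply i).aemeasurable hF.aestronglyMeasurable]
  rw [h1, map_row, integral_fintype_prod_eq_prod (𝕜 := ℝ) (fun (j : C) (t : ℝ) => f j t)]

theorem integrable_row_prod (X : R → C → ℕ) (i : R) (f : C → ℝ → ℝ)
    (hf : ∀ j, Integrable (f j) (gam (X i j))) :
    Integrable (fun s => ∏ j, f j (s i j)) (muX X) := by
  have h := Integrable.fintype_prod (𝕜 := ℝ) (f := fun (j : C) (t : ℝ) => f j t)
    (μ := fun j => gam (X i j)) hf
  have hmp : MeasurePreserving (fun s : R → C → ℝ => s i) (muX X)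
      (Measure.pi fun j => gam (X i j)) := by
    unfold muX
    exact measurePreserving_eval (fun i => Measure.pi fun j => gam (X i j)) i
  exact hmp.integrable_comp_of_integrable h

/-- A form of Markov's inequality. -/
theorem markov_real {Ω : Type} [MeasurableSpace Ω] (μ : Measure Ω) [IsProbabilityMeasure μ]
    (f : Ω → ℝ) (hf0 : ∀ x, 0 ≤ f x) (hf : Integrable f μ) (ε : ℝ) (hε : 0 < ε) :
    μ {x | ε ≤ f x} ≤ ENNReal.ofReal ((∫ x, f x ∂μ) / ε) := by
  have h := mul_meas_ge_le_integral_of_nonneg (μ := μ) (Filter.Eventually.of_forall hf0) hf ε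
  rw [← ofReal_measureReal]
  apply ENNReal.ofReal_le_ofReal
  rw [le_div_iff₀ hε]
  linarith

theorem E0_fail (X : R → C → ℕ) : muX X {s | ¬ ∀ i j, 0 < s i j} = 0 := by
  have hsub : {s : R → C → ℝ | ¬ ∀ i j, 0 < s i j} ⊆
      ⋃ i, ⋃ j, (fun s : R → C → ℝ => s i j) ⁻¹' Set.Iic 0 := by
    intro s hs
    simp only [Set.mem_ofPred_eq] at hs
    push Not at hs
    obtain ⟨i, j, hij⟩ := hs
    simp only [Set.mem_iUnion, Set.mem_preimage, Set.mem_Iic]
    exact ⟨i, j, hij⟩
  refine measure_mono_null hsub ?_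
  rw [measure_iUnion_null_iff]
  intro i
  rw [measure_iUnion_null_iff]
  intro j
  have h1 : (muX X) ((fun s : R → C → ℝ => s i) ⁻¹' ((fun row : C → ℝ => row j) ⁻¹' Set.Iic 0)) =
      ((muX X).map (fun s => s i)) ((fun row : C → ℝ => row j) ⁻¹' Set.Iic 0) := by
    rw [Measure.map_apply (measurable_pi_apply i) (measurable_pi_apply j measurableSet_Iic)]
  have h2 : (Measure.pi fun j => gam (X i j)) ((fun row : C → ℝ => row j) ⁻¹' Set.Iic 0) =
      ((Measure.pi fun j => gam (X i j)).map (fun row : C → ℝ => row j)) (Set.Iic 0) := by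
    rw [Measure.map_apply (measurable_pi_apply j) measurableSet_Iic]
  have h3 := map_cell (fun j => X i j) j
  change (muX X) ((fun s : R → C → ℝ => s i) ⁻¹' ((fun row : C → ℝ => row j) ⁻¹' Set.Iic 0)) = 0
  rw [h1, map_row, h2, h3]
  exact gam_pos (X i j)

theorem E1_fail (r : ℕ) (c : C → ℕ) (X : R → C → ℕ) (hX : X ∈ tables (fun _ : R => r) c) :
    muX X {s | ¬ ∀ j, ∑ i, s i j ≤ 2 * ((Fintype.card R : ℝ) + c j)} ≤
      ENNReal.ofReal ((Fintype.card C : ℝ) * (2 / Real.exp 1) ^ Fintype.card R) := by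
  have := muX_prob X
  have hXm := Vale.Agent.Lib.P328.mem_tables.1 hX
  set m := Fintype.card R with hm
  have he2 : 2 / Real.exp 1 ≤ 1 := by
    rw [div_le_one (Real.exp_pos 1)]
    have := Real.add_one_le_exp (1 : ℝ)
    linarith
  have he0 : 0 ≤ 2 / Real.exp 1 := by positivity
  have hcol : ∀ j, muX X {s | 2 * ((m : ℝ) + c j) < ∑ i, s i j} ≤
      ENNReal.ofReal ((2 / Real.exp 1) ^ m) := by
    intro j
    set f : R → ℝ → ℝ := fun _ t => Real.exp ((1 / 2) * t) with hf
    have hmeas : ∀ i, Measurable (f i) := fun i => by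
      simp only [hf]; fun_prop
    have hint : ∀ i, Integrable (f i) (gam (X i j)) := fun i =>
      (gam_mgf (X i j) (1 / 2) (by norm_num)).1
    have hI : ∫ s, ∏ i, f i (s i j) ∂(muX X) = 2 ^ (c j + m) := by
      rw [integral_col_prod X j f hmeas]
      have : ∀ i, ∫ t, f i t ∂(gam (X i j)) = 2 ^ (X i j + 1) := by
        intro i
        rw [(gam_mgf (X i j) (1 / 2) (by norm_num)).2]
        norm_num
      simp only [this]
      rw [Finset.prod_pow_eq_pow_sum, Finset.sum_add_distrib, hXm.2 j]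
      simp [hm]
    have hsub : {s : R → C → ℝ | 2 * ((m : ℝ) + c j) < ∑ i, s i j} ⊆
        {s | Real.exp ((m : ℝ) + c j) ≤ ∏ i, f i (s i j)} := by
      intro s hs
      simp only [Set.mem_ofPred_eq] at hs ⊢
      rw [← Real.exp_sum]
      apply Real.exp_le_exp.2
      rw [← Finset.mul_sum]
      linarith
    refine (measure_mono hsub).trans ((markov_real (muX X) _ (fun s => ?_)
      (integrable_col_prod X j f hint) _ (Real.exp_pos _)).trans ?_)
    · exact Finset.prod_nonneg fun i _ => (Real.exp_pos _).le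
    · rw [hI]
      apply ENNReal.ofReal_le_ofReal
      have e : Real.exp ((m : ℝ) + c j) = Real.exp 1 ^ (c j + m) := by
        rw [← Real.exp_nat_mul]
        congr 1
        push_cast
        ring
      rw [e, ← div_pow, pow_add]
      have h1 : (2 / Real.exp 1) ^ c j ≤ 1 := pow_le_one₀ he0 he2
      have h2 : 0 ≤ (2 / Real.exp 1) ^ m := pow_nonneg he0 _
      nlinarith
  have hsub : {s : R → C → ℝ | ¬ ∀ j, ∑ i, s i j ≤ 2 * ((m : ℝ) + c j)} ⊆
      ⋃ j, {s | 2 * ((m : ℝ) + c j) < ∑ i, s i j} := by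
    intro s hs
    simp only [Set.mem_ofPred_eq] at hs
    push Not at hs
    obtain ⟨j, hj⟩ := hs
    exact Set.mem_iUnion.2 ⟨j, hj⟩
  refine (measure_mono hsub).trans ((measure_iUnion_fintype_le _ _).trans ?_)
  calc ∑ j, muX X {s | 2 * ((m : ℝ) + c j) < ∑ i, s i j}
      ≤ ∑ _j : C, ENNReal.ofReal ((2 / Real.exp 1) ^ m) := Finset.sum_le_sum fun j _ => hcol j
    _ = ENNReal.ofReal ((Fintype.card C : ℝ) * (2 / Real.exp 1) ^ m) := by
        rw [Finset.sum_const, Finset.card_univ, nsmul_eq_mul,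
          ENNReal.ofReal_mul (by positivity), ENNReal.ofReal_natCast]

/-- The small-ball estimate for a fixed column and a fixed set of rows. -/
theorem small_block (X : R → C → ℕ) (j : C) (S : Finset R) (lam : ℝ) (hlam : 0 ≤ lam) :
    muX X {s | ∀ i ∈ S, s i j < lam} ≤ ENNReal.ofReal lam ^ S.card := by
  classical
  have hset : {s : R → C → ℝ | ∀ i ∈ S, s i j < lam} =
      Set.pi Set.univ (fun i => if i ∈ S then {row : C → ℝ | row j < lam} else Set.univ) := by
    ext s
    simp only [Set.mem_ofPred_eq, Set.mem_pi, Set.mem_univ, true_imp_iff]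
    constructor
    · intro h i
      by_cases hi : i ∈ S
      · simp only [hi, if_true]; exact h i hi
      · simp only [hi, if_false]; exact Set.mem_univ _
    · intro h i hi
      have := h i
      simp only [hi, if_true] at this
      exact this
  rw [hset]
  unfold muX
  rw [Measure.pi_pi]
  have hrow : ∀ i, (Measure.pi fun j => gammaMeasure ((X i j : ℝ) + 1) 1)
      (if i ∈ S then {row : C → ℝ | row j < lam} else Set.univ) ≤
      if i ∈ S then ENNReal.ofReal lam else 1 := by
    intro i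
    by_cases hi : i ∈ S
    · simp only [hi, if_true]
      have h1 : {row : C → ℝ | row j < lam} = (fun row : C → ℝ => row j) ⁻¹' Set.Iio lam := rfl
      have h2 := map_cell (fun j => X i j) j
      have h3 : (Measure.pi fun j => gam (X i j)) ((fun row : C → ℝ => row j) ⁻¹' Set.Iio lam) =
          ((Measure.pi fun j => gam (X i j)).map (fun row : C → ℝ => row j)) (Set.Iio lam) := by
        rw [Measure.map_apply (measurable_pi_apply j) measurableSet_Iio]
      rw [h1]
      change (Measure.pi fun j => gam (X i j)) _ ≤ _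
      rw [h3, h2]
      exact gam_small (X i j) lam hlam
    · simp only [hi, if_false]
      exact prob_le_one
  refine (Finset.prod_le_prod' fun i _ => hrow i).trans ?_
  rw [Finset.prod_ite_mem, Finset.univ_inter, Finset.prod_const]

/-- Binomial estimate used for the second event. -/
theorem choose_small (m h : ℕ) (hm : m ≤ 128 * h) (hh : 1 ≤ h) :
    ((m.choose h : ℝ)) * (1 / 1000 : ℝ) ^ h ≤ Real.exp (-(m : ℝ) / 128) := by
  have hh0 : (0 : ℝ) < h := by positivity
  have h1 : (m.choose h : ℝ) ≤ (m : ℝ) ^ h / (h.factorial : ℝ) := Nat.choose_le_pow_div h m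
  have h2 : (h : ℝ) ^ h / (h.factorial : ℝ) ≤ Real.exp h := Real.pow_div_factorial_le_exp h hh0.le h
  have h3 : (m : ℝ) ≤ 128 * h := by exact_mod_cast hm
  have h4 : (m : ℝ) ^ h ≤ (128 : ℝ) ^ h * (h : ℝ) ^ h := by
    rw [← mul_pow]
    exact pow_le_pow_left₀ (by positivity) h3 h
  have hf : (0 : ℝ) < (h.factorial : ℝ) := by positivity
  have h5 : (m.choose h : ℝ) ≤ (128 : ℝ) ^ h * Real.exp h := by
    refine h1.trans ?_
    rw [div_le_iff₀ hf]
    rw [div_le_iff₀ hf] at h2
    calc (m : ℝ) ^ h ≤ (128 : ℝ) ^ h * (h : ℝ) ^ h := h4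
      _ ≤ (128 : ℝ) ^ h * (Real.exp h * (h.factorial : ℝ)) := by
          apply mul_le_mul_of_nonneg_left h2 (by positivity)
      _ = (128 : ℝ) ^ h * Real.exp h * (h.factorial : ℝ) := by ring
  have he : Real.exp 1 < 2.7182818286 := Real.exp_one_lt_d9
  have he0 : 0 < Real.exp 1 := Real.exp_pos 1
  have he1 : (1 : ℝ) ≤ Real.exp 1 := by
    have := Real.add_one_le_exp (1 : ℝ)
    linarith
  have h6 : (128 : ℝ) * Real.exp 1 * (1 / 1000) ≤ (Real.exp 1)⁻¹ := by
    rw [← one_div, le_div_iff₀ he0]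
    nlinarith
  have hpos : (0 : ℝ) ≤ (1 / 1000 : ℝ) ^ h := by positivity
  calc (m.choose h : ℝ) * (1 / 1000 : ℝ) ^ h
      ≤ (128 : ℝ) ^ h * Real.exp h * (1 / 1000 : ℝ) ^ h :=
        mul_le_mul_of_nonneg_right h5 hpos
    _ = ((128 : ℝ) * Real.exp 1 * (1 / 1000)) ^ h := by
        rw [mul_pow, mul_pow, ← Real.exp_nat_mul]
        simp
    _ ≤ ((Real.exp 1)⁻¹) ^ h := pow_le_pow_left₀ (by positivity) h6 h
    _ = Real.exp (-(h : ℝ)) := by
        rw [← Real.exp_neg, ← Real.exp_nat_mul]
        congr 1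
        ring
    _ ≤ Real.exp (-(m : ℝ) / 128) := by
        apply Real.exp_le_exp.2
        have : (m : ℝ) / 128 ≤ h := by
          rw [div_le_iff₀ (by norm_num)]
          linarith
        rw [neg_div]
        linarith

theorem E2_fail (X : R → C → ℕ) (hm : 1 ≤ Fintype.card R) :
    muX X {s | ¬ ∀ j, ∀ S : Finset R, (Fintype.card R + 127) / 128 ≤ S.card →
        ∃ i ∈ S, 1 / 1000 ≤ s i j} ≤
      ENNReal.ofReal ((Fintype.card C : ℝ) * Real.exp (-(Fintype.card R : ℝ) / 128)) := by
  classical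
  set m := Fintype.card R with hmdef
  set h := (m + 127) / 128 with hh
  have hh1 : 1 ≤ h := by omega
  have hmh : m ≤ 128 * h := by omega
  have hsub : {s : R → C → ℝ | ¬ ∀ j, ∀ S : Finset R, h ≤ S.card → ∃ i ∈ S, 1 / 1000 ≤ s i j} ⊆
      ⋃ j, ⋃ S ∈ Finset.powersetCard h (Finset.univ : Finset R),
        {s : R → C → ℝ | ∀ i ∈ S, s i j < 1 / 1000} := by
    intro s hs
    simp only [Set.mem_ofPred_eq] at hs
    push Not at hs
    obtain ⟨j, S, hS, hall⟩ := hs
    obtain ⟨S', hS'sub, hS'card⟩ := Finset.exists_subset_card_eq hS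
    simp only [Set.mem_iUnion]
    refine ⟨j, S', Finset.mem_powersetCard.2 ⟨Finset.subset_univ _, hS'card⟩, ?_⟩
    intro i hi
    exact hall i (hS'sub hi)
  refine (measure_mono hsub).trans ?_
  refine (measure_iUnion_fintype_le _ _).trans ?_
  have hlam : (0 : ℝ) ≤ 1 / 1000 := by norm_num
  have hcol : ∀ j, muX X (⋃ S ∈ Finset.powersetCard h (Finset.univ : Finset R),
      {s : R → C → ℝ | ∀ i ∈ S, s i j < 1 / 1000}) ≤
      ENNReal.ofReal (Real.exp (-(m : ℝ) / 128)) := by
    intro j
    refine (measure_biUnion_finset_le _ _).trans ?_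
    have hS : ∀ S ∈ Finset.powersetCard h (Finset.univ : Finset R),
        muX X {s : R → C → ℝ | ∀ i ∈ S, s i j < 1 / 1000} ≤ ENNReal.ofReal ((1 / 1000) ^ h) := by
      intro S hS
      refine (small_block X j S (1 / 1000) hlam).trans ?_
      rw [(Finset.mem_powersetCard.1 hS).2, ENNReal.ofReal_pow hlam]
    refine (Finset.sum_le_sum hS).trans ?_
    rw [Finset.sum_const, Finset.card_powersetCard, Finset.card_univ, nsmul_eq_mul,
      ← ENNReal.ofReal_natCast, ← ENNReal.ofReal_mul (by positivity)]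
    apply ENNReal.ofReal_le_ofReal
    exact choose_small m h hmh hh1
  calc _ ≤ ∑ _j : C, ENNReal.ofReal (Real.exp (-(m : ℝ) / 128)) :=
        Finset.sum_le_sum fun j _ => hcol j
    _ = ENNReal.ofReal ((Fintype.card C : ℝ) * Real.exp (-(m : ℝ) / 128)) := by
        rw [Finset.sum_const, Finset.card_univ, nsmul_eq_mul,
          ENNReal.ofReal_mul (by positivity), ENNReal.ofReal_natCast]

/-- Convexity of the exponential on a chord. -/
theorem exp_chord (a w : ℝ) (hw0 : 0 ≤ w) (hw1 : w ≤ 1) :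
    Real.exp (-a * w) ≤ w * Real.exp (-a) + (1 - w) := by
  have h := convexOn_exp.2 (Set.mem_univ (-a)) (Set.mem_univ (0 : ℝ)) hw0 (sub_nonneg.2 hw1)
    (by ring)
  simp only [smul_eq_mul, mul_zero, add_zero, Real.exp_zero, mul_one] at h
  calc Real.exp (-a * w) = Real.exp (w * -a) := by ring_nf
    _ ≤ _ := h

theorem half_exp_le (u : ℝ) (hu0 : 0 ≤ u) (hu1 : u ≤ 1) :
    (1 + Real.exp (-u)) / 2 ≤ Real.exp (-u / 4) := by
  have h1 : Real.exp (-u) ≤ u * Real.exp (-1) + (1 - u) := by
    have := exp_chord 1 u hu0 hu1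
    simpa using this
  have h2 : Real.exp (-1) ≤ 1 / 2 := by
    rw [Real.exp_neg, ← one_div]
    apply one_div_le_one_div_of_le (by norm_num)
    have := Real.add_one_le_exp (1 : ℝ)
    linarith
  have h3 := Real.add_one_le_exp (-u / 4)
  nlinarith

/-- The Laplace bound for `1 - exp (-s)` under the Gamma law. -/
theorem gam_w_bound (k : ℕ) (u : ℝ) (hu0 : 0 ≤ u) (hu1 : u ≤ 1) :
    Integrable (fun t => Real.exp (-u * (1 - Real.exp (-t)))) (gam k) ∧
    ∫ t, Real.exp (-u * (1 - Real.exp (-t))) ∂(gam k) ≤ Real.exp (-u / 4) := by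
  have hpos : ∀ᵐ t ∂(gam k), 0 < t := by
    have h := gam_pos k
    rw [ae_iff]
    have : {a : ℝ | ¬ 0 < a} = Set.Iic 0 := by
      ext a
      simp
    rw [this]
    exact h
  have hmeas : Measurable (fun t : ℝ => Real.exp (-u * (1 - Real.exp (-t)))) := by fun_prop
  have hint : Integrable (fun t => Real.exp (-u * (1 - Real.exp (-t)))) (gam k) := by
    refine Integrable.mono' (integrable_const (1 : ℝ)) hmeas.aestronglyMeasurable ?_
    filter_upwards [hpos] with t ht
    rw [Real.norm_eq_abs, abs_of_pos (Real.exp_pos _)]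
    rw [Real.exp_le_one_iff]
    have : Real.exp (-t) ≤ 1 := Real.exp_le_one_iff.2 (by linarith)
    nlinarith
  refine ⟨hint, ?_⟩
  obtain ⟨hE, hEv⟩ := gam_mgf k (-1) (by norm_num)
  have hEv' : ∫ t, Real.exp (-t) ∂(gam k) = ((1 - (-1 : ℝ))⁻¹) ^ (k + 1) := by
    rw [← hEv]
    apply integral_congr_ae
    filter_upwards with t
    congr 1
    ring
  have hE' : Integrable (fun t => Real.exp (-t)) (gam k) := by
    refine hE.congr ?_
    filter_upwards with t
    congr 1
    ring
  have hpt : ∀ᵐ t ∂(gam k), Real.exp (-u * (1 - Real.exp (-t))) ≤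
      1 - (1 - Real.exp (-u)) + (1 - Real.exp (-u)) * Real.exp (-t) := by
    filter_upwards [hpos] with t ht
    have h1 : Real.exp (-t) ≤ 1 := Real.exp_le_one_iff.2 (by linarith)
    have h2 := exp_chord u (1 - Real.exp (-t)) (by linarith) (by linarith [Real.exp_pos (-t)])
    linarith
  have hrhs : Integrable (fun t => 1 - (1 - Real.exp (-u)) + (1 - Real.exp (-u)) * Real.exp (-t))
      (gam k) := (integrable_const _).add (hE'.const_mul _)
  have hle := integral_mono_ae hint hrhs hpt
  refine hle.trans ?_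
  rw [integral_add (integrable_const _) (hE'.const_mul _), integral_const_mul, hEv',
    integral_const]
  simp only [probReal_univ, smul_eq_mul, one_mul]
  have hh : ((1 - (-1 : ℝ))⁻¹) ^ (k + 1) ≤ 1 / 2 := by
    have : (1 - (-1 : ℝ))⁻¹ = 1 / 2 := by norm_num
    rw [this, pow_succ]
    have h1 : ((1 : ℝ) / 2) ^ k ≤ 1 := pow_le_one₀ (by norm_num) (by norm_num)
    linarith
  have hu : 0 ≤ 1 - Real.exp (-u) := by
    have := Real.exp_le_one_iff.2 (show -u ≤ 0 by linarith)
    linarith
  have := half_exp_le u hu0 hu1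
  nlinarith

theorem E3_fail (r : ℕ) (c : C → ℕ) (hsum : ∑ j, c j = Fintype.card R * r)
    (hm : 1 ≤ Fintype.card R) (D : ℝ) (hD : 0 < D) (hcD : ∀ j, (c j : ℝ) ≤ D)
    (X : R → C → ℕ) :
    muX X {s | ¬ ∀ i, (r : ℝ) / 8 ≤ ∑ j, ((c j : ℝ) / Fintype.card R) * (1 - Real.exp (-s i j))} ≤
      ENNReal.ofReal ((Fintype.card R : ℝ) *
        Real.exp (-((Fintype.card R : ℝ) * r / D) / 8)) := by
  have := muX_prob X
  set m := Fintype.card R with hmdef
  have hm0 : (0 : ℝ) < m := by exact_mod_cast hm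
  have hsumR : ∑ j, (c j : ℝ) = (m : ℝ) * r := by exact_mod_cast hsum
  have hrow : ∀ i, muX X {s | ∑ j, ((c j : ℝ) / m) * (1 - Real.exp (-s i j)) < (r : ℝ) / 8} ≤
      ENNReal.ofReal (Real.exp (-((m : ℝ) * r / D) / 8)) := by
    intro i
    set f : C → ℝ → ℝ := fun j t => Real.exp (-((c j : ℝ) / D) * (1 - Real.exp (-t))) with hf
    have hmeas : ∀ j, Measurable (f j) := fun j => by
      simp only [hf]; fun_prop
    have hu0 : ∀ j, 0 ≤ (c j : ℝ) / D := fun j => by positivity
    have hu1 : ∀ j, (c j : ℝ) / D ≤ 1 := fun j => by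
      rw [div_le_one hD]; exact hcD j
    have hint : ∀ j, Integrable (f j) (gam (X i j)) := fun j =>
      (gam_w_bound (X i j) _ (hu0 j) (hu1 j)).1
    have hI : ∫ s, ∏ j, f j (s i j) ∂(muX X) ≤ Real.exp (-((m : ℝ) * r / D) / 4) := by
      rw [integral_row_prod X i f hmeas]
      calc ∏ j, ∫ t, f j t ∂(gam (X i j))
          ≤ ∏ j, Real.exp (-((c j : ℝ) / D) / 4) := by
            apply Finset.prod_le_prod
            · intro j _
              exact integral_nonneg fun t => (Real.exp_pos _).le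
            · intro j _
              exact (gam_w_bound (X i j) _ (hu0 j) (hu1 j)).2
        _ = Real.exp (-((m : ℝ) * r / D) / 4) := by
            rw [← Real.exp_sum]
            congr 1
            rw [← hsumR, Finset.sum_div, neg_div, Finset.sum_div, ← Finset.sum_neg_distrib]
            apply Finset.sum_congr rfl
            intro j _
            ring
    have hsub : {s : R → C → ℝ | ∑ j, ((c j : ℝ) / m) * (1 - Real.exp (-s i j)) < (r : ℝ) / 8} ⊆
        {s | Real.exp (-((m : ℝ) * r / D) / 8) ≤ ∏ j, f j (s i j)} := by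
      intro s hs
      simp only [Set.mem_ofPred_eq] at hs ⊢
      simp only [hf]
      rw [← Real.exp_sum]
      apply Real.exp_le_exp.2
      have e : ∑ j, -((c j : ℝ) / D) * (1 - Real.exp (-s i j)) =
          -((m : ℝ) / D) * ∑ j, ((c j : ℝ) / m) * (1 - Real.exp (-s i j)) := by
        rw [Finset.mul_sum]
        apply Finset.sum_congr rfl
        intro j _
        field_simp
      rw [e]
      have hmD : 0 < (m : ℝ) / D := by positivity
      have : (m : ℝ) / D * ∑ j, ((c j : ℝ) / m) * (1 - Real.exp (-s i j)) ≤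
          (m : ℝ) / D * ((r : ℝ) / 8) := mul_le_mul_of_nonneg_left hs.le hmD.le
      have e2 : -((m : ℝ) * r / D) / 8 = -((m : ℝ) / D * ((r : ℝ) / 8)) := by ring
      rw [e2]
      linarith
    refine (measure_mono hsub).trans ((markov_real (muX X) _ (fun s => ?_)
      (integrable_row_prod X i f hint) _ (Real.exp_pos _)).trans ?_)
    · exact Finset.prod_nonneg fun j _ => (Real.exp_pos _).le
    · apply ENNReal.ofReal_le_ofReal
      rw [div_le_iff₀ (Real.exp_pos _)]
      refine hI.trans ?_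
      rw [← Real.exp_add]
      apply Real.exp_le_exp.2
      linarith
  have hsub : {s : R → C → ℝ | ¬ ∀ i, (r : ℝ) / 8 ≤
        ∑ j, ((c j : ℝ) / m) * (1 - Real.exp (-s i j))} ⊆
      ⋃ i, {s | ∑ j, ((c j : ℝ) / m) * (1 - Real.exp (-s i j)) < (r : ℝ) / 8} := by
    intro s hs
    simp only [Set.mem_ofPred_eq] at hs
    push Not at hs
    obtain ⟨i, hi⟩ := hs
    exact Set.mem_iUnion.2 ⟨i, hi⟩
  refine (measure_mono hsub).trans ((measure_iUnion_fintype_le _ _).trans ?_)
  calc ∑ i, muX X {s | ∑ j, ((c j : ℝ) / m) * (1 - Real.exp (-s i j)) < (r : ℝ) / 8}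
      ≤ ∑ _i : R, ENNReal.ofReal (Real.exp (-((m : ℝ) * r / D) / 8)) :=
        Finset.sum_le_sum fun i _ => hrow i
    _ = ENNReal.ofReal ((m : ℝ) * Real.exp (-((m : ℝ) * r / D) / 8)) := by
        rw [Finset.sum_const, Finset.card_univ, nsmul_eq_mul,
          ENNReal.ofReal_mul (by positivity), ENNReal.ofReal_natCast]

end Vale.Agent.Lib.P328.Blsy
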