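import Mathlib
import Vale.Agent.Lib.P328.Blsy.Defs

/-!
# P328: the deterministic gauge lemma for the Barvinok-Luria-Samorodnitsky-Yong analysis
-/

namespace Vale.Agent.Lib.P328.Blsy

open Finset

variable {R C : Type} [Fintype R] [Fintype C] [DecidableEq R] [DecidableEq C]

/-- the top `k` rows for the weights `α` -/
theorem exists_top (α : R → ℝ) (k : ℕ) (hk : k ≤ Fintype.card R) :
    ∃ T : Finset R, T.card = k ∧ ∀ i ∈ T, ∀ i', i' ∉ T → α i' ≤ α i := by
  induction k with
  | zero => exact ⟨∅, rfl, by simp⟩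
  | succ k ih =>
    obtain ⟨T, hT, h⟩ := ih (by omega)
    have hne : (univ \ T).Nonempty := by
      rw [← Finset.card_pos, Finset.card_sdiff_of_subset (Finset.subset_univ T), Finset.card_univ]
      omega
    obtain ⟨x, hx, hmax⟩ := Finset.exists_max_image (univ \ T) α hne
    have hxT : x ∉ T := by simpa using hx
    refine ⟨insert x T, ?_, ?_⟩
    · rw [Finset.card_insert_of_notMem hxT, hT]
    · intro i hi i' hi'
      rw [Finset.mem_insert, not_or] at hi'
      rcases Finset.mem_insert.1 hi with rfl | hiT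
      · exact hmax i' (by simpa using hi'.2)
      · exact h i hiT i' hi'.2

theorem gauge (r : ℕ) (hr : 1 ≤ r) (c : C → ℕ) (hc1 : ∀ j, 1 ≤ c j) (z0 : ℝ) (hz0 : 1 ≤ z0)
    (hm : 64 ≤ Fintype.card R) (hcz : ∀ j, (c j : ℝ) ≤ z0 * Fintype.card R)
    (hsum : ∑ j, c j = Fintype.card R * r)
    (s : R → C → ℝ) (hs : ∀ i j, 0 < s i j)
    (α : R → ℝ) (β : C → ℝ) (hα : ∀ i, 0 < α i) (hβ : ∀ j, 0 < β j)
    (hrow : ∀ i, ∑ j, α i * β j * s i j = r) (hcol : ∀ j, ∑ i, α i * β j * s i j = c j)
    (E1 : ∀ j, ∑ i, s i j ≤ 2 * ((Fintype.card R : ℝ) + c j))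
    (E2 : ∀ j, ∀ S : Finset R, (Fintype.card R + 127) / 128 ≤ S.card → ∃ i ∈ S, 1 / 1000 ≤ s i j)
    (E3 : ∀ i, (r : ℝ) / 8 ≤ ∑ j, ((c j : ℝ) / Fintype.card R) * (1 - Real.exp (-s i j))) :
    ∀ i j, α i * β j ≤ 8192000 * (1 + z0) ^ 2 * ((c j : ℝ) / ((Fintype.card R : ℝ) + c j)) := by
  classical
  set m : ℕ := Fintype.card R with hmdef
  have hmR : (64 : ℝ) ≤ (m : ℝ) := by exact_mod_cast hm
  have hmpos : (0 : ℝ) < (m : ℝ) := by linarith
  have hrR : (1 : ℝ) ≤ (r : ℝ) := by exact_mod_cast hr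
  have hcpos : ∀ j, (0 : ℝ) < (c j : ℝ) := fun j => by
    have := hc1 j
    exact_mod_cast this
  -- the top rows
  set h1 : ℕ := (m + 63) / 64 with hh1
  have hh1a : m ≤ 64 * h1 := by omega
  have hh1b : 32 * h1 ≤ m := by omega
  have hh1pos : 0 < h1 := by omega
  obtain ⟨Top, hTop, hTopmax⟩ := exists_top α h1 (by omega)
  have hTopne : Top.Nonempty := by
    rw [← Finset.card_pos, hTop]
    exact hh1pos
  obtain ⟨i0, hi0, hi0min⟩ := Finset.exists_min_image Top α hTopne
  set A : ℝ := α i0 with hA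
  have hApos : 0 < A := hα i0
  have hAtop : ∀ i ∈ Top, A ≤ α i := fun i hi => hi0min i hi
  have hAout : ∀ i, i ∉ Top → α i ≤ A := fun i hi => hTopmax i0 hi0 i hi
  -- Step 1
  have step1 : ∀ j, A * β j ≤ 128000 * ((c j : ℝ) / m) := by
    intro j
    set G := Top.filter (fun i => 1 / 1000 ≤ s i j) with hG
    set Bad := Top.filter (fun i => ¬ (1 / 1000 ≤ s i j)) with hBad
    have hcard : G.card + Bad.card = Top.card := Finset.card_filter_add_card_filter_not _
    have hBadlt : ¬ ((m + 127) / 128 ≤ Bad.card) := by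
      intro hle
      obtain ⟨i, hi, hi2⟩ := E2 j Bad hle
      have := (Finset.mem_filter.1 hi).2
      exact this hi2
    have hBad2 : 128 * Bad.card + 1 ≤ m := by omega
    have hGcard : m ≤ 128 * G.card := by omega
    have hGcardR : (m : ℝ) ≤ 128 * (G.card : ℝ) := by exact_mod_cast hGcard
    have h2 : (G.card : ℝ) * (A * β j * (1 / 1000)) ≤ ∑ i ∈ G, α i * β j * s i j := by
      rw [← nsmul_eq_mul]
      apply Finset.card_nsmul_le_sum
      intro i hi
      have hi' := Finset.mem_filter.1 hi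
      have h3 := hAtop i hi'.1
      have h4 := hi'.2
      have hbj := hβ j
      have : A * β j * (1 / 1000) ≤ α i * β j * s i j := by
        apply mul_le_mul (mul_le_mul_of_nonneg_right h3 hbj.le) h4 (by norm_num)
        exact (mul_pos (hα i) hbj).le
      exact this
    have h5 : ∑ i ∈ G, α i * β j * s i j ≤ ∑ i, α i * β j * s i j := by
      apply Finset.sum_le_univ_sum_of_nonneg
      intro i
      exact (mul_pos (mul_pos (hα i) (hβ j)) (hs i j)).le
    rw [hcol j] at h5
    have hAb : 0 < A * β j := mul_pos hApos (hβ j)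
    have h6 : (m : ℝ) * (A * β j) ≤ 128000 * (c j : ℝ) := by
      have h7 : (m : ℝ) * (A * β j) ≤ 128 * (G.card : ℝ) * (A * β j) :=
        mul_le_mul_of_nonneg_right hGcardR hAb.le
      nlinarith
    rw [mul_div_assoc', le_div_iff₀ hmpos]
    linarith
  -- the low columns
  set q : C → ℝ := fun j => (c j : ℝ) / ((m : ℝ) + c j) with hq
  have hqpos : ∀ j, 0 < q j := fun j => div_pos (hcpos j) (by linarith [hcpos j])
  have hqeq : ∀ j, q j * ((m : ℝ) + c j) = c j := fun j => by
    rw [hq]
    field_simp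
  set L := (univ : Finset C).filter (fun j => A * β j < q j / 4) with hL
  have step2a : ∀ j ∈ L, (c j : ℝ) / 2 ≤ ∑ i ∈ Top, α i * β j * s i j := by
    intro j hj
    have hjL := (Finset.mem_filter.1 hj).2
    have hsplit : ∑ i ∈ Top, α i * β j * s i j + ∑ i ∈ Topᶜ, α i * β j * s i j = c j := by
      rw [Finset.sum_add_sum_compl, hcol j]
    have hout : ∑ i ∈ Topᶜ, α i * β j * s i j ≤ ∑ i, A * β j * s i j := by
      calc ∑ i ∈ Topᶜ, α i * β j * s i j ≤ ∑ i ∈ Topᶜ, A * β j * s i j := by
            apply Finset.sum_le_sum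
            intro i hi
            have hi' : i ∉ Top := by simpa using hi
            have := hAout i hi'
            exact mul_le_mul_of_nonneg_right (mul_le_mul_of_nonneg_right this (hβ j).le)
              (hs i j).le
        _ ≤ ∑ i, A * β j * s i j := by
            apply Finset.sum_le_univ_sum_of_nonneg
            intro i
            exact (mul_pos (mul_pos hApos (hβ j)) (hs i j)).le
    have hout2 : ∑ i, A * β j * s i j = A * β j * ∑ i, s i j := by
      rw [Finset.mul_sum]
    have hE1 := E1 j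
    have hmc : 0 < (m : ℝ) + c j := by linarith [hcpos j]
    have hbound : A * β j * ∑ i, s i j ≤ q j / 4 * (2 * ((m : ℝ) + c j)) := by
      have hsumpos : 0 ≤ ∑ i, s i j :=
        Finset.sum_nonneg (fun i _ => (hs i j).le)
      apply mul_le_mul hjL.le hE1 hsumpos
      have := hqpos j
      linarith
    have hqq := hqeq j
    nlinarith
  have hcL : (∑ j ∈ L, (c j : ℝ)) ≤ (m : ℝ) * r / 16 := by
    have h1' : ∑ j ∈ L, (c j : ℝ) / 2 ≤ ∑ j ∈ L, ∑ i ∈ Top, α i * β j * s i j :=
      Finset.sum_le_sum step2a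
    have h2' : ∑ j ∈ L, ∑ i ∈ Top, α i * β j * s i j = ∑ i ∈ Top, ∑ j ∈ L, α i * β j * s i j :=
      Finset.sum_comm
    have h3' : ∑ i ∈ Top, ∑ j ∈ L, α i * β j * s i j ≤ ∑ i ∈ Top, (r : ℝ) := by
      apply Finset.sum_le_sum
      intro i _
      rw [← hrow i]
      apply Finset.sum_le_univ_sum_of_nonneg
      intro j
      exact (mul_pos (mul_pos (hα i) (hβ j)) (hs i j)).le
    have h4' : ∑ i ∈ Top, (r : ℝ) = (h1 : ℝ) * r := by
      rw [Finset.sum_const, hTop, nsmul_eq_mul]
    have h5' : ∑ j ∈ L, (c j : ℝ) / 2 = (∑ j ∈ L, (c j : ℝ)) / 2 := by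
      rw [Finset.sum_div]
    have h6' : 32 * (h1 : ℝ) ≤ (m : ℝ) := by exact_mod_cast hh1b
    have hrpos : (0 : ℝ) < r := by linarith
    have h7' : 32 * ((h1 : ℝ) * r) ≤ (m : ℝ) * r := by
      have := mul_le_mul_of_nonneg_right h6' hrpos.le
      linarith
    rw [h5', h2'] at h1'
    linarith
  -- Step 3
  have step3 : ∀ i, α i ≤ 64 * (1 + z0) * A := by
    intro i
    have hexp : ∀ j, 0 ≤ 1 - Real.exp (-s i j) ∧ 1 - Real.exp (-s i j) ≤ 1 ∧
        1 - Real.exp (-s i j) ≤ s i j := by
      intro j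
      have h1 := hs i j
      refine ⟨?_, ?_, ?_⟩
      · have : Real.exp (-s i j) ≤ 1 := Real.exp_le_one_iff.2 (by linarith)
        linarith
      · have := Real.exp_pos (-s i j)
        linarith
      · have := Real.add_one_le_exp (-s i j)
        linarith
    have hzpos : ∀ j, 0 < (c j : ℝ) / m := fun j => div_pos (hcpos j) hmpos
    -- the sum outside `L`
    have hsplit : ∑ j ∈ L, ((c j : ℝ) / m) * (1 - Real.exp (-s i j)) +
        ∑ j ∈ Lᶜ, ((c j : ℝ) / m) * (1 - Real.exp (-s i j)) =
        ∑ j, ((c j : ℝ) / m) * (1 - Real.exp (-s i j)) := Finset.sum_add_sum_compl _ _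
    have hLsum : ∑ j ∈ L, ((c j : ℝ) / m) * (1 - Real.exp (-s i j)) ≤ (r : ℝ) / 16 := by
      calc ∑ j ∈ L, ((c j : ℝ) / m) * (1 - Real.exp (-s i j))
          ≤ ∑ j ∈ L, ((c j : ℝ) / m) := by
            apply Finset.sum_le_sum
            intro j _
            have := (hexp j).2.1
            have h2 := hzpos j
            nlinarith
        _ = (∑ j ∈ L, (c j : ℝ)) / m := by rw [Finset.sum_div]
        _ ≤ (r : ℝ) / 16 := by
            rw [div_le_iff₀ hmpos]
            linarith
    have hE3 := E3 i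
    have hcomp : (r : ℝ) / 16 ≤ ∑ j ∈ Lᶜ, ((c j : ℝ) / m) * (1 - Real.exp (-s i j)) := by
      linarith
    -- compare with the row sum
    have hrowL : ∑ j ∈ Lᶜ, α i * β j * s i j ≤ (r : ℝ) := by
      rw [← hrow i]
      apply Finset.sum_le_univ_sum_of_nonneg
      intro j
      exact (mul_pos (mul_pos (hα i) (hβ j)) (hs i j)).le
    have hterm : ∀ j ∈ Lᶜ, (α i / (4 * A * (1 + z0))) *
        (((c j : ℝ) / m) * (1 - Real.exp (-s i j))) ≤ α i * β j * s i j := by
      intro j hj
      have hjL : ¬ (A * β j < q j / 4) := by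
        intro hlt
        have hjm : j ∈ L := Finset.mem_filter.2 ⟨Finset.mem_univ j, hlt⟩
        exact (Finset.mem_compl.1 hj) hjm
      have hjL' : q j / 4 ≤ A * β j := not_lt.1 hjL
      have hz1 : ((c j : ℝ) / m) ≤ (1 + z0) * q j := by
        have h1 : (c j : ℝ) / m * ((m : ℝ) + c j) ≤ (1 + z0) * c j := by
          have h2 : (c j : ℝ) / m * ((m : ℝ) + c j) = c j * (1 + (c j : ℝ) / m) := by
            field_simp
          rw [h2]
          have h3 : (c j : ℝ) / m ≤ z0 := by
            rw [div_le_iff₀ hmpos]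
            exact hcz j
          have := hcpos j
          nlinarith
        have hmc : 0 < (m : ℝ) + c j := by linarith [hcpos j]
        rw [hq]
        simp only
        rw [← mul_div_assoc, le_div_iff₀ hmc]
        exact h1
      have h1z : 0 < 1 + z0 := by linarith
      have hαi := hα i
      have hstep : (α i / (4 * A * (1 + z0))) * (((c j : ℝ) / m) * (1 - Real.exp (-s i j))) ≤
          (α i / (4 * A * (1 + z0))) * (((1 + z0) * q j) * s i j) := by
        apply mul_le_mul_of_nonneg_left _ (by positivity)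
        apply mul_le_mul hz1 (hexp j).2.2 (hexp j).1 (by have := hqpos j; positivity)
      have heq : (α i / (4 * A * (1 + z0))) * (((1 + z0) * q j) * s i j) =
          α i / A * (q j / 4) * s i j := by
        field_simp
      have hle : α i / A * (q j / 4) * s i j ≤ α i / A * (A * β j) * s i j := by
        apply mul_le_mul_of_nonneg_right _ (hs i j).le
        apply mul_le_mul_of_nonneg_left hjL' (by positivity)
      have heq2 : α i / A * (A * β j) * s i j = α i * β j * s i j := by
        field_simp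
      linarith
    have hsumterm : (α i / (4 * A * (1 + z0))) *
        ∑ j ∈ Lᶜ, ((c j : ℝ) / m) * (1 - Real.exp (-s i j)) ≤ (r : ℝ) := by
      rw [Finset.mul_sum]
      exact le_trans (Finset.sum_le_sum hterm) hrowL
    have hcoef : 0 < α i / (4 * A * (1 + z0)) := by
      have := hα i
      have h1z : 0 < 1 + z0 := by linarith
      positivity
    have hfin : (α i / (4 * A * (1 + z0))) * ((r : ℝ) / 16) ≤ (r : ℝ) :=
      le_trans (mul_le_mul_of_nonneg_left hcomp hcoef.le) hsumterm
    have hrpos : (0 : ℝ) < r := by linarith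
    have h1z : 0 < 1 + z0 := by linarith
    have hfin2 : α i / (4 * A * (1 + z0)) ≤ 16 := by
      by_contra hcon
      push Not at hcon
      have : 16 * ((r : ℝ) / 16) < (α i / (4 * A * (1 + z0))) * ((r : ℝ) / 16) :=
        mul_lt_mul_of_pos_right hcon (by positivity)
      linarith
    rw [div_le_iff₀ (by positivity)] at hfin2
    linarith
  -- Step 4
  intro i j
  have h3 := step3 i
  have h1 := step1 j
  have hbj := hβ j
  have h1z : 0 < 1 + z0 := by linarith
  have hstep : α i * β j ≤ 64 * (1 + z0) * (A * β j) := by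
    have := mul_le_mul_of_nonneg_right h3 hbj.le
    linarith
  have hzj : (c j : ℝ) / m ≤ (1 + z0) * q j := by
    have h1 : (c j : ℝ) / m * ((m : ℝ) + c j) ≤ (1 + z0) * c j := by
      have h2 : (c j : ℝ) / m * ((m : ℝ) + c j) = c j * (1 + (c j : ℝ) / m) := by
        field_simp
      rw [h2]
      have h3 : (c j : ℝ) / m ≤ z0 := by
        rw [div_le_iff₀ hmpos]
        exact hcz j
      have := hcpos j
      nlinarith
    have hmc : 0 < (m : ℝ) + c j := by linarith [hcpos j]
    rw [hq]
    simp only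
    rw [← mul_div_assoc, le_div_iff₀ hmc]
    exact h1
  have hqj := hqpos j
  calc α i * β j ≤ 64 * (1 + z0) * (A * β j) := hstep
    _ ≤ 64 * (1 + z0) * (128000 * ((1 + z0) * q j)) := by
        apply mul_le_mul_of_nonneg_left _ (by positivity)
        linarith [mul_le_mul_of_nonneg_left hzj (by norm_num : (0 : ℝ) ≤ 128000)]
    _ = 8192000 * (1 + z0) ^ 2 * q j := by ring

end Vale.Agent.Lib.P328.Blsy
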