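import Mathlib
import Vale.Agent.Lib.P328.Defs
import Vale.Agent.Lib.P328.Blsy.CellMoment

/-!
# P328: sequential moment bound over the rows of a table
-/

namespace Vale.Agent.Lib.P328.Blsy

open Finset

variable {R C : Type} [Fintype R] [Fintype C] [DecidableEq R] [DecidableEq C]

/-- tables agreeing with `Y` on the rows in `I` -/
def fib (r : R → ℕ) (c : C → ℕ) (I : Finset R) (Y : R → C → ℕ) : Finset (R → C → ℕ) :=
  (tables r c).filter fun X => ∀ i ∈ I, X i = Y i

theorem mem_fib {r : R → ℕ} {c : C → ℕ} {I : Finset R} {Y X : R → C → ℕ} :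
    X ∈ fib r c I Y ↔ X ∈ tables r c ∧ ∀ i ∈ I, X i = Y i := by
  unfold fib
  rw [Finset.mem_filter]

theorem fib_empty (r : R → ℕ) (c : C → ℕ) (Y : R → C → ℕ) : fib r c ∅ Y = tables r c := by
  unfold fib
  apply Finset.filter_true_of_mem
  intro X _ i hi
  simp at hi

/-- The induction on the unprocessed rows. -/
theorem seq_moment_aux (r : R → ℕ) (c : C → ℕ) (φ : (C → ℕ) → ℝ) (hφ : ∀ u, 0 ≤ φ u)
    (H : ℝ) (hH : 0 ≤ H) (J : Finset R)
    (hfib : ∀ I₀ ⊆ J, ∀ i ∈ J \ I₀, ∀ Y ∈ tables r c,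
      ∑ X ∈ fib r c I₀ Y, φ (X i) ≤ H * ((fib r c I₀ Y).card : ℝ))
    (k : ℕ) : ∀ I₀ ⊆ J, (J \ I₀).card = k → ∀ Y ∈ tables r c,
      ∑ X ∈ fib r c I₀ Y, ∏ i ∈ J \ I₀, φ (X i) ≤ H ^ k * ((fib r c I₀ Y).card : ℝ) := by
  classical
  induction k with
  | zero =>
    intro I₀ _ hk Y _
    rw [Finset.card_eq_zero.1 hk]
    simp
  | succ k IH =>
    intro I₀ hI₀ hk Y hY
    obtain ⟨i, hi⟩ : (J \ I₀).Nonempty := by
      rw [← Finset.card_pos]; omega
    have hi' := Finset.mem_sdiff.1 hi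
    have hI₁ : insert i I₀ ⊆ J := Finset.insert_subset hi'.1 hI₀
    have hsd : J \ I₀ = insert i (J \ insert i I₀) := by
      ext a
      simp only [Finset.mem_sdiff, Finset.mem_insert, not_or]
      constructor
      · rintro ⟨ha, hb⟩
        by_cases hai : a = i
        · exact Or.inl hai
        · exact Or.inr ⟨ha, hai, hb⟩
      · rintro (rfl | ⟨ha, _, hb⟩)
        · exact hi'
        · exact ⟨ha, hb⟩
    have hnot : i ∉ J \ insert i I₀ := by simp
    have hk' : (J \ insert i I₀).card = k := by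
      have := Finset.card_insert_of_notMem hnot
      rw [← hsd, hk] at this
      omega
    set A := fib r c I₀ Y with hA
    -- group by the value of row i
    have hprod : ∀ X ∈ A, ∏ a ∈ J \ I₀, φ (X a) =
        φ (X i) * ∏ a ∈ J \ insert i I₀, φ (X a) := by
      intro X _
      rw [hsd, Finset.prod_insert hnot]
    rw [Finset.sum_congr rfl hprod]
    -- the classes
    have hclass : ∀ X₀ ∈ A, A.filter (fun X => X i = X₀ i) = fib r c (insert i I₀) X₀ := by
      intro X₀ hX₀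
      ext X
      have hX₀' := mem_fib.1 hX₀
      rw [Finset.mem_filter]
      have hXA : X ∈ A ↔ X ∈ tables r c ∧ ∀ i ∈ I₀, X i = Y i := mem_fib
      rw [hXA, mem_fib]
      constructor
      · rintro ⟨⟨h1, h2⟩, h3⟩
        refine ⟨h1, ?_⟩
        intro a ha
        rcases Finset.mem_insert.1 ha with rfl | ha
        · exact h3
        · rw [h2 a ha, hX₀'.2 a ha]
      · rintro ⟨h1, h2⟩
        refine ⟨⟨h1, fun a ha => ?_⟩, h2 i (Finset.mem_insert_self _ _)⟩
        rw [h2 a (Finset.mem_insert_of_mem ha), hX₀'.2 a ha]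
    have hmain : ∀ X₀ ∈ A,
        ∑ X ∈ A.filter (fun X => X i = X₀ i), ∏ a ∈ J \ insert i I₀, φ (X a) ≤
          H ^ k * ((A.filter (fun X => X i = X₀ i)).card : ℝ) := by
      intro X₀ hX₀
      rw [hclass X₀ hX₀]
      exact IH _ hI₁ hk' X₀ (mem_fib.1 hX₀).1
    have hH1 : ∑ X ∈ A, φ (X i) ≤ H * (A.card : ℝ) := hfib I₀ hI₀ i hi Y hY
    have hpiece : ∀ u ∈ A.image (fun X => X i),
        ∑ X ∈ A.filter (fun X => X i = u), φ (X i) * ∏ a ∈ J \ insert i I₀, φ (X a) ≤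
        H ^ k * ∑ X ∈ A.filter (fun X => X i = u), φ (X i) := by
      intro u hu
      obtain ⟨X₀, hX₀, rfl⟩ := Finset.mem_image.1 hu
      have h1 : ∀ X ∈ A.filter (fun X => X i = X₀ i),
          φ (X i) * ∏ a ∈ J \ insert i I₀, φ (X a) =
            φ (X₀ i) * ∏ a ∈ J \ insert i I₀, φ (X a) := by
        intro X hX
        rw [(Finset.mem_filter.1 hX).2]
      rw [Finset.sum_congr rfl h1, ← Finset.mul_sum]
      have h2 : ∀ X ∈ A.filter (fun X => X i = X₀ i), φ (X i) = φ (X₀ i) := by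
        intro X hX
        rw [(Finset.mem_filter.1 hX).2]
      rw [Finset.sum_congr rfl h2, Finset.sum_const, nsmul_eq_mul]
      have h3 := mul_le_mul_of_nonneg_left (hmain X₀ hX₀) (hφ (X₀ i))
      calc _ ≤ φ (X₀ i) * (H ^ k * ((A.filter (fun X => X i = X₀ i)).card : ℝ)) := h3
        _ = _ := by ring
    calc ∑ X ∈ A, φ (X i) * ∏ a ∈ J \ insert i I₀, φ (X a)
        = ∑ u ∈ A.image (fun X => X i), ∑ X ∈ A.filter (fun X => X i = u),
            φ (X i) * ∏ a ∈ J \ insert i I₀, φ (X a) :=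
          (Finset.sum_fiberwise_of_maps_to (fun X hX => Finset.mem_image_of_mem _ hX) _).symm
      _ ≤ ∑ u ∈ A.image (fun X => X i), H ^ k * ∑ X ∈ A.filter (fun X => X i = u), φ (X i) :=
          Finset.sum_le_sum hpiece
      _ = H ^ k * ∑ X ∈ A, φ (X i) := by
          rw [← Finset.mul_sum]
          congr 1
          exact Finset.sum_fiberwise_of_maps_to (fun X hX => Finset.mem_image_of_mem _ hX) _
      _ ≤ H ^ k * (H * (A.card : ℝ)) := mul_le_mul_of_nonneg_left hH1 (by positivity)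
      _ = _ := by ring

theorem seq_moment (r : R → ℕ) (c : C → ℕ) (φ : (C → ℕ) → ℝ) (hφ : ∀ u, 0 ≤ φ u)
    (H : ℝ) (hH : 0 ≤ H) (J : Finset R)
    (hfib : ∀ I₀ ⊆ J, ∀ i ∈ J \ I₀, ∀ Y ∈ tables r c,
      ∑ X ∈ fib r c I₀ Y, φ (X i) ≤ H * ((fib r c I₀ Y).card : ℝ)) :
    ∑ X ∈ tables r c, ∏ i ∈ J, φ (X i) ≤ H ^ J.card * ((tables r c).card : ℝ) := by
  classical
  by_cases hne : (tables r c).Nonempty
  · obtain ⟨Y, hY⟩ := hne
    have := seq_moment_aux r c φ hφ H hH J hfib J.card ∅ (Finset.empty_subset _) (by simp) Y hY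
    simpa [fib_empty] using this
  · rw [Finset.not_nonempty_iff_eq_empty.1 hne]
    simp

/-- The reduced column sums on the free rows. -/
def cRest (c : C → ℕ) (I₀ : Finset R) (Y : R → C → ℕ) : C → ℕ :=
  fun j => c j - ∑ i ∈ I₀, Y i j

/-- The fibre over the rows `I₀` is in bijection with the tables on the free rows. -/
theorem fib_sum_eq (r : ℕ) (c : C → ℕ) (I₀ : Finset R) (Y : R → C → ℕ)
    (hY : Y ∈ tables (fun _ : R => r) c) (f : (R → C → ℕ) → ℝ) (g : ({i // i ∉ I₀} → C → ℕ) → ℝ)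
    (hfg : ∀ X : R → C → ℕ, f X = g (fun i => X i.1)) :
    ∑ X ∈ fib (fun _ : R => r) c I₀ Y, f X =
      ∑ W ∈ tables (fun _ : {i // i ∉ I₀} => r) (cRest c I₀ Y), g W := by
  classical
  have hYm := mem_tables.1 hY
  have hYle : ∀ j, ∑ i ∈ I₀, Y i j ≤ c j := by
    intro j
    rw [← hYm.2 j]
    exact Finset.sum_le_sum_of_subset_of_nonneg (Finset.subset_univ _)
      (fun _ _ _ => Nat.zero_le _)
  have hsplit : ∀ (X : R → C → ℕ) (j : C),
      ∑ i : {i // i ∉ I₀}, X i.1 j + ∑ i ∈ I₀, X i j = ∑ i, X i j := by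
    intro X j
    rw [← Finset.sum_subtype (s := univ.filter (fun i => i ∉ I₀)) (p := fun i => i ∉ I₀)
        (by simp) (fun i => X i j)]
    rw [← Finset.sum_filter_add_sum_filter_not (univ : Finset R) (fun i => i ∉ I₀)
        (fun i => X i j)]
    congr 1
    apply Finset.sum_congr
    · ext i; simp
    · intro _ _; rfl
  refine Finset.sum_bij' (fun X _ i => X i.1)
    (fun W _ i => if h : i ∈ I₀ then Y i else W ⟨i, h⟩) ?_ ?_ ?_ ?_ ?_
  · -- maps to
    intro X hX
    have hX' := mem_fib.1 hX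
    have hXm := mem_tables.1 hX'.1
    rw [mem_tables]
    refine ⟨fun i => hXm.1 i.1, fun j => ?_⟩
    have h1 := hsplit X j
    have h2 : ∑ i ∈ I₀, X i j = ∑ i ∈ I₀, Y i j :=
      Finset.sum_congr rfl fun i hi => by rw [hX'.2 i hi]
    rw [hXm.2 j, h2] at h1
    unfold cRest
    omega
  · -- inverse maps to
    intro W hW
    have hWm := mem_tables.1 hW
    rw [mem_fib, mem_tables]
    refine ⟨⟨fun i => ?_, fun j => ?_⟩, fun i hi => ?_⟩
    · by_cases h : i ∈ I₀
      · simp only [h, dif_pos]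
        exact hYm.1 i
      · simp only [h, dif_neg, not_false_eq_true]
        exact hWm.1 ⟨i, h⟩
    · set X : R → C → ℕ := fun i => if h : i ∈ I₀ then Y i else W ⟨i, h⟩ with hXdef
      have h1 := hsplit X j
      have h2 : ∑ i ∈ I₀, X i j = ∑ i ∈ I₀, Y i j :=
        Finset.sum_congr rfl fun i hi => by simp [hXdef, hi]
      have h3 : ∑ i : {i // i ∉ I₀}, X i.1 j = ∑ i, W i j := by
        apply Finset.sum_congr rfl
        intro i _
        simp [hXdef, i.2]
      have h4 := hWm.2 j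
      unfold cRest at h4
      rw [← h1, h2, h3, h4]
      have := hYle j
      omega
    · simp [hi]
  · -- left inverse
    intro X hX
    have hX' := mem_fib.1 hX
    funext i
    by_cases h : i ∈ I₀
    · simp only [h, dif_pos]
      exact (hX'.2 i h).symm
    · simp [h]
  · -- right inverse
    intro W _
    funext i
    simp [i.2]
  · intro X _
    exact hfg X

theorem fib_cell_moment (r : ℕ) (c : C → ℕ) (I₀ : Finset R) (Y : R → C → ℕ)
    (hY : Y ∈ tables (fun _ : R => r) c) (l : R) (hl : l ∉ I₀) (j : C) (z : ℝ) (hz : 0 < z)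
    (hc : (c j : ℝ) ≤ 2 * z * ((Fintype.card R : ℝ) - I₀.card)) :
    ∑ X ∈ fib (fun _ : R => r) c I₀ Y, hh z (X l j) ≤
      280 * ((fib (fun _ : R => r) c I₀ Y).card : ℝ) := by
  classical
  have h1 := fib_sum_eq r c I₀ Y hY (fun X => hh z (X l j))
    (fun W => hh z (W ⟨l, hl⟩ j)) (fun _ => rfl)
  have h2 := fib_sum_eq r c I₀ Y hY (fun _ => (1 : ℝ)) (fun _ => (1 : ℝ)) (fun _ => rfl)
  simp only [Finset.sum_const, nsmul_eq_mul, mul_one] at h2
  rw [h1, h2]
  have hcard : (Fintype.card {i // i ∉ I₀} : ℝ) = (Fintype.card R : ℝ) - I₀.card := by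
    have hle : I₀.card ≤ Fintype.card R := Finset.card_le_univ I₀
    rw [Fintype.card_subtype_compl, Fintype.card_coe, Nat.cast_sub hle]
  have h3 : (cRest c I₀ Y j : ℝ) ≤ c j := by
    have : cRest c I₀ Y j ≤ c j := Nat.sub_le _ _
    exact_mod_cast this
  have h4 : (cRest c I₀ Y j : ℝ) ≤ 2 * z * (Fintype.card {i // i ∉ I₀} : ℝ) := by
    rw [hcard]
    exact h3.trans hc
  exact cell_moment (R := {i // i ∉ I₀}) r (cRest c I₀ Y) ⟨l, hl⟩ j z hz h4

/-- Jensen for `p ≤ 1`: a discrete mean of `g ^ p`. -/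
theorem sum_rpow_le_of_sum_le {ι : Type} (A : Finset ι) (g : ι → ℝ) (hg : ∀ a, 0 ≤ g a)
    (p H : ℝ) (hp0 : 0 ≤ p) (hp1 : p ≤ 1) (hH : 0 ≤ H)
    (hsum : ∑ a ∈ A, g a ≤ H * (A.card : ℝ)) :
    ∑ a ∈ A, g a ^ p ≤ H ^ p * (A.card : ℝ) := by
  classical
  rcases A.eq_empty_or_nonempty with rfl | hne
  · simp
  have hcard : (0 : ℝ) < A.card := by exact_mod_cast Finset.card_pos.2 hne
  have hw : ∑ _a ∈ A, ((A.card : ℝ))⁻¹ = 1 := by
    rw [Finset.sum_const, nsmul_eq_mul]
    field_simp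
  have hj := (Real.concaveOn_rpow hp0 hp1).le_map_sum (t := A) (w := fun _ => ((A.card : ℝ))⁻¹)
    (p := g) (fun _ _ => by positivity) hw (fun a _ => hg a)
  simp only [smul_eq_mul] at hj
  rw [← Finset.mul_sum, ← Finset.mul_sum] at hj
  have hmean : (A.card : ℝ)⁻¹ * ∑ a ∈ A, g a ≤ H := by
    rw [inv_mul_le_iff₀ hcard]
    linarith
  have hm0 : 0 ≤ (A.card : ℝ)⁻¹ * ∑ a ∈ A, g a :=
    mul_nonneg (by positivity) (Finset.sum_nonneg fun a _ => hg a)
  have h3 : ((A.card : ℝ)⁻¹ * ∑ a ∈ A, g a) ^ p ≤ H ^ p :=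
    Real.rpow_le_rpow hm0 hmean hp0
  have h4 := hj.trans h3
  rw [inv_mul_le_iff₀ hcard] at h4
  linarith

/-- Discrete moment: `J` at most about half of the rows. -/
theorem table_moment (r : ℕ) (c : C → ℕ) (hc : ∀ j, 1 ≤ c j)
    (hsum : ∑ j, c j = Fintype.card R * r)
    (hr : 1 ≤ r) (C₁ p : ℝ) (hC₁ : 0 < C₁) (hp0 : 0 ≤ p) (hp1 : p ≤ 1) (J : Finset R)
    (hJ : 2 * J.card ≤ Fintype.card R + 1) :
    ∑ X ∈ tables (fun _ : R => r) c, ∏ i ∈ J,
        (C₁ * ∑ j, ((c j : ℝ) / ((Fintype.card R : ℝ) * r)) *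
          hh ((c j : ℝ) / Fintype.card R) (X i j)) ^ p ≤
      (280 * C₁) ^ (p * J.card) * ((tables (fun _ : R => r) c).card : ℝ) := by
  classical
  set m : ℝ := (Fintype.card R : ℝ) with hm
  -- `hh` is nonnegative
  have hhh : ∀ (z : ℝ) (x : ℕ), 0 ≤ z → 0 ≤ hh z x := by
    intro z x hz
    unfold hh
    have hw : 1 ≤ 1 + z := by linarith
    have h1 : 1 / (100 * (1 + z)) ≤ 1 / 100 := by
      apply one_div_le_one_div_of_le (by norm_num)
      nlinarith
    have h2 : 0 < 1 - 1 / (100 * (1 + z)) := by linarith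
    positivity
  set φ : (C → ℕ) → ℝ := fun u =>
    (C₁ * ∑ j, ((c j : ℝ) / (m * r)) * hh ((c j : ℝ) / m) (u j)) ^ p with hφ
  have hg0 : ∀ u : C → ℕ, 0 ≤ C₁ * ∑ j, ((c j : ℝ) / (m * r)) * hh ((c j : ℝ) / m) (u j) := by
    intro u
    apply mul_nonneg hC₁.le
    apply Finset.sum_nonneg
    intro j _
    apply mul_nonneg (by positivity)
    exact hhh _ _ (by positivity)
  have hφ0 : ∀ u, 0 ≤ φ u := fun u => Real.rpow_nonneg (hg0 u) _
  have hH0 : (0 : ℝ) ≤ (280 * C₁) ^ p := by positivity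
  have hkey := seq_moment (fun _ : R => r) c φ hφ0 ((280 * C₁) ^ p) hH0 J ?_
  · have e : (280 * C₁) ^ (p * J.card) = ((280 * C₁) ^ p) ^ J.card := by
      rw [Real.rpow_mul (by positivity), Real.rpow_natCast]
    rw [e]
    exact hkey
  · intro I₀ hI₀ i hi Y hY
    have hi' := Finset.mem_sdiff.1 hi
    have hI₀card : 2 * I₀.card + 1 ≤ Fintype.card R := by
      have h1 : I₀ ⊂ J := by
        refine ⟨hI₀, fun h => hi'.2 (h hi'.1)⟩
      have h2 := Finset.card_lt_card h1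
      omega
    have hmpos : 0 < m := by
      rw [hm]
      exact_mod_cast (by omega : 0 < Fintype.card R)
    -- the mean of the row function
    have hcell : ∀ j : C, ∑ X ∈ fib (fun _ : R => r) c I₀ Y, hh ((c j : ℝ) / m) (X i j) ≤
        280 * ((fib (fun _ : R => r) c I₀ Y).card : ℝ) := by
      intro j
      have hcj : (0 : ℝ) < c j := by exact_mod_cast hc j
      apply fib_cell_moment r c I₀ Y hY i hi'.2 j _ (by positivity)
      have h1 : (2 * (I₀.card : ℝ)) + 1 ≤ m := by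
        rw [hm]; exact_mod_cast hI₀card
      have h2 : 2 * ((c j : ℝ) / m) * ((Fintype.card R : ℝ) - I₀.card) =
          (c j : ℝ) * (2 * (m - I₀.card) / m) := by
        rw [hm]; field_simp
      rw [h2]
      have h3 : 1 ≤ 2 * (m - I₀.card) / m := by
        rw [le_div_iff₀ hmpos]
        linarith
      nlinarith
    have hweights : ∑ j, ((c j : ℝ) / (m * r)) = 1 := by
      rw [← Finset.sum_div]
      have : (∑ j, (c j : ℝ)) = m * r := by
        rw [hm]
        exact_mod_cast hsum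
      rw [this]
      have hrpos : (0 : ℝ) < r := by exact_mod_cast hr
      field_simp
    have hswap : ∑ X ∈ fib (fun _ : R => r) c I₀ Y,
        (C₁ * ∑ j, ((c j : ℝ) / (m * r)) * hh ((c j : ℝ) / m) (X i j)) =
        C₁ * ∑ j, ((c j : ℝ) / (m * r)) *
          ∑ X ∈ fib (fun _ : R => r) c I₀ Y, hh ((c j : ℝ) / m) (X i j) := by
      rw [← Finset.mul_sum, Finset.sum_comm]
      congr 1
      apply Finset.sum_congr rfl
      intro j _
      rw [Finset.mul_sum]
    have hmean : ∑ X ∈ fib (fun _ : R => r) c I₀ Y,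
        (C₁ * ∑ j, ((c j : ℝ) / (m * r)) * hh ((c j : ℝ) / m) (X i j)) ≤
        280 * C₁ * ((fib (fun _ : R => r) c I₀ Y).card : ℝ) := ?_
    · exact sum_rpow_le_of_sum_le (fib (fun _ : R => r) c I₀ Y)
        (fun X => C₁ * ∑ j, ((c j : ℝ) / (m * r)) * hh ((c j : ℝ) / m) (X i j))
        (fun X => hg0 (X i)) p (280 * C₁) hp0 hp1 (by positivity) hmean
    rw [hswap]
    calc C₁ * ∑ j, ((c j : ℝ) / (m * r)) *
          ∑ X ∈ fib (fun _ : R => r) c I₀ Y, hh ((c j : ℝ) / m) (X i j)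
        ≤ C₁ * ∑ j, ((c j : ℝ) / (m * r)) *
          (280 * ((fib (fun _ : R => r) c I₀ Y).card : ℝ)) := by
          apply mul_le_mul_of_nonneg_left _ hC₁.le
          apply Finset.sum_le_sum
          intro j _
          exact mul_le_mul_of_nonneg_left (hcell j) (by positivity)
      _ = 280 * C₁ * ((fib (fun _ : R => r) c I₀ Y).card : ℝ) := by
          rw [← Finset.sum_mul, hweights]
          ring

end Vale.Agent.Lib.P328.Blsy
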