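import Mathlib
import Vale.Agent.Lib.P328.Defs
import Vale.Agent.Lib.P328.Blsy.Defs
import Vale.Agent.Lib.P328.Blsy.GammaFacts
import Vale.Agent.Lib.P328.Blsy.CellMoment
import Vale.Agent.Lib.P328.Blsy.Seq

/-!
# P328 Blsy, module M: the moment bound under `nu`
-/

namespace Vale.Agent.Lib.P328.Blsy

open Finset MeasureTheory ProbabilityTheory
open scoped ENNReal

/-- the cell function `e exp(e/100)`, `e = s/(1+z)` -/
noncomputable def cellE (z s : ℝ) : ℝ := s / (1 + z) * Real.exp (s / (1 + z) / 100)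

theorem measurable_cellE (z : ℝ) : Measurable (cellE z) := by
  unfold cellE
  fun_prop

theorem cellE_pos {z s : ℝ} (hz : 0 ≤ z) (hs : 0 < s) : 0 < cellE z s := by
  unfold cellE
  have : 0 < 1 + z := by linarith
  positivity

theorem gam_cellE (k : ℕ) (z : ℝ) (hz : 0 ≤ z) :
    Integrable (cellE z) (gam k) ∧ ∫ s, cellE z s ∂(gam k) = hh z k := by
  have h1 : 0 < 1 + z := by linarith
  have hτ : 1 / (100 * (1 + z)) < 1 := by
    rw [div_lt_one (by positivity)]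
    nlinarith
  obtain ⟨hi, he⟩ := gam_smgf k (1 / (100 * (1 + z))) hτ
  have hfun : cellE z = fun s => (1 + z)⁻¹ * (s * Real.exp (1 / (100 * (1 + z)) * s)) := by
    funext s
    unfold cellE
    have : s / (1 + z) / 100 = 1 / (100 * (1 + z)) * s := by
      field_simp
    rw [this]
    field_simp
  rw [hfun]
  refine ⟨hi.const_mul _, ?_⟩
  rw [integral_const_mul, he]
  unfold hh
  field_simp

set_option linter.unusedSectionVars false

variable {R C : Type} [Fintype R] [Fintype C] [DecidableEq R] [DecidableEq C]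

/-- the row function `A_i` -/
noncomputable def rowA (c : C → ℕ) (m N C₁ : ℝ) (s : R → C → ℝ) (i : R) : ℝ :=
  C₁ * ∑ j, ((c j : ℝ) / N) * cellE ((c j : ℝ) / m) (s i j)

/-- the row function as a function of one row -/
noncomputable def rowF (c : C → ℕ) (m N C₁ : ℝ) (u : C → ℝ) : ℝ :=
  C₁ * ∑ j, ((c j : ℝ) / N) * cellE ((c j : ℝ) / m) (u j)

theorem rowA_eq (c : C → ℕ) (m N C₁ : ℝ) (s : R → C → ℝ) (i : R) :
    rowA c m N C₁ s i = rowF c m N C₁ (s i) := rfl

theorem measurable_rowF (c : C → ℕ) (m N C₁ : ℝ) : Measurable (rowF c m N C₁) := by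
  unfold rowF
  refine Measurable.const_mul ?_ _
  refine Finset.measurable_sum _ fun j _ => ?_
  exact ((measurable_cellE _).comp (measurable_pi_apply j)).const_mul _

/-- row measure -/
noncomputable abbrev rowM (ν : C → ℕ) : Measure (C → ℝ) := Measure.pi fun j => gam (ν j)

attribute [local instance] gam_prob

theorem rowF_integrable (c : C → ℕ) (m N C₁ : ℝ) (hm : 0 ≤ m) (ν : C → ℕ) :
    Integrable (rowF c m N C₁) (rowM ν) ∧
    ∫ u, rowF c m N C₁ u ∂(rowM ν) =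
      C₁ * ∑ j, ((c j : ℝ) / N) * hh ((c j : ℝ) / m) (ν j) := by
  have hz : ∀ j, 0 ≤ (c j : ℝ) / m := fun j => div_nonneg (Nat.cast_nonneg _) hm
  have hint : ∀ j, Integrable (fun u : C → ℝ => ((c j : ℝ) / N) * cellE ((c j : ℝ) / m) (u j))
      (rowM ν) := by
    intro j
    refine Integrable.const_mul ?_ _
    exact integrable_comp_eval (μ := fun j => gam (ν j)) (i := j)
      (gam_cellE (ν j) _ (hz j)).1
  have hI : Integrable (rowF c m N C₁) (rowM ν) := by
    unfold rowF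
    exact (integrable_finsetSum _ fun j _ => hint j).const_mul _
  refine ⟨hI, ?_⟩
  unfold rowF
  rw [integral_const_mul, integral_finsetSum _ fun j _ => hint j]
  congr 1
  refine Finset.sum_congr rfl fun j _ => ?_
  rw [integral_const_mul]
  congr 1
  rw [integral_comp_eval (μ := fun j => gam (ν j)) (i := j)
    (f := cellE ((c j : ℝ) / m)) (measurable_cellE _).aestronglyMeasurable]
  exact (gam_cellE (ν j) _ (hz j)).2

/-- almost every row is positive -/
theorem rowM_ae_pos (ν : C → ℕ) : ∀ᵐ u ∂(rowM ν), ∀ j, 0 < u j := by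
  rw [Filter.eventually_all]
  intro j
  have h0 : ∀ᵐ x ∂(gam (ν j)), 0 < x := by
    rw [ae_iff]
    have : {a : ℝ | ¬ 0 < a} = Set.Iic 0 := by
      ext a
      simp
    rw [this]
    exact gam_pos (ν j)
  exact (measurePreserving_eval (fun j => gam (ν j)) j).quasiMeasurePreserving.ae h0

theorem rowF_nonneg_of_pos (c : C → ℕ) {m N C₁ : ℝ} (hm : 0 ≤ m) (hN : 0 ≤ N) (hC₁ : 0 ≤ C₁)
    {u : C → ℝ} (hu : ∀ j, 0 < u j) : 0 ≤ rowF c m N C₁ u := by
  unfold rowF
  refine mul_nonneg hC₁ (Finset.sum_nonneg fun j _ => mul_nonneg ?_ ?_)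
  · exact div_nonneg (Nat.cast_nonneg _) hN
  · exact (cellE_pos (div_nonneg (Nat.cast_nonneg _) hm) (hu j)).le

/-- Jensen for one row -/
theorem rowF_pow (c : C → ℕ) {m N C₁ : ℝ} (hm : 0 ≤ m) (hN : 0 ≤ N) (hC₁ : 0 ≤ C₁) (ν : C → ℕ)
    {p : ℝ} (hp0 : 0 ≤ p) (hp1 : p ≤ 1) :
    Integrable (fun u => (rowF c m N C₁ u) ^ p) (rowM ν) ∧
    ∫ u, (rowF c m N C₁ u) ^ p ∂(rowM ν) ≤
      (C₁ * ∑ j, ((c j : ℝ) / N) * hh ((c j : ℝ) / m) (ν j)) ^ p := by
  obtain ⟨hI, hE⟩ := rowF_integrable c m N C₁ hm ν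
  have hpos : ∀ᵐ u ∂(rowM ν), 0 ≤ rowF c m N C₁ u :=
    (rowM_ae_pos ν).mono fun u hu => rowF_nonneg_of_pos c hm hN hC₁ hu
  have hI2 : Integrable (fun u => (rowF c m N C₁ u) ^ p) (rowM ν) := by
    have hdom : Integrable (fun u => 1 + rowF c m N C₁ u) (rowM ν) :=
      (integrable_const _).add hI
    refine hdom.mono' ?_ ?_
    · exact ((measurable_rowF c m N C₁).pow_const p).aestronglyMeasurable
    · filter_upwards [hpos] with u hu
      rw [Real.norm_of_nonneg (Real.rpow_nonneg hu p)]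
      rcases le_total (rowF c m N C₁ u) 1 with h | h
      · have := Real.rpow_le_one hu h hp0
        linarith
      · have := Real.rpow_le_rpow_of_exponent_le h hp1
        rw [Real.rpow_one] at this
        linarith
  refine ⟨hI2, ?_⟩
  have hconc := Real.concaveOn_rpow hp0 hp1
  have hJ := hconc.le_map_integral (μ := rowM ν) (f := rowF c m N C₁)
    (Real.continuous_rpow_const hp0).continuousOn isClosed_Ici
    (hpos.mono fun u hu => Set.mem_Ici.2 hu) hI hI2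
  rw [hE] at hJ
  exact hJ

theorem prod_ite_aux {g : R → ℝ} (J : Finset R) :
    ∏ i ∈ J, g i = ∏ i, if i ∈ J then g i else 1 := by
  rw [Finset.prod_ite_mem, Finset.univ_inter]

/-- rows are independent: the product over `J` of `p`-th powers -/
theorem row_product (c : C → ℕ) {m N C₁ : ℝ} (hm : 0 ≤ m) (hN : 0 ≤ N) (hC₁ : 0 ≤ C₁)
    (X : R → C → ℕ) {p : ℝ} (hp0 : 0 ≤ p) (hp1 : p ≤ 1) (J : Finset R) :
    Integrable (fun s : R → C → ℝ => ∏ i ∈ J, (rowF c m N C₁ (s i)) ^ p) (muX X) ∧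
    ∫ s, ∏ i ∈ J, (rowF c m N C₁ (s i)) ^ p ∂(muX X) ≤
      ∏ i ∈ J, (C₁ * ∑ j, ((c j : ℝ) / N) * hh ((c j : ℝ) / m) (X i j)) ^ p := by
  classical
  set f : R → (C → ℝ) → ℝ := fun i u => if i ∈ J then (rowF c m N C₁ u) ^ p else 1 with hf
  have hprod : ∀ s : R → C → ℝ, ∏ i ∈ J, (rowF c m N C₁ (s i)) ^ p = ∏ i, f i (s i) := by
    intro s
    rw [prod_ite_aux J]
  have hfi : ∀ i, Integrable (f i) (rowM (X i)) := by
    intro i
    by_cases hi : i ∈ J
    · simp only [hf, hi, if_true]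
      exact (rowF_pow c hm hN hC₁ (X i) hp0 hp1).1
    · simp only [hf, hi, if_false]
      exact integrable_const _
  constructor
  · simp_rw [hprod]
    exact Integrable.fintype_prod_dep (μ := fun i => rowM (X i)) hfi
  · simp_rw [hprod]
    have := integral_fintype_prod_eq_prod (𝕜 := ℝ) (μ := fun i => rowM (X i)) f
    unfold muX
    rw [this, prod_ite_aux J]
    refine Finset.prod_le_prod ?_ ?_
    · intro i _
      by_cases hi : i ∈ J
      · simp only [hf, hi, if_true]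
        refine integral_nonneg_of_ae ?_
        exact (rowM_ae_pos (X i)).mono fun u hu =>
          Real.rpow_nonneg (rowF_nonneg_of_pos c hm hN hC₁ hu) p
      · simp [hf, hi]
    · intro i _
      by_cases hi : i ∈ J
      · simp only [hf, hi, if_true]
        exact (rowF_pow c hm hN hC₁ (X i) hp0 hp1).2
      · simp [hf, hi]

/-- a.e. positivity of all rows under `muX` -/
theorem muX_ae_pos (X : R → C → ℕ) : ∀ᵐ s ∂(muX X), ∀ i j, 0 < s i j := by
  rw [Filter.eventually_all]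
  intro i
  exact (measurePreserving_eval (fun i => rowM (X i)) i).quasiMeasurePreserving.ae (rowM_ae_pos (X i))

theorem exists_halves (hm : 1 ≤ Fintype.card R) :
    ∃ I₁ I₂ : Finset R, Disjoint I₁ I₂ ∧ I₁ ∪ I₂ = univ ∧ 2 * I₁.card ≤ Fintype.card R + 1 ∧
      2 * I₂.card ≤ Fintype.card R + 1 := by
  obtain ⟨I, -, hI⟩ := Finset.exists_subset_card_eq (s := (univ : Finset R))
    (n := Fintype.card R / 2) (by rw [Finset.card_univ]; omega)
  refine ⟨I, Iᶜ, disjoint_compl_right, by simp, by omega, ?_⟩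
  rw [Finset.card_compl, hI]
  omega

/-- The moment bound. -/
theorem nu_W (r : ℕ) (c : C → ℕ) (hc : ∀ j, 1 ≤ c j) (hsum : ∑ j, c j = Fintype.card R * r)
    (hr : 1 ≤ r) (hm : 1 ≤ Fintype.card R) (C₁ q : ℝ) (hC₁ : 1 ≤ C₁) (hq0 : 0 ≤ q) (hq : 2 * q ≤ 1) :
    ∫⁻ s, ENNReal.ofReal (∏ i, (rowA c (Fintype.card R) ((Fintype.card R : ℝ) * r) C₁ s i) ^ q)
        ∂(nu (fun _ : R => r) c) ≤
      ENNReal.ofReal ((280 * C₁) ^ (q * ((Fintype.card R : ℝ) + 1))) := by
  classical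
  set m : ℝ := (Fintype.card R : ℝ) with hmdef
  set N : ℝ := m * r with hNdef
  have hm0 : 0 ≤ m := Nat.cast_nonneg _
  have hm1 : (1 : ℝ) ≤ m := by
    rw [hmdef]
    exact_mod_cast hm
  have hN0 : 0 ≤ N := mul_nonneg hm0 (Nat.cast_nonneg _)
  have hC0 : 0 ≤ C₁ := by linarith
  have hp0 : 0 ≤ 2 * q := by linarith
  set Om := tables (fun _ : R => r) c with hOm
  obtain ⟨I₁, I₂, hdis, hun, hI₁, hI₂⟩ := exists_halves (R := R) hm
  set T : ℝ := (280 * C₁) ^ (q * (m + 1)) with hT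
  have hbase : (1 : ℝ) ≤ 280 * C₁ := by linarith
  have hTpos : 0 ≤ T := Real.rpow_nonneg (by linarith) _
  -- the bound for one half
  have hhalf : ∀ J : Finset R, 2 * J.card ≤ Fintype.card R + 1 →
      ∑ X ∈ Om, ∫ s, ∏ i ∈ J, (rowF c m N C₁ (s i)) ^ (2 * q) ∂(muX X) ≤ T * (Om.card : ℝ) := by
    intro J hJ
    have h1 : ∑ X ∈ Om, ∫ s, ∏ i ∈ J, (rowF c m N C₁ (s i)) ^ (2 * q) ∂(muX X) ≤
        ∑ X ∈ Om, ∏ i ∈ J, (C₁ * ∑ j, ((c j : ℝ) / N) * hh ((c j : ℝ) / m) (X i j)) ^ (2 * q) :=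
      Finset.sum_le_sum fun X _ => (row_product c hm0 hN0 hC0 X hp0 hq J).2
    have h2 := table_moment (R := R) r c hc hsum hr C₁ (2 * q) (by linarith) hp0 hq J hJ
    refine h1.trans (h2.trans ?_)
    refine mul_le_mul_of_nonneg_right ?_ (Nat.cast_nonneg _)
    rw [hT]
    refine Real.rpow_le_rpow_of_exponent_le hbase ?_
    have : (2 : ℝ) * (J.card : ℝ) ≤ m + 1 := by
      rw [hmdef]
      exact_mod_cast hJ
    nlinarith
  -- pointwise AM-GM
  have hpt : ∀ s : R → C → ℝ, (∀ i j, 0 < s i j) →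
      ∏ i, (rowA c m N C₁ s i) ^ q ≤
        (∏ i ∈ I₁, (rowF c m N C₁ (s i)) ^ (2 * q) + ∏ i ∈ I₂, (rowF c m N C₁ (s i)) ^ (2 * q)) / 2 := by
    intro s hs
    have hF : ∀ i, 0 ≤ rowF c m N C₁ (s i) := fun i => rowF_nonneg_of_pos c hm0 hN0 hC0 (hs i)
    have hsq : ∀ i, (rowF c m N C₁ (s i)) ^ (2 * q) = ((rowF c m N C₁ (s i)) ^ q) ^ 2 := by
      intro i
      rw [← Real.rpow_natCast, ← Real.rpow_mul (hF i)]
      congr 1
      push_cast
      ring
    simp_rw [hsq, Finset.prod_pow]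
    have hsplit : ∏ i, (rowA c m N C₁ s i) ^ q =
        (∏ i ∈ I₁, (rowF c m N C₁ (s i)) ^ q) * ∏ i ∈ I₂, (rowF c m N C₁ (s i)) ^ q := by
      rw [← Finset.prod_union hdis, hun]
      rfl
    rw [hsplit]
    nlinarith [sq_nonneg ((∏ i ∈ I₁, (rowF c m N C₁ (s i)) ^ q) - ∏ i ∈ I₂, (rowF c m N C₁ (s i)) ^ q)]
  -- the lintegral under each `muX`
  have hX : ∀ X : R → C → ℕ, ∫⁻ s, ENNReal.ofReal (∏ i, (rowA c m N C₁ s i) ^ q) ∂(muX X) ≤
      ENNReal.ofReal ((∫ s, ∏ i ∈ I₁, (rowF c m N C₁ (s i)) ^ (2 * q) ∂(muX X) +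
        ∫ s, ∏ i ∈ I₂, (rowF c m N C₁ (s i)) ^ (2 * q) ∂(muX X)) / 2) := by
    intro X
    have hint₁ := (row_product c hm0 hN0 hC0 X hp0 hq I₁).1
    have hint₂ := (row_product c hm0 hN0 hC0 X hp0 hq I₂).1
    have hint : Integrable (fun s : R → C → ℝ =>
        (∏ i ∈ I₁, (rowF c m N C₁ (s i)) ^ (2 * q) + ∏ i ∈ I₂, (rowF c m N C₁ (s i)) ^ (2 * q)) / 2)
        (muX X) := (hint₁.add hint₂).div_const 2
    have heq : (∫ s, ∏ i ∈ I₁, (rowF c m N C₁ (s i)) ^ (2 * q) ∂(muX X) +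
        ∫ s, ∏ i ∈ I₂, (rowF c m N C₁ (s i)) ^ (2 * q) ∂(muX X)) / 2 =
        ∫ s, (∏ i ∈ I₁, (rowF c m N C₁ (s i)) ^ (2 * q) +
          ∏ i ∈ I₂, (rowF c m N C₁ (s i)) ^ (2 * q)) / 2 ∂(muX X) := by
      rw [integral_div, integral_add hint₁ hint₂]
    rw [heq, ofReal_integral_eq_lintegral_ofReal hint]
    · refine lintegral_mono_ae ?_
      filter_upwards [muX_ae_pos X] with s hs
      exact ENNReal.ofReal_le_ofReal (hpt s hs)
    · filter_upwards [muX_ae_pos X] with s hs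
      have hF : ∀ i, 0 ≤ (rowF c m N C₁ (s i)) ^ (2 * q) := fun i =>
        Real.rpow_nonneg (rowF_nonneg_of_pos c hm0 hN0 hC0 (hs i)) _
      have h₁ := Finset.prod_nonneg (s := I₁) fun i (_ : i ∈ I₁) => hF i
      have h₂ := Finset.prod_nonneg (s := I₂) fun i (_ : i ∈ I₂) => hF i
      show 0 ≤ _
      positivity
  -- summing
  unfold nu
  rw [lintegral_smul_measure, lintegral_finsetSum_measure]
  by_cases hcard : Om.card = 0
  · have : Om = ∅ := Finset.card_eq_zero.1 hcard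
    rw [← hOm, this]
    simp
  · have hcpos : (0 : ℝ) < (Om.card : ℝ) := by
      exact_mod_cast Nat.pos_of_ne_zero hcard
    have hsumX : ∑ X ∈ Om, ∫⁻ s, ENNReal.ofReal (∏ i, (rowA c m N C₁ s i) ^ q) ∂(muX X) ≤
        ENNReal.ofReal (T * (Om.card : ℝ)) := by
      calc _ ≤ ∑ X ∈ Om, ENNReal.ofReal ((∫ s, ∏ i ∈ I₁, (rowF c m N C₁ (s i)) ^ (2 * q) ∂(muX X) +
              ∫ s, ∏ i ∈ I₂, (rowF c m N C₁ (s i)) ^ (2 * q) ∂(muX X)) / 2) :=
            Finset.sum_le_sum fun X _ => hX X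
        _ = ENNReal.ofReal (∑ X ∈ Om, (∫ s, ∏ i ∈ I₁, (rowF c m N C₁ (s i)) ^ (2 * q) ∂(muX X) +
              ∫ s, ∏ i ∈ I₂, (rowF c m N C₁ (s i)) ^ (2 * q) ∂(muX X)) / 2) := by
            rw [ENNReal.ofReal_sum_of_nonneg]
            intro X _
            have h₁ : ∀ J : Finset R, 0 ≤ ∫ s, ∏ i ∈ J, (rowF c m N C₁ (s i)) ^ (2 * q) ∂(muX X) := by
              intro J
              refine integral_nonneg_of_ae ?_
              filter_upwards [muX_ae_pos X] with s hs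
              exact Finset.prod_nonneg fun i _ =>
                Real.rpow_nonneg (rowF_nonneg_of_pos c hm0 hN0 hC0 (hs i)) _
            have := h₁ I₁
            have := h₁ I₂
            positivity
        _ ≤ ENNReal.ofReal (T * (Om.card : ℝ)) := by
            refine ENNReal.ofReal_le_ofReal ?_
            rw [← Finset.sum_div, Finset.sum_add_distrib]
            have := hhalf I₁ hI₁
            have := hhalf I₂ hI₂
            linarith
    calc ((Om.card : ℝ≥0∞))⁻¹ * ∑ X ∈ Om, ∫⁻ s, ENNReal.ofReal (∏ i, (rowA c m N C₁ s i) ^ q) ∂(muX X)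
        ≤ ((Om.card : ℝ≥0∞))⁻¹ * ENNReal.ofReal (T * (Om.card : ℝ)) := by gcongr
      _ = ENNReal.ofReal T := by
        rw [ENNReal.ofReal_mul hTpos, ENNReal.ofReal_natCast]
        rw [mul_comm, mul_assoc, ENNReal.mul_inv_cancel (by exact_mod_cast hcard) (ENNReal.natCast_ne_top _),
          mul_one]

end Vale.Agent.Lib.P328.Blsy
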