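import Mathlib
import Vale.Agent.Lib.P328.Blsy.Defs

/-!
# P328: Sinkhorn scaling by minimising the convex potential, and the capacity comparison
-/

namespace Vale.Agent.Lib.P328.Blsy

open Finset

variable {R C : Type} [Fintype R] [Fintype C] [DecidableEq R] [DecidableEq C]

/-- the convex potential of matrix scaling -/
noncomputable def Psi (r : R → ℕ) (c : C → ℕ) (s : R → C → ℝ) (v : C → ℝ) : ℝ :=
  ∑ i, (r i : ℝ) * Real.log (∑ j, s i j * Real.exp (v j)) - ∑ j, (c j : ℝ) * v j

theorem rowsum_pos [Nonempty C] (s : R → C → ℝ) (hs : ∀ i j, 0 < s i j) (v : C → ℝ) (i : R) :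
    0 < ∑ j, s i j * Real.exp (v j) :=
  Finset.sum_pos (fun j _ => mul_pos (hs i j) (Real.exp_pos _)) Finset.univ_nonempty

theorem Psi_continuous [Nonempty C] (r : R → ℕ) (c : C → ℕ) (s : R → C → ℝ)
    (hs : ∀ i j, 0 < s i j) : Continuous (Psi r c s) := by
  unfold Psi
  apply Continuous.sub
  · apply continuous_finsetSum
    intro i _
    apply Continuous.mul continuous_const
    apply Continuous.log
    · apply continuous_finsetSum
      intro j _
      exact continuous_const.mul (Real.continuous_exp.comp (continuous_apply j))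
    · intro v
      exact (rowsum_pos s hs v i).ne'
  · apply continuous_finsetSum
    intro j _
    exact continuous_const.mul (continuous_apply j)

theorem Psi_shift [Nonempty C] (r : R → ℕ) (c : C → ℕ) (hsum : ∑ i, r i = ∑ j, c j)
    (s : R → C → ℝ) (hs : ∀ i j, 0 < s i j) (v : C → ℝ) (a : ℝ) :
    Psi r c s (fun j => v j + a) = Psi r c s v := by
  unfold Psi
  have h1 : ∀ i, Real.log (∑ j, s i j * Real.exp (v j + a)) =
      a + Real.log (∑ j, s i j * Real.exp (v j)) := by
    intro i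
    have : ∑ j, s i j * Real.exp (v j + a) = Real.exp a * ∑ j, s i j * Real.exp (v j) := by
      rw [Finset.mul_sum]
      apply Finset.sum_congr rfl
      intro j _
      rw [Real.exp_add]
      ring
    rw [this, Real.log_mul (Real.exp_pos a).ne' (rowsum_pos s hs v i).ne', Real.log_exp]
  simp_rw [h1, mul_add, Finset.sum_add_distrib]
  have h2 : ∑ i, (r i : ℝ) * a = ∑ j, (c j : ℝ) * a := by
    rw [← Finset.sum_mul, ← Finset.sum_mul]
    congr 1
    exact_mod_cast hsum
  rw [h2]
  ring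

theorem Psi_lower [Nonempty C] (r : R → ℕ) (c : C → ℕ) (hc : ∀ j, 1 ≤ c j)
    (s : R → C → ℝ) (hs : ∀ i j, 0 < s i j) (δ : ℝ) (hδ : 0 < δ) (hδs : ∀ i j, δ ≤ s i j)
    (w : C → ℝ) (hw : ∀ j, w j ≤ 0) (js : C) (hjs : w js = 0) (j : C) :
    (∑ i, (r i : ℝ)) * Real.log δ - w j ≤ Psi r c s w := by
  unfold Psi
  have h1 : ∀ i, Real.log δ ≤ Real.log (∑ j, s i j * Real.exp (w j)) := by
    intro i
    apply Real.log_le_log hδ
    have h2 : s i js * Real.exp (w js) ≤ ∑ j, s i j * Real.exp (w j) :=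
      Finset.single_le_sum (f := fun j => s i j * Real.exp (w j))
        (fun j _ => (mul_pos (hs i j) (Real.exp_pos _)).le) (Finset.mem_univ js)
    rw [hjs, Real.exp_zero, mul_one] at h2
    exact le_trans (hδs i js) h2
  have h3 : (∑ i, (r i : ℝ)) * Real.log δ ≤ ∑ i, (r i : ℝ) * Real.log (∑ j, s i j * Real.exp (w j)) := by
    rw [Finset.sum_mul]
    apply Finset.sum_le_sum
    intro i _
    exact mul_le_mul_of_nonneg_left (h1 i) (Nat.cast_nonneg _)
  have h4 : ∑ j, (c j : ℝ) * w j ≤ w j := by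
    have h5 : (c j : ℝ) * (-w j) ≤ ∑ j', (c j' : ℝ) * (-w j') :=
      Finset.single_le_sum (f := fun j' => (c j' : ℝ) * (-w j'))
        (fun j' _ => mul_nonneg (Nat.cast_nonneg _) (by linarith [hw j'])) (Finset.mem_univ j)
    have h7 : ∑ j', (c j' : ℝ) * (-w j') = -∑ j', (c j' : ℝ) * w j' := by
      simp [mul_neg, Finset.sum_neg_distrib]
    have h6 : (c j : ℝ) * w j ≤ w j := by
      have : (1 : ℝ) ≤ c j := by exact_mod_cast hc j
      nlinarith [hw j]
    linarith
  linarith

/-- the potential has a global minimiser -/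
theorem Psi_min [Nonempty R] [Nonempty C] (r : R → ℕ) (c : C → ℕ) (hc : ∀ j, 1 ≤ c j)
    (hsum : ∑ i, r i = ∑ j, c j) (s : R → C → ℝ) (hs : ∀ i j, 0 < s i j) :
    ∃ v : C → ℝ, ∀ w, Psi r c s v ≤ Psi r c s w := by
  obtain ⟨⟨i0, j0⟩, hmin⟩ := Finite.exists_min (fun p : R × C => s p.1 p.2)
  set δ := s i0 j0 with hδdef
  have hδ : 0 < δ := hs i0 j0
  have hδs : ∀ i j, δ ≤ s i j := fun i j => hmin (i, j)
  set N : ℝ := ∑ i, (r i : ℝ) with hN
  set B : ℝ := max 0 (Psi r c s 0 - N * Real.log δ) with hB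
  have hB0 : 0 ≤ B := le_max_left _ _
  have hB1 : Psi r c s 0 - N * Real.log δ ≤ B := le_max_right _ _
  set K : Set (C → ℝ) := Set.pi Set.univ (fun _ => Set.Icc (-B) 0) with hK
  have hKc : IsCompact K := isCompact_univ_pi (fun _ => isCompact_Icc)
  have h0K : (0 : C → ℝ) ∈ K := by
    intro j _
    simp only [Pi.zero_apply, Set.mem_Icc]
    constructor <;> linarith
  obtain ⟨v, hvK, hvmin⟩ := hKc.exists_isMinOn ⟨0, h0K⟩
    (Psi_continuous r c s hs).continuousOn
  refine ⟨v, ?_⟩
  intro u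
  obtain ⟨js, hjs⟩ := Finite.exists_max u
  set w : C → ℝ := fun j => u j + (-u js) with hw
  have hshift : Psi r c s w = Psi r c s u := Psi_shift r c hsum s hs u _
  have hwle : ∀ j, w j ≤ 0 := fun j => by
    have := hjs j
    simp only [hw]
    linarith
  have hwjs : w js = 0 := by simp [hw]
  rw [← hshift]
  by_cases hwK : w ∈ K
  · exact hvmin hwK
  · have hex : ∃ j, w j < -B := by
      by_contra hcon
      push Not at hcon
      apply hwK
      intro j _
      exact ⟨hcon j, hwle j⟩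
    obtain ⟨j, hj⟩ := hex
    have hl := Psi_lower r c hc s hs δ hδ hδs w hwle js hwjs j
    have h0 : Psi r c s v ≤ Psi r c s 0 := hvmin h0K
    linarith

/-- vanishing of the partial derivative at a minimiser -/
theorem Psi_crit [Nonempty C] (r : R → ℕ) (c : C → ℕ) (s : R → C → ℝ) (hs : ∀ i j, 0 < s i j)
    (v : C → ℝ) (hv : ∀ w, Psi r c s v ≤ Psi r c s w) (j : C) :
    ∑ i, (r i : ℝ) * (s i j * Real.exp (v j) / ∑ j', s i j' * Real.exp (v j')) = c j := by
  set φ : ℝ → ℝ := fun t => Psi r c s (fun j' => v j' + if j' = j then t else 0) with hφ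
  have hφ0 : φ 0 = Psi r c s v := by
    simp [hφ]
  have hmin : IsLocalMin φ 0 := by
    apply Filter.Eventually.of_forall
    intro t
    rw [hφ0]
    exact hv _
  have hinner : ∀ i, HasDerivAt
      (fun t : ℝ => ∑ j', s i j' * Real.exp (v j' + if j' = j then t else 0))
      (s i j * Real.exp (v j)) 0 := by
    intro i
    have h1 : ∀ j', HasDerivAt (fun t : ℝ => s i j' * Real.exp (v j' + if j' = j then t else 0))
        (if j' = j then s i j * Real.exp (v j) else 0) 0 := by
      intro j'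
      by_cases hj : j' = j
      · subst hj
        simp only [if_true]
        have h2 : HasDerivAt (fun t : ℝ => v j' + t) 1 0 := (hasDerivAt_id (0 : ℝ)).const_add _
        have h3 := (h2.exp).const_mul (s i j')
        simpa using h3
      · simp only [if_neg hj, add_zero]
        exact hasDerivAt_const _ _
    have h4 := HasDerivAt.fun_sum (u := Finset.univ) (fun j' _ => h1 j')
    simpa using h4
  have hvalue : ∀ i, (∑ j', s i j' * Real.exp (v j' + if j' = j then (0 : ℝ) else 0)) =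
      ∑ j', s i j' * Real.exp (v j') := by
    intro i
    simp
  have hφd : HasDerivAt φ
      (∑ i, (r i : ℝ) * (s i j * Real.exp (v j) / ∑ j', s i j' * Real.exp (v j')) - c j) 0 := by
    have h1 : ∀ i, HasDerivAt
        (fun t : ℝ => (r i : ℝ) * Real.log (∑ j', s i j' * Real.exp (v j' + if j' = j then t else 0)))
        ((r i : ℝ) * (s i j * Real.exp (v j) / ∑ j', s i j' * Real.exp (v j'))) 0 := by
      intro i
      have h2 := (hinner i).log (by
        rw [hvalue i]
        exact (rowsum_pos s hs v i).ne')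
      rw [hvalue i] at h2
      exact h2.const_mul _
    have h2 := HasDerivAt.fun_sum (u := Finset.univ) (fun i _ => h1 i)
    have h3 : HasDerivAt (fun t : ℝ => ∑ j', (c j' : ℝ) * (v j' + if j' = j then t else 0))
        (c j : ℝ) 0 := by
      have h4 : ∀ j', HasDerivAt (fun t : ℝ => (c j' : ℝ) * (v j' + if j' = j then t else 0))
          (if j' = j then (c j : ℝ) else 0) 0 := by
        intro j'
        by_cases hj : j' = j
        · subst hj
          simp only [if_true]
          have h5 : HasDerivAt (fun t : ℝ => v j' + t) 1 0 := (hasDerivAt_id (0 : ℝ)).const_add _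
          simpa using h5.const_mul (c j' : ℝ)
        · simp only [if_neg hj, add_zero]
          exact hasDerivAt_const _ _
      have h5 := HasDerivAt.fun_sum (u := Finset.univ) (fun j' _ => h4 j')
      simpa using h5
    exact h2.sub h3
  have hz := hmin.hasDerivAt_eq_zero hφd
  linarith

theorem sinkhorn (r : R → ℕ) (c : C → ℕ) (hr : ∀ i, 1 ≤ r i) (hc : ∀ j, 1 ≤ c j)
    (hsum : ∑ i, r i = ∑ j, c j) (s : R → C → ℝ) (hs : ∀ i j, 0 < s i j) :
    ∃ (α : R → ℝ) (β : C → ℝ), (∀ i, 0 < α i) ∧ (∀ j, 0 < β j) ∧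
      (∀ i, ∑ j, α i * β j * s i j = r i) ∧ (∀ j, ∑ i, α i * β j * s i j = c j) := by
  by_cases hC : Nonempty C
  · have hR : Nonempty R := by
      by_contra hcon
      rw [not_nonempty_iff] at hcon
      obtain ⟨j⟩ := hC
      have h1 : ∑ i, r i = 0 := Finset.sum_of_isEmpty _
      have h2 : c j ≤ ∑ j, c j :=
        Finset.single_le_sum (f := fun j => c j) (fun _ _ => Nat.zero_le _) (Finset.mem_univ j)
      have := hc j
      omega
    obtain ⟨v, hv⟩ := Psi_min r c hc hsum s hs
    refine ⟨fun i => (r i : ℝ) / ∑ j, s i j * Real.exp (v j), fun j => Real.exp (v j), ?_, ?_, ?_, ?_⟩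
    · intro i
      have : (1 : ℝ) ≤ r i := by exact_mod_cast hr i
      exact div_pos (by linarith) (rowsum_pos s hs v i)
    · intro j
      exact Real.exp_pos _
    · intro i
      have hD := (rowsum_pos s hs v i).ne'
      have : ∀ j, (r i : ℝ) / (∑ j, s i j * Real.exp (v j)) * Real.exp (v j) * s i j =
          (r i : ℝ) / (∑ j, s i j * Real.exp (v j)) * (s i j * Real.exp (v j)) := fun j => by ring
      simp_rw [this]
      rw [← Finset.mul_sum]
      field_simp
    · intro j
      rw [← Psi_crit r c s hs v hv j]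
      apply Finset.sum_congr rfl
      intro i _
      ring
  · rw [not_nonempty_iff] at hC
    have hR : IsEmpty R := by
      by_contra hcon
      rw [not_isEmpty_iff] at hcon
      obtain ⟨i⟩ := hcon
      have h1 : ∑ j, c j = 0 := Finset.sum_of_isEmpty _
      have h2 : r i ≤ ∑ i, r i :=
        Finset.single_le_sum (f := fun i => r i) (fun _ _ => Nat.zero_le _) (Finset.mem_univ i)
      have := hr i
      omega
    exact ⟨fun _ => 1, fun _ => 1, fun i => (hR.false i).elim, fun j => (hC.false j).elim,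
      fun i => (hR.false i).elim, fun j => (hC.false j).elim⟩

/-- `exp (∑ r_i log a_i) = ∏ a_i ^ r_i` -/
theorem exp_sum_log {ι : Type} [Fintype ι] (r : ι → ℕ) (a : ι → ℝ) (ha : ∀ i, 0 < a i) :
    Real.exp (∑ i, (r i : ℝ) * Real.log (a i)) = ∏ i, a i ^ r i := by
  rw [Real.exp_sum]
  apply Finset.prod_congr rfl
  intro i _
  rw [Real.exp_nat_mul, Real.exp_log (ha i)]

/-- every competitor in the capacity is at least `e^N / ∏ α^r ∏ β^c` -/
theorem competitor_ge (r : R → ℕ) (c : C → ℕ)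
    (s : R → C → ℝ) (hs : ∀ i j, 0 < s i j)
    (α : R → ℝ) (β : C → ℝ) (hα : ∀ i, 0 < α i) (hβ : ∀ j, 0 < β j)
    (hrow : ∀ i, ∑ j, α i * β j * s i j = r i) (hcol : ∀ j, ∑ i, α i * β j * s i j = c j)
    (a : R → ℝ) (b : C → ℝ) (ha : ∀ i, 0 < a i) (hb : ∀ j, 0 < b j) :
    Real.exp (total r : ℝ) / ((∏ i, α i ^ r i) * ∏ j, β j ^ c j) ≤
      Real.exp (∑ i, ∑ j, a i * b j * s i j) / ((∏ i, a i ^ r i) * ∏ j, b j ^ c j) := by
  have hPα : 0 < ∏ i, α i ^ r i := Finset.prod_pos (fun i _ => pow_pos (hα i) _)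
  have hPa : 0 < ∏ i, a i ^ r i := Finset.prod_pos (fun i _ => pow_pos (ha i) _)
  have hQβ : 0 < ∏ j, β j ^ c j := Finset.prod_pos (fun i _ => pow_pos (hβ i) _)
  have hQb : 0 < ∏ j, b j ^ c j := Finset.prod_pos (fun i _ => pow_pos (hb i) _)
  rw [div_le_div_iff₀ (mul_pos hPα hQβ) (mul_pos hPa hQb)]
  -- the pointwise inequality
  have hpt : ∀ i j, α i * β j * s i j * (1 + (Real.log (a i) - Real.log (α i)) +
      (Real.log (b j) - Real.log (β j))) ≤ a i * b j * s i j := by
    intro i j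
    have hy : 0 < α i * β j * s i j := mul_pos (mul_pos (hα i) (hβ j)) (hs i j)
    set x := (a i / α i) * (b j / β j) with hx
    have hxpos : 0 < x := mul_pos (div_pos (ha i) (hα i)) (div_pos (hb j) (hβ j))
    have hlog : Real.log x = (Real.log (a i) - Real.log (α i)) +
        (Real.log (b j) - Real.log (β j)) := by
      rw [hx, Real.log_mul (div_pos (ha i) (hα i)).ne' (div_pos (hb j) (hβ j)).ne',
        Real.log_div (ha i).ne' (hα i).ne', Real.log_div (hb j).ne' (hβ j).ne']
    have hle : 1 + Real.log x ≤ x := by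
      have := Real.log_le_sub_one_of_pos hxpos
      linarith
    have heq : a i * b j * s i j = α i * β j * s i j * x := by
      have h1 := (hα i).ne'
      have h2 := (hβ j).ne'
      rw [hx]
      field_simp
    rw [heq, add_assoc, ← hlog]
    exact mul_le_mul_of_nonneg_left hle hy.le
  have hS : ∑ i, ∑ j, α i * β j * s i j * (1 + (Real.log (a i) - Real.log (α i)) +
      (Real.log (b j) - Real.log (β j))) ≤ ∑ i, ∑ j, a i * b j * s i j :=
    Finset.sum_le_sum (fun i _ => Finset.sum_le_sum (fun j _ => hpt i j))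
  -- evaluate the left side
  have hL : ∑ i, ∑ j, α i * β j * s i j * (1 + (Real.log (a i) - Real.log (α i)) +
      (Real.log (b j) - Real.log (β j))) = (total r : ℝ) +
      (∑ i, (r i : ℝ) * Real.log (a i) - ∑ i, (r i : ℝ) * Real.log (α i)) +
      (∑ j, (c j : ℝ) * Real.log (b j) - ∑ j, (c j : ℝ) * Real.log (β j)) := by
    have h1 : ∀ i j, α i * β j * s i j * (1 + (Real.log (a i) - Real.log (α i)) +
        (Real.log (b j) - Real.log (β j))) = α i * β j * s i j * (1 + (Real.log (a i) - Real.log (α i)))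
        + α i * β j * s i j * (Real.log (b j) - Real.log (β j)) := fun i j => by ring
    simp_rw [h1, Finset.sum_add_distrib]
    have h2 : ∑ i, ∑ j, α i * β j * s i j * (1 + (Real.log (a i) - Real.log (α i))) =
        ∑ i, (r i : ℝ) * (1 + (Real.log (a i) - Real.log (α i))) := by
      apply Finset.sum_congr rfl
      intro i _
      rw [← Finset.sum_mul, hrow i]
    have h3 : ∑ i, ∑ j, α i * β j * s i j * (Real.log (b j) - Real.log (β j)) =
        ∑ j, (c j : ℝ) * (Real.log (b j) - Real.log (β j)) := by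
      rw [Finset.sum_comm]
      apply Finset.sum_congr rfl
      intro j _
      rw [← Finset.sum_mul, hcol j]
    rw [h2, h3]
    simp only [mul_add, mul_sub, mul_one, Finset.sum_add_distrib, Finset.sum_sub_distrib]
    have h4 : ∑ i, (r i : ℝ) = (total r : ℝ) := by
      unfold total
      push_cast
      rfl
    rw [h4]
  rw [hL] at hS
  have hE1 : Real.exp (total r : ℝ) * ((∏ i, a i ^ r i) * ∏ j, b j ^ c j) =
      Real.exp ((total r : ℝ) + ∑ i, (r i : ℝ) * Real.log (a i) +
        ∑ j, (c j : ℝ) * Real.log (b j)) := by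
    rw [Real.exp_add, Real.exp_add, exp_sum_log r a ha, exp_sum_log c b hb]
    ring
  have hE2 : Real.exp (∑ i, ∑ j, a i * b j * s i j) * ((∏ i, α i ^ r i) * ∏ j, β j ^ c j) =
      Real.exp ((∑ i, ∑ j, a i * b j * s i j) + ∑ i, (r i : ℝ) * Real.log (α i) +
        ∑ j, (c j : ℝ) * Real.log (β j)) := by
    rw [Real.exp_add, Real.exp_add, exp_sum_log r α hα, exp_sum_log c β hβ]
    ring
  rw [hE1, hE2]
  apply Real.exp_le_exp.2
  linarith

theorem cap_ge (r : R → ℕ) (c : C → ℕ)
    (s : R → C → ℝ) (hs : ∀ i j, 0 < s i j)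
    (α : R → ℝ) (β : C → ℝ) (hα : ∀ i, 0 < α i) (hβ : ∀ j, 0 < β j)
    (hrow : ∀ i, ∑ j, α i * β j * s i j = r i) (hcol : ∀ j, ∑ i, α i * β j * s i j = c j) :
    Real.exp (total r : ℝ) / ((∏ i, α i ^ r i) * ∏ j, β j ^ c j) ≤ cap r c s := by
  unfold cap
  have : Nonempty {p : (R → ℝ) × (C → ℝ) // (∀ i, 0 < p.1 i) ∧ ∀ j, 0 < p.2 j} :=
    ⟨⟨(fun _ => 1, fun _ => 1), fun _ => one_pos, fun _ => one_pos⟩⟩
  apply le_ciInf
  intro p
  exact competitor_ge r c s hs α β hα hβ hrow hcol p.1.1 p.1.2 p.2.1 p.2.2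

/-- rescaling a table weight by rows and columns -/
theorem wt_scale (r : R → ℕ) (c : C → ℕ) (s : R → C → ℝ) (a : R → ℝ) (b : C → ℝ)
    (X : R → C → ℕ) (hX : X ∈ tables r c) :
    wt (fun i j => a i * b j * s i j) X = (∏ i, a i ^ r i) * (∏ j, b j ^ c j) * wt s X := by
  have hXm := mem_tables.1 hX
  unfold wt
  have h1 : ∀ i j, (a i * b j * s i j) ^ X i j / ((X i j).factorial : ℝ) =
      a i ^ X i j * (b j ^ X i j * (s i j ^ X i j / ((X i j).factorial : ℝ))) := by
    intro i j
    rw [mul_pow, mul_pow]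
    ring
  simp_rw [h1, Finset.prod_mul_distrib]
  have h2 : ∀ i, ∏ j, a i ^ X i j = a i ^ r i := by
    intro i
    rw [Finset.prod_pow_eq_pow_sum, hXm.1 i]
  have h3 : ∏ i, ∏ j, b j ^ X i j = ∏ j, b j ^ c j := by
    rw [Finset.prod_comm]
    apply Finset.prod_congr rfl
    intro j _
    rw [Finset.prod_pow_eq_pow_sum, hXm.2 j]
  simp_rw [h2, h3]
  ring

theorem FF_scale (r : R → ℕ) (c : C → ℕ) (s : R → C → ℝ) (a : R → ℝ) (b : C → ℝ) :
    FF r c (fun i j => a i * b j * s i j) = (∏ i, a i ^ r i) * (∏ j, b j ^ c j) * FF r c s := by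
  unfold FF
  rw [Finset.mul_sum]
  exact Finset.sum_congr rfl (fun X hX => wt_scale r c s a b X hX)

theorem wt_nonneg (s : R → C → ℝ) (hs : ∀ i j, 0 < s i j) (X : R → C → ℕ) : 0 ≤ wt s X := by
  unfold wt
  apply Finset.prod_nonneg
  intro i _
  apply Finset.prod_nonneg
  intro j _
  exact div_nonneg (pow_pos (hs i j) _).le (Nat.cast_nonneg _)

theorem FF_nonneg (r : R → ℕ) (c : C → ℕ) (s : R → C → ℝ) (hs : ∀ i j, 0 < s i j) :
    0 ≤ FF r c s :=
  Finset.sum_nonneg (fun X _ => wt_nonneg s hs X)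

/-- The capacity comparison, with the quantity `K` written out. -/
theorem FF_le_cap_mul_aux (r : R → ℕ) (c : C → ℕ) (hr : ∀ i, 1 ≤ r i) (hc : ∀ j, 1 ≤ c j)
    (s : R → C → ℝ) (hs : ∀ i j, 0 < s i j)
    (α : R → ℝ) (β : C → ℝ) (hα : ∀ i, 0 < α i) (hβ : ∀ j, 0 < β j)
    (hrow : ∀ i, ∑ j, α i * β j * s i j = r i) (hcol : ∀ j, ∑ i, α i * β j * s i j = c j) :
    0 < cap r c s ∧
    FF r c s ≤ Rlow r c * cap r c s *
      ((∏ i, ((r i).factorial : ℝ)) * (∏ j, ((c j).factorial : ℝ)) *
        FF r c (fun i j => α i * β j * s i j / ((r i : ℝ) * c j)) *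
        ((total r : ℝ) ^ total r / ((total r).factorial : ℝ))) := by
  have hrpos : ∀ i, (0 : ℝ) < r i := fun i => by
    have := hr i
    exact_mod_cast this
  have hcpos : ∀ j, (0 : ℝ) < c j := fun j => by
    have := hc j
    exact_mod_cast this
  have hPα : 0 < ∏ i, α i ^ r i := Finset.prod_pos (fun i _ => pow_pos (hα i) _)
  have hQβ : 0 < ∏ j, β j ^ c j := Finset.prod_pos (fun i _ => pow_pos (hβ i) _)
  have hD : 0 < (∏ i, α i ^ r i) * ∏ j, β j ^ c j := mul_pos hPα hQβ
  have hcap := cap_ge r c s hs α β hα hβ hrow hcol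
  have hcappos : 0 < cap r c s := lt_of_lt_of_le (div_pos (Real.exp_pos _) hD) hcap
  refine ⟨hcappos, ?_⟩
  set y : R → C → ℝ := fun i j => α i * β j * s i j with hy
  have hypos : ∀ i j, 0 < y i j := fun i j => mul_pos (mul_pos (hα i) (hβ j)) (hs i j)
  set bb : R → C → ℝ := fun i j => α i * β j * s i j / ((r i : ℝ) * c j) with hbb
  have hbbpos : ∀ i j, 0 < bb i j := fun i j =>
    div_pos (hypos i j) (mul_pos (hrpos i) (hcpos j))
  have hFy1 : FF r c y = (∏ i, α i ^ r i) * (∏ j, β j ^ c j) * FF r c s := FF_scale r c s α β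
  have hFy2 : FF r c y = (∏ i, (r i : ℝ) ^ r i) * (∏ j, (c j : ℝ) ^ c j) * FF r c bb := by
    have h1 : y = fun i j => (r i : ℝ) * (c j : ℝ) * bb i j := by
      funext i j
      have h2 := (hrpos i).ne'
      have h3 := (hcpos j).ne'
      simp only [hy, hbb]
      field_simp
    rw [h1]
    exact FF_scale r c bb _ _
  have hFs : FF r c s = FF r c y / ((∏ i, α i ^ r i) * ∏ j, β j ^ c j) := by
    rw [hFy1]
    field_simp
  have hFyn : 0 ≤ FF r c y := FF_nonneg r c y hypos
  -- the constants cancel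
  have hN : ((total r : ℝ) ^ total r) ≠ 0 := by
    by_cases h0 : total r = 0
    · rw [h0]
      simp
    · exact pow_ne_zero _ (by exact_mod_cast h0)
  have hNf : ((total r).factorial : ℝ) ≠ 0 := by exact_mod_cast (Nat.factorial_ne_zero _)
  have hFr : (∏ i, ((r i).factorial : ℝ)) ≠ 0 :=
    Finset.prod_ne_zero_iff.2 (fun i _ => by exact_mod_cast (Nat.factorial_ne_zero _))
  have hFc : (∏ j, ((c j).factorial : ℝ)) ≠ 0 :=
    Finset.prod_ne_zero_iff.2 (fun i _ => by exact_mod_cast (Nat.factorial_ne_zero _))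
  have hkey : Rlow r c * ((∏ i, ((r i).factorial : ℝ)) * (∏ j, ((c j).factorial : ℝ)) *
        FF r c bb * ((total r : ℝ) ^ total r / ((total r).factorial : ℝ))) =
      Real.exp (-(total r : ℝ)) * FF r c y := by
    unfold Rlow
    rw [hFy2, Finset.prod_div_distrib, Finset.prod_div_distrib]
    field_simp
  have hgoal : Rlow r c * cap r c s * ((∏ i, ((r i).factorial : ℝ)) * (∏ j, ((c j).factorial : ℝ)) *
        FF r c bb * ((total r : ℝ) ^ total r / ((total r).factorial : ℝ))) =
      cap r c s * (Real.exp (-(total r : ℝ)) * FF r c y) := by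
    rw [← hkey]
    ring
  rw [hgoal, hFs]
  have hstep : Real.exp (total r : ℝ) / ((∏ i, α i ^ r i) * ∏ j, β j ^ c j) *
      (Real.exp (-(total r : ℝ)) * FF r c y) ≤ cap r c s * (Real.exp (-(total r : ℝ)) * FF r c y) :=
    mul_le_mul_of_nonneg_right hcap (mul_nonneg (Real.exp_pos _).le hFyn)
  have heq : Real.exp (total r : ℝ) / ((∏ i, α i ^ r i) * ∏ j, β j ^ c j) *
      (Real.exp (-(total r : ℝ)) * FF r c y) =
      FF r c y / ((∏ i, α i ^ r i) * ∏ j, β j ^ c j) := by
    have h1 : Real.exp (total r : ℝ) * Real.exp (-(total r : ℝ)) = 1 := by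
      rw [← Real.exp_add]
      simp
    field_simp
    linear_combination (FF r c y) * h1
  rw [← heq]
  exact hstep

theorem FF_le_cap_mul (r : R → ℕ) (c : C → ℕ) (hr : ∀ i, 1 ≤ r i) (hc : ∀ j, 1 ≤ c j)
    (_hsum : ∑ i, r i = ∑ j, c j) (s : R → C → ℝ) (hs : ∀ i j, 0 < s i j)
    (α : R → ℝ) (β : C → ℝ) (hα : ∀ i, 0 < α i) (hβ : ∀ j, 0 < β j)
    (hrow : ∀ i, ∑ j, α i * β j * s i j = r i) (hcol : ∀ j, ∑ i, α i * β j * s i j = c j) :
    0 < cap r c s ∧
    FF r c s ≤ Rlow r c * cap r c s *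
      KK r c (fun i j => α i * β j * s i j / ((r i : ℝ) * c j)) :=
  FF_le_cap_mul_aux r c hr hc s hs α β hα hβ hrow hcol

end Vale.Agent.Lib.P328.Blsy
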