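import Mathlib
import Vale.Agent.Lib.P328.Blsy.Defs
import Vale.Agent.Lib.P328.Blsy.Block
import Vale.Agent.Lib.P328.Blsy.Gauge
import Vale.Agent.Lib.P328.Blsy.Sinkhorn
import Vale.Agent.Lib.P328.Blsy.Events
import Vale.Agent.Lib.P328.Blsy.Moment

/-!
# P328: Theorem A, assembly
-/

namespace Vale.Agent.Lib.P328.Blsy

open Finset MeasureTheory ProbabilityTheory
open scoped ENNReal

set_option linter.unusedSectionVars false

variable {R C : Type} [Fintype R] [Fintype C] [DecidableEq R] [DecidableEq C]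

theorem total_const (r : ℕ) : total (fun _ : R => r) = Fintype.card R * r := by
  simp [total]

/-- Averaging over tables. -/
theorem nu_le_of_muX (r : R → ℕ) (c : C → ℕ) (hne : (tables r c).Nonempty)
    (S : Set (R → C → ℝ)) (a : ℝ≥0∞) (h : ∀ X ∈ tables r c, muX X S ≤ a) : nu r c S ≤ a := by
  unfold nu
  rw [Measure.smul_apply, Measure.coe_finsetSum, Finset.sum_apply, smul_eq_mul]
  have hcard : ((tables r c).card : ℝ≥0∞) ≠ 0 := by
    simpa using hne.ne_empty
  have h2 : ∑ X ∈ tables r c, muX X S ≤ ((tables r c).card : ℝ≥0∞) * a := by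
    calc ∑ X ∈ tables r c, muX X S ≤ ∑ _X ∈ tables r c, a := Finset.sum_le_sum h
      _ = _ := by simp
  calc ((tables r c).card : ℝ≥0∞)⁻¹ * ∑ X ∈ tables r c, muX X S
      ≤ ((tables r c).card : ℝ≥0∞)⁻¹ * (((tables r c).card : ℝ≥0∞) * a) := by gcongr
    _ = a := by
      rw [← mul_assoc, ENNReal.inv_mul_cancel hcard (by simp), one_mul]

theorem Rlow_pos (r : R → ℕ) (c : C → ℕ) (hr : ∀ i, 1 ≤ r i) (hc : ∀ j, 1 ≤ c j) (hN : 1 ≤ total r) :
    0 < Rlow r c := by
  unfold Rlow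
  have hN0 : (0 : ℝ) < total r := by exact_mod_cast hN
  have h1 : 0 < ∏ i, (r i : ℝ) ^ r i / ((r i).factorial : ℝ) := by
    refine Finset.prod_pos fun i _ => ?_
    have : (0 : ℝ) < r i := by exact_mod_cast hr i
    positivity
  have h2 : 0 < ∏ j, (c j : ℝ) ^ c j / ((c j).factorial : ℝ) := by
    refine Finset.prod_pos fun j _ => ?_
    have : (0 : ℝ) < c j := by exact_mod_cast hc j
    positivity
  have h3 : (0 : ℝ) < ((total r).factorial : ℝ) := by positivity
  have h4 : (0 : ℝ) < Real.exp (-(total r : ℝ)) := Real.exp_pos _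
  positivity

/-- The deterministic core: on the good event the bad event forces the row product to be large. -/
theorem core (r : ℕ) (hr : 1 ≤ r) (c : C → ℕ) (hc1 : ∀ j, 1 ≤ c j) (z0 : ℝ) (hz0 : 1 ≤ z0)
    (hm : 64 ≤ Fintype.card R) (hcz : ∀ j, (c j : ℝ) ≤ z0 * Fintype.card R)
    (hsum : ∑ j, c j = Fintype.card R * r) (hN : 2 ≤ Fintype.card R * r)
    (s : R → C → ℝ) (hs : ∀ i j, 0 < s i j)
    (E1 : ∀ j, ∑ i, s i j ≤ 2 * ((Fintype.card R : ℝ) + c j))
    (E2 : ∀ j, ∀ S : Finset R, (Fintype.card R + 127) / 128 ≤ S.card → ∃ i ∈ S, 1 / 1000 ≤ s i j)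
    (E3 : ∀ i, (r : ℝ) / 8 ≤ ∑ j, ((c j : ℝ) / Fintype.card R) * (1 - Real.exp (-s i j)))
    (T : ℝ) (hT : 1 ≤ T)
    (hbad : T * Rlow (fun _ : R => r) c * cap (fun _ : R => r) c s < FF (fun _ : R => r) c s) :
    let C₁ : ℝ := 8192000 * (1 + z0) ^ 2
    let θ : ℝ := 100 * C₁
    let L : ℝ := LN (Fintype.card R * r)
    T ≤ Real.exp (θ * L) * ∏ i, (rowA c (Fintype.card R) ((Fintype.card R : ℝ) * r) C₁ s i) ^
      (θ * L / Fintype.card R) := by
  intro C₁ θ L
  set m : ℝ := (Fintype.card R : ℝ) with hmdef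
  have hm64 : (64 : ℝ) ≤ m := by rw [hmdef]; exact_mod_cast hm
  have hm0 : 0 < m := by linarith
  have hrR : (1 : ℝ) ≤ r := by exact_mod_cast hr
  have hC₁ : 0 < C₁ := by positivity
  have hθ : 0 < θ := by positivity
  have hcpos : ∀ j, (0 : ℝ) < c j := fun j => by exact_mod_cast hc1 j
  have hsum' : ∑ i : R, (fun _ : R => r) i = ∑ j, c j := by
    rw [hsum]; simp
  have hNtot : total (fun _ : R => r) = Fintype.card R * r := total_const r
  obtain ⟨α, β, hα, hβ, hrow, hcol⟩ :=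
    sinkhorn (fun _ : R => r) c (fun _ => hr) hc1 hsum' s hs
  have hg := gauge r hr c hc1 z0 hz0 hm hcz hsum s hs α β hα hβ hrow hcol E1 E2 E3
  obtain ⟨hcap, hF⟩ := FF_le_cap_mul (fun _ : R => r) c (fun _ => hr) hc1 hsum' s hs α β hα hβ
    hrow hcol
  have hR := Rlow_pos (fun _ : R => r) c (fun _ => hr) hc1 (by rw [hNtot]; omega)
  set b : R → C → ℝ := fun i j => α i * β j * s i j / ((r : ℝ) * c j) with hbdef
  have hKK : T < KK (fun _ : R => r) c b := by
    have h1 : T * (Rlow (fun _ : R => r) c * cap (fun _ : R => r) c s) <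
        KK (fun _ : R => r) c b * (Rlow (fun _ : R => r) c * cap (fun _ : R => r) c s) := by
      calc _ = T * Rlow (fun _ : R => r) c * cap (fun _ : R => r) c s := by ring
        _ < FF (fun _ : R => r) c s := hbad
        _ ≤ _ := hF
        _ = _ := by ring
    exact lt_of_mul_lt_mul_right h1 (by positivity)
  have hbpos : ∀ i j, 0 < b i j := by
    intro i j
    have := hα i
    have := hβ j
    have := hs i j
    have := hcpos j
    positivity
  have hst : ∀ i, ∑ j, (c j : ℝ) * b i j = 1 := by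
    intro i
    have : ∀ j, (c j : ℝ) * b i j = (1 / (r : ℝ)) * (α i * β j * s i j) := by
      intro j
      have := hcpos j
      simp only [hbdef]
      field_simp
    simp_rw [this]
    rw [← Finset.mul_sum, hrow i]
    field_simp
  have hN2 : 2 ≤ total (fun _ : R => r) := by rw [hNtot]; exact hN
  have hbb := block_bound (fun _ : R => r) c hsum' hN2 b hbpos hst θ hθ
  rw [hNtot] at hbb
  have hL : 0 < L := (LN_pos_le _ hN).1
  have hNreal : ((Fintype.card R * r : ℕ) : ℝ) = m * r := by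
    push_cast; rfl
  rw [hNreal] at hbb
  have hN0 : 0 < m * (r : ℝ) := by positivity
  -- the row functions
  set a : R → ℝ := fun i => ∑ j, (c j : ℝ) * b i j *
    Real.exp ((m * r * b i j - 1) / θ) with ha
  set Ar : R → ℝ := fun i => rowA c m (m * r) C₁ s i with hAr
  have hapos : ∀ i, 0 < a i := by
    intro i
    have hne : (Finset.univ : Finset C).Nonempty := by
      by_contra h
      rw [Finset.not_nonempty_iff_eq_empty] at h
      rw [h] at hsum
      simp at hsum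
      omega
    refine Finset.sum_pos (fun j _ => ?_) hne
    have := hcpos j
    have := hbpos i j
    positivity
  have hale : ∀ i, a i ≤ Ar i := by
    intro i
    simp only [ha, hAr, rowA]
    rw [Finset.mul_sum]
    refine Finset.sum_le_sum fun j _ => ?_
    have hcj := hcpos j
    set e : ℝ := s i j / (1 + (c j : ℝ) / m) with he
    have hepos : 0 < e := by
      have := hs i j
      positivity
    have hbN : m * r * b i j ≤ C₁ * e := by
      have h1 := hg i j
      have h2 : m * r * b i j = (α i * β j) * (m * s i j / c j) := by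
        simp only [hbdef]
        field_simp
      rw [h2]
      have h3 : C₁ * e = (C₁ * ((c j : ℝ) / (m + c j))) * (m * s i j / c j) := by
        simp only [he]
        have : m + (c j : ℝ) ≠ 0 := by positivity
        field_simp
      rw [h3]
      refine mul_le_mul_of_nonneg_right h1 ?_
      have := hs i j
      positivity
    have hexp : Real.exp ((m * r * b i j - 1) / θ) ≤ Real.exp (e / 100) := by
      apply Real.exp_le_exp.mpr
      have h1 : (m * r * b i j - 1) / θ ≤ (C₁ * e) / θ :=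
        div_le_div_of_nonneg_right (by linarith) hθ.le
      have h2 : (C₁ * e) / θ = e / 100 := by
        simp only [θ]
        field_simp
      linarith
    have hcb : (c j : ℝ) * b i j ≤ C₁ * ((c j : ℝ) / (m * r) * e) := by
      have h1 : (c j : ℝ) * b i j = ((c j : ℝ) / (m * r)) * (m * r * b i j) := by
        field_simp
      rw [h1]
      have h2 := mul_le_mul_of_nonneg_left hbN (show 0 ≤ (c j : ℝ) / (m * r) by positivity)
      calc _ ≤ _ := h2
        _ = _ := by ring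
    have hterm : C₁ * ((c j : ℝ) / (m * r) * cellE ((c j : ℝ) / m) (s i j)) =
        (C₁ * ((c j : ℝ) / (m * r) * e)) * Real.exp (e / 100) := by
      unfold cellE
      ring
    rw [hterm]
    exact mul_le_mul hcb hexp (Real.exp_pos _).le (by positivity)
  have hArpos : ∀ i, 0 < Ar i := fun i => lt_of_lt_of_le (hapos i) (hale i)
  -- from the block bound
  have hT0 : 0 < T := by linarith
  have hlogK : 0 ≤ Real.log (KK (fun _ : R => r) c b) :=
    Real.log_nonneg (by linarith)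
  set κ : ℝ := θ * L / (m * r) with hκ
  have hκpos : 0 < κ := by positivity
  have hsumlog : ∑ i, (r : ℝ) * Real.log (a i) ≤ (r : ℝ) * ∑ i, Real.log (Ar i) := by
    rw [Finset.mul_sum]
    refine Finset.sum_le_sum fun i _ => ?_
    exact mul_le_mul_of_nonneg_left (Real.log_le_log (hapos i) (hale i)) (by positivity)
  have hmain : Real.log (KK (fun _ : R => r) c b) ≤ θ * L + (θ * L / m) * ∑ i, Real.log (Ar i) := by
    have h1 : (1 + κ) * Real.log (KK (fun _ : R => r) c b) ≤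
        κ * (m * r + ∑ i, (r : ℝ) * Real.log (a i)) := hbb
    have h2 : κ * (m * r + ∑ i, (r : ℝ) * Real.log (a i)) ≤
        κ * (m * r + (r : ℝ) * ∑ i, Real.log (Ar i)) :=
      mul_le_mul_of_nonneg_left (by linarith) hκpos.le
    have h3 : κ * (m * r + (r : ℝ) * ∑ i, Real.log (Ar i)) =
        θ * L + (θ * L / m) * ∑ i, Real.log (Ar i) := by
      rw [hκ]
      field_simp
    have h4 : Real.log (KK (fun _ : R => r) c b) ≤
        (1 + κ) * Real.log (KK (fun _ : R => r) c b) := by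
      nlinarith
    linarith
  have hprod : ∏ i, (Ar i) ^ (θ * L / m) = Real.exp ((θ * L / m) * ∑ i, Real.log (Ar i)) := by
    rw [Finset.mul_sum, Real.exp_sum]
    refine Finset.prod_congr rfl fun i _ => ?_
    rw [Real.rpow_def_of_pos (hArpos i)]
    ring_nf
  have hKpos : 0 < KK (fun _ : R => r) c b := by linarith
  calc T ≤ KK (fun _ : R => r) c b := hKK.le
    _ = Real.exp (Real.log (KK (fun _ : R => r) c b)) := (Real.exp_log hKpos).symm
    _ ≤ Real.exp (θ * L + (θ * L / m) * ∑ i, Real.log (Ar i)) := Real.exp_le_exp.mpr hmain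
    _ = Real.exp (θ * L) * ∏ i, (Ar i) ^ (θ * L / m) := by
      rw [Real.exp_add, hprod]

/-- The constant of Theorem A. -/
noncomputable def Kz (z0 A : ℝ) : ℝ :=
  128 * (A + 4) + 6 * (100 * (8192000 * (1 + z0) ^ 2)) +
    4 * (100 * (8192000 * (1 + z0) ^ 2)) * Real.log (280 * (8192000 * (1 + z0) ^ 2)) + A + 2

theorem C1_ge (z0 : ℝ) (hz0 : 1 ≤ z0) : 1 ≤ 8192000 * (1 + z0) ^ 2 := by
  nlinarith [sq_nonneg z0, sq_nonneg (1 + z0)]

theorem Kz_ge (z0 A : ℝ) (hz0 : 1 ≤ z0) (hA : 1 ≤ A) :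
    128 * (A + 4) ≤ Kz z0 A ∧ 4 * (100 * (8192000 * (1 + z0) ^ 2)) ≤ Kz z0 A ∧
      4 * (100 * (8192000 * (1 + z0) ^ 2)) * Real.log (280 * (8192000 * (1 + z0) ^ 2)) +
        2 * (100 * (8192000 * (1 + z0) ^ 2)) + A + 2 ≤ Kz z0 A := by
  have h1 := C1_ge z0 hz0
  unfold Kz
  set C₁ : ℝ := 8192000 * (1 + z0) ^ 2
  have h2 : 0 ≤ Real.log (280 * C₁) := Real.log_nonneg (by linarith)
  have h3 : 0 ≤ 4 * (100 * C₁) * Real.log (280 * C₁) := by positivity
  refine ⟨?_, ?_, ?_⟩ <;> linarith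

theorem measurable_rowProd (c : C → ℕ) (m N C₁ q : ℝ) :
    Measurable fun s : R → C → ℝ => ∏ i, (rowA c m N C₁ s i) ^ q := by
  unfold rowA cellE
  fun_prop

theorem eps_base (N A : ℝ) (hN : 2 ≤ N) : Real.exp (-((A + 2) * Real.log N)) ≤ N ^ (-A) / 4 := by
  have hN0 : 0 < N := by linarith
  have hsmall : N⁻¹ ^ 2 ≤ 1 / 4 := by
    have h1 : N⁻¹ ≤ 1 / 2 := by
      rw [inv_eq_one_div]
      exact one_div_le_one_div_of_le (by norm_num) hN
    have h2 : 0 ≤ N⁻¹ := by positivity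
    nlinarith
  have hPA : N ^ (-A) = Real.exp (-(A * Real.log N)) := by
    rw [Real.rpow_def_of_pos hN0]
    congr 1
    ring
  have h1 : Real.exp (-((A + 2) * Real.log N)) = N ^ (-A) * N⁻¹ ^ 2 := by
    rw [hPA]
    have : N⁻¹ = Real.exp (-Real.log N) := by
      rw [Real.exp_neg, Real.exp_log hN0]
    rw [this, ← Real.exp_nat_mul, ← Real.exp_add]
    congr 1
    push_cast
    ring
  rw [h1]
  have hpos : 0 < N ^ (-A) := by positivity
  have := mul_le_mul_of_nonneg_left hsmall hpos.le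
  linarith

theorem N_mul_exp_le (N A x y : ℝ) (hN : 2 ≤ N) (hx : x ≤ N) (hy0 : 0 ≤ y)
    (hy : y ≤ Real.exp (-((A + 3) * Real.log N))) : x * y ≤ N ^ (-A) / 4 := by
  have hN0 : 0 < N := by linarith
  calc x * y ≤ N * Real.exp (-((A + 3) * Real.log N)) :=
        mul_le_mul hx hy hy0 hN0.le
    _ = Real.exp (-((A + 2) * Real.log N)) := by
        nth_rewrite 1 [← Real.exp_log hN0]
        rw [← Real.exp_add]
        congr 1
        ring
    _ ≤ _ := eps_base N A hN

theorem real1 (N A m : ℝ) (n k : ℕ) (hN : 2 ≤ N) (hn : (n : ℝ) ≤ N) (hk : (k : ℝ) = m)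
    (hm : 4 * (A + 3) * Real.log N ≤ m) :
    (n : ℝ) * (2 / Real.exp 1) ^ k ≤ N ^ (-A) / 4 := by
  refine N_mul_exp_le N A _ _ hN hn (by positivity) ?_
  have h1 : 2 / Real.exp 1 ≤ Real.exp (-(1 / 4)) := by
    rw [div_le_iff₀ (Real.exp_pos _), ← Real.exp_add]
    have h2 : (-(1 / 4) + 1 : ℝ) = 3 / 4 := by norm_num
    rw [h2]
    have h3 : (2 : ℝ) = Real.exp (Real.log 2) := (Real.exp_log (by norm_num)).symm
    rw [h3]
    apply Real.exp_le_exp.mpr
    have := Real.log_two_lt_d9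
    linarith
  have h4 : (0 : ℝ) ≤ 2 / Real.exp 1 := by positivity
  calc ((2 / Real.exp 1) ^ k : ℝ) ≤ Real.exp (-(1 / 4)) ^ k :=
        pow_le_pow_left₀ h4 h1 _
    _ = Real.exp (-(m / 4)) := by
        rw [← Real.exp_nat_mul]
        congr 1
        rw [hk]
        ring
    _ ≤ _ := by
        apply Real.exp_le_exp.mpr
        linarith

theorem real2 (N A m : ℝ) (n : ℝ) (hN : 2 ≤ N) (hn : n ≤ N)
    (hm : 128 * (A + 3) * Real.log N ≤ m) :
    n * Real.exp (-m / 128) ≤ N ^ (-A) / 4 := by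
  refine N_mul_exp_le N A _ _ hN hn (by positivity) ?_
  apply Real.exp_le_exp.mpr
  have h3 : -m / 128 = -(m / 128) := by ring
  rw [h3]
  linarith

theorem real3 (N A m V : ℝ) (hN : 2 ≤ N) (hn : m ≤ N)
    (hV : 8 * (A + 3) * Real.log N ≤ V) :
    m * Real.exp (-V / 8) ≤ N ^ (-A) / 4 := by
  refine N_mul_exp_le N A _ _ hN hn (by positivity) ?_
  apply Real.exp_le_exp.mpr
  have h3 : -V / 8 = -(V / 8) := by ring
  rw [h3]
  linarith

theorem real4 (N A C₁ L m K₀ : ℝ) (hN : 2 ≤ N) (hC₁ : 1 ≤ C₁) (hL0 : 0 < L)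
    (hL : L ≤ 2 * Real.log N) (hm : 1 ≤ m)
    (hK : 4 * (100 * C₁) * Real.log (280 * C₁) + 2 * (100 * C₁) + A + 2 ≤ K₀) :
    (280 * C₁) ^ ((100 * C₁) * L / m * (m + 1)) ≤
      N ^ (-A) / 4 * (N ^ K₀ * Real.exp (-((100 * C₁) * L))) := by
  have hN0 : 0 < N := by linarith
  have hℓ0 : 0 < Real.log N := Real.log_pos (by linarith)
  set ℓ := Real.log N with hℓ
  set θ := 100 * C₁ with hθ
  have hθ1 : 1 ≤ θ := by linarith
  set H := 280 * C₁ with hH
  have hH1 : 1 ≤ H := by linarith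
  have hlogH : 0 ≤ Real.log H := Real.log_nonneg hH1
  have hm0 : 0 < m := by linarith
  set q := θ * L / m with hq
  have hq0 : 0 ≤ q := by positivity
  have hHexp : H ^ (q * (m + 1)) ≤ Real.exp (4 * θ * ℓ * Real.log H) := by
    rw [Real.rpow_def_of_pos (by linarith)]
    apply Real.exp_le_exp.mpr
    have h1 : q * (m + 1) ≤ 4 * θ * ℓ := by
      have h2 : q * m = θ * L := by
        rw [hq]; field_simp
      have h3 : q ≤ θ * L := by
        rw [hq]
        apply div_le_self (by positivity)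
        linarith
      have h4 : θ * L ≤ θ * (2 * ℓ) := mul_le_mul_of_nonneg_left hL (by linarith)
      nlinarith
    have := mul_le_mul_of_nonneg_left h1 hlogH
    linarith
  have htexp : N ^ K₀ * Real.exp (-(θ * L)) = Real.exp (K₀ * ℓ - θ * L) := by
    rw [Real.rpow_def_of_pos hN0, ← Real.exp_add]
    congr 1
    rw [← hℓ]
    ring
  have hgoal : Real.exp (4 * θ * ℓ * Real.log H) ≤
      Real.exp (-((A + 2) * ℓ)) * (N ^ K₀ * Real.exp (-(θ * L))) := by
    rw [htexp, ← Real.exp_add]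
    apply Real.exp_le_exp.mpr
    have h1 : θ * L ≤ 2 * θ * ℓ := by nlinarith
    have h2 : (4 * θ * Real.log H + 2 * θ + A + 2) * ℓ ≤ K₀ * ℓ :=
      mul_le_mul_of_nonneg_right hK hℓ0.le
    nlinarith
  calc H ^ (q * (m + 1)) ≤ _ := hHexp
    _ ≤ _ := hgoal
    _ ≤ _ := mul_le_mul_of_nonneg_right (eps_base N A hN) (by positivity)

theorem fail4 (r : ℕ) (c : C → ℕ) (hc1 : ∀ j, 1 ≤ c j) (hsum : ∑ j, c j = Fintype.card R * r)
    (hr1 : 1 ≤ r) (hm1 : 1 ≤ Fintype.card R) (C₁ q t x : ℝ) (hC₁ : 1 ≤ C₁) (hq0 : 0 ≤ q)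
    (hq2 : 2 * q ≤ 1) (ht : 0 < t)
    (hx : (280 * C₁) ^ (q * ((Fintype.card R : ℝ) + 1)) ≤ x * t) :
    nu (fun _ : R => r) c {s | t ≤ ∏ i, (rowA c (Fintype.card R) ((Fintype.card R : ℝ) * r) C₁ s i) ^ q}
      ≤ ENNReal.ofReal x := by
  have hW : Measurable fun s : R → C → ℝ => ENNReal.ofReal
      (∏ i, (rowA c (Fintype.card R) ((Fintype.card R : ℝ) * r) C₁ s i) ^ q) :=
    (measurable_rowProd (R := R) c _ _ C₁ q).ennreal_ofReal
  have hsub4 : {s : R → C → ℝ | t ≤ ∏ i, (rowA c (Fintype.card R) ((Fintype.card R : ℝ) * r) C₁ s i) ^ q} ⊆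
      {s | ENNReal.ofReal t ≤ ENNReal.ofReal
        (∏ i, (rowA c (Fintype.card R) ((Fintype.card R : ℝ) * r) C₁ s i) ^ q)} := by
    intro s hs
    exact ENNReal.ofReal_le_ofReal hs
  have hmk := meas_ge_le_lintegral_div (μ := nu (fun _ : R => r) c) hW.aemeasurable
    (ε := ENNReal.ofReal t) (by simpa using ht) ENNReal.ofReal_ne_top
  have hint := nu_W r c hc1 hsum hr1 hm1 C₁ q hC₁ hq0 hq2
  refine (measure_mono hsub4).trans (hmk.trans ?_)
  refine (ENNReal.div_le_div_right hint _).trans ?_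
  rw [← ENNReal.ofReal_div_of_pos ht]
  refine ENNReal.ofReal_le_ofReal ?_
  rw [div_le_iff₀ ht]
  exact hx

/-- The bad event is contained in the union of the failure events. -/
theorem bad_subset (r : ℕ) (hr : 1 ≤ r) (c : C → ℕ) (hc1 : ∀ j, 1 ≤ c j) (z0 : ℝ) (hz0 : 1 ≤ z0)
    (hm : 64 ≤ Fintype.card R) (hcz : ∀ j, (c j : ℝ) ≤ z0 * Fintype.card R)
    (hsum : ∑ j, c j = Fintype.card R * r) (hN : 2 ≤ Fintype.card R * r) (T : ℝ) (hT : 1 ≤ T) :
    {s | T * Rlow (fun _ : R => r) c * cap (fun _ : R => r) c s < FF (fun _ : R => r) c s} ⊆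
      {s | ¬ ∀ i j, 0 < s i j} ∪ {s | ¬ ∀ j, ∑ i, s i j ≤ 2 * ((Fintype.card R : ℝ) + c j)} ∪
      {s | ¬ ∀ j, ∀ S : Finset R, (Fintype.card R + 127) / 128 ≤ S.card →
        ∃ i ∈ S, 1 / 1000 ≤ s i j} ∪
      {s | ¬ ∀ i, (r : ℝ) / 8 ≤ ∑ j, ((c j : ℝ) / Fintype.card R) * (1 - Real.exp (-s i j))} ∪
      {s | T * Real.exp (-((100 * (8192000 * (1 + z0) ^ 2)) * LN (Fintype.card R * r))) ≤
        ∏ i, (rowA c (Fintype.card R) ((Fintype.card R : ℝ) * r) (8192000 * (1 + z0) ^ 2) s i) ^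
          ((100 * (8192000 * (1 + z0) ^ 2)) * LN (Fintype.card R * r) / Fintype.card R)} := by
  intro s hs
  by_contra hcon
  simp only [Set.mem_union, not_or] at hcon
  obtain ⟨⟨⟨⟨h0, h1⟩, h2⟩, h3⟩, h4⟩ := hcon
  have h0' : ∀ i j, 0 < s i j := by
    by_contra hh
    exact h0 hh
  have h1' : ∀ j, ∑ i, s i j ≤ 2 * ((Fintype.card R : ℝ) + c j) := by
    by_contra hh
    exact h1 hh
  have h2' : ∀ j, ∀ S : Finset R, (Fintype.card R + 127) / 128 ≤ S.card →
      ∃ i ∈ S, 1 / 1000 ≤ s i j := by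
    by_contra hh
    exact h2 hh
  have h3' : ∀ i, (r : ℝ) / 8 ≤ ∑ j, ((c j : ℝ) / Fintype.card R) * (1 - Real.exp (-s i j)) := by
    by_contra hh
    exact h3 hh
  have hc := core (R := R) (C := C) r hr c hc1 z0 hz0 hm hcz hsum hN s h0' h1' h2' h3' T hT hs
  apply h4
  simp only at hc
  set X := ∏ i, (rowA c (Fintype.card R) ((Fintype.card R : ℝ) * r) (8192000 * (1 + z0) ^ 2) s i) ^
          ((100 * (8192000 * (1 + z0) ^ 2)) * LN (Fintype.card R * r) / Fintype.card R) with hX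
  set y := (100 * (8192000 * (1 + z0) ^ 2)) * LN (Fintype.card R * r) with hy
  change T * Real.exp (-y) ≤ X
  have hexp := Real.exp_pos y
  have h5 : T * Real.exp (-y) * Real.exp y = T := by
    rw [mul_assoc, ← Real.exp_add]
    simp
  have h6 : T * Real.exp (-y) * Real.exp y ≤ X * Real.exp y := by
    rw [h5]
    linarith
  exact le_of_mul_le_mul_right h6 hexp

theorem main_generic (z0 A : ℝ) (hz0 : 1 ≤ z0) (hA : 1 ≤ A) (r : ℕ) (c : C → ℕ)
    (hc1 : ∀ j, 1 ≤ c j) (hcz : ∀ j, (c j : ℝ) ≤ z0 * Fintype.card R)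
    (hsum : ∑ j, c j = Fintype.card R * r) (hN : 2 ≤ Fintype.card R * r)
    (hKm : Kz z0 A * Real.log ((Fintype.card R : ℝ) * r) ≤ Fintype.card R)
    (hKc : ∀ j, Kz z0 A * Real.log ((Fintype.card R : ℝ) * r) * c j ≤ (Fintype.card R : ℝ) * r) :
    nu (fun _ : R => r) c
      {s | ((Fintype.card R : ℝ) * r) ^ Kz z0 A * Rlow (fun _ : R => r) c *
          cap (fun _ : R => r) c s < FF (fun _ : R => r) c s} ≤
      ENNReal.ofReal (((Fintype.card R : ℝ) * r) ^ (-A)) := by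
  obtain ⟨hK1, hK2, hK3⟩ := Kz_ge z0 A hz0 hA
  have hC₁ := C1_ge z0 hz0
  have hNnat : (2 : ℝ) ≤ (Fintype.card R : ℝ) * r := by exact_mod_cast hN
  have hN0 : (0 : ℝ) < (Fintype.card R : ℝ) * r := by linarith
  have hℓ2 : Real.log 2 ≤ Real.log ((Fintype.card R : ℝ) * r) :=
    Real.log_le_log (by norm_num) hNnat
  have hlog2 : (0.69 : ℝ) < Real.log 2 := by
    have := Real.log_two_gt_d9
    linarith
  have hℓ0 : 0 < Real.log ((Fintype.card R : ℝ) * r) := by linarith
  have hm64 : (64 : ℝ) ≤ (Fintype.card R : ℝ) := by nlinarith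
  have hmnat : 64 ≤ Fintype.card R := by exact_mod_cast hm64
  have hr1 : 1 ≤ r := by
    rcases Nat.eq_zero_or_pos r with h | h
    · subst h; simp at hN
    · exact h
  have hrR : (1 : ℝ) ≤ r := by exact_mod_cast hr1
  have hne : (tables (fun _ : R => r) c).Nonempty :=
    tables_nonempty _ _ _ rfl (by rw [hsum]; simp)
  have hnN : (Fintype.card C : ℝ) ≤ (Fintype.card R : ℝ) * r := by
    have h1 : Fintype.card C ≤ ∑ j, c j := by
      calc Fintype.card C = ∑ _j : C, 1 := by simp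
        _ ≤ _ := Finset.sum_le_sum fun j _ => hc1 j
    rw [hsum] at h1
    exact_mod_cast h1
  have hmN : (Fintype.card R : ℝ) ≤ (Fintype.card R : ℝ) * r := by nlinarith
  have hKpos : 0 < Kz z0 A := by linarith
  -- the real bounds
  have b1 : 4 * (A + 3) * Real.log ((Fintype.card R : ℝ) * r) ≤ (Fintype.card R : ℝ) :=
    le_trans (mul_le_mul_of_nonneg_right (by linarith) hℓ0.le) hKm
  have b2 : 128 * (A + 3) * Real.log ((Fintype.card R : ℝ) * r) ≤ (Fintype.card R : ℝ) :=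
    le_trans (mul_le_mul_of_nonneg_right (by linarith) hℓ0.le) hKm
  have hLb := LN_pos_le _ hN
  have hLb2 : LN (Fintype.card R * r) ≤ 2 * Real.log ((Fintype.card R : ℝ) * r) := by
    have := hLb.2
    push_cast at this
    exact this
  have hT1 : 1 ≤ ((Fintype.card R : ℝ) * r) ^ Kz z0 A := Real.one_le_rpow (by linarith) hKpos.le
  set ε := ((Fintype.card R : ℝ) * r) ^ (-A) with hε
  have hε0 : 0 < ε := by positivity
  have hε4 : 0 ≤ ε / 4 := by positivity
  have h1bd := nu_le_of_muX (fun _ : R => r) c hne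
    {s | ¬ ∀ j, ∑ i, s i j ≤ 2 * ((Fintype.card R : ℝ) + c j)} (ENNReal.ofReal (ε / 4))
    (fun X hX => (E1_fail r c X hX).trans (ENNReal.ofReal_le_ofReal
      (real1 _ A _ _ _ hNnat hnN rfl b1)))
  have h2bd := nu_le_of_muX (fun _ : R => r) c hne
    {s | ¬ ∀ j, ∀ S : Finset R, (Fintype.card R + 127) / 128 ≤ S.card →
        ∃ i ∈ S, 1 / 1000 ≤ s i j} (ENNReal.ofReal (ε / 4))
    (fun X _ => (E2_fail X (by omega)).trans (ENNReal.ofReal_le_ofReal
      (real2 _ A _ _ hNnat hnN b2)))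
  have hKℓpos : 0 < Kz z0 A * Real.log ((Fintype.card R : ℝ) * r) := by positivity
  have hD : 0 < ((Fintype.card R : ℝ) * r) / (Kz z0 A * Real.log ((Fintype.card R : ℝ) * r)) := by
    positivity
  have hcD : ∀ j, (c j : ℝ) ≤ ((Fintype.card R : ℝ) * r) /
      (Kz z0 A * Real.log ((Fintype.card R : ℝ) * r)) := by
    intro j
    rw [le_div_iff₀ hKℓpos]
    have := hKc j
    linarith
  have e3 : (Fintype.card R : ℝ) * r / (((Fintype.card R : ℝ) * r) /
      (Kz z0 A * Real.log ((Fintype.card R : ℝ) * r))) =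
      Kz z0 A * Real.log ((Fintype.card R : ℝ) * r) := by
    field_simp
  have h3bd := nu_le_of_muX (fun _ : R => r) c hne
    {s | ¬ ∀ i, (r : ℝ) / 8 ≤ ∑ j, ((c j : ℝ) / Fintype.card R) * (1 - Real.exp (-s i j))}
    (ENNReal.ofReal (ε / 4))
    (fun X _ => (E3_fail r c hsum (by omega) _ hD hcD X).trans (ENNReal.ofReal_le_ofReal
      (by
        rw [e3]
        exact real3 _ A _ _ hNnat hmN
          (mul_le_mul_of_nonneg_right (by linarith) hℓ0.le))))
  have h0bd := nu_le_of_muX (fun _ : R => r) c hne {s | ¬ ∀ i j, 0 < s i j} 0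
    (fun X _ => (E0_fail X).le)
  have hq0 : 0 ≤ (100 * (8192000 * (1 + z0) ^ 2)) * LN (Fintype.card R * r) /
      (Fintype.card R : ℝ) := by
    have := hLb.1
    positivity
  have hq2 : 2 * ((100 * (8192000 * (1 + z0) ^ 2)) * LN (Fintype.card R * r) /
      (Fintype.card R : ℝ)) ≤ 1 := by
    have hm0 : (0 : ℝ) < Fintype.card R := by linarith
    have e : 2 * ((100 * (8192000 * (1 + z0) ^ 2)) * LN (Fintype.card R * r) /
      (Fintype.card R : ℝ)) = (2 * ((100 * (8192000 * (1 + z0) ^ 2)) * LN (Fintype.card R * r))) /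
      (Fintype.card R : ℝ) := by ring
    rw [e, div_le_one hm0]
    have h3 : 4 * (100 * (8192000 * (1 + z0) ^ 2)) * Real.log ((Fintype.card R : ℝ) * r) ≤
        Kz z0 A * Real.log ((Fintype.card R : ℝ) * r) :=
      mul_le_mul_of_nonneg_right hK2 hℓ0.le
    have h4 := mul_le_mul_of_nonneg_left hLb2
      (show (0 : ℝ) ≤ 2 * (100 * (8192000 * (1 + z0) ^ 2)) by positivity)
    linarith
  have h4bd := fail4 r c hc1 hsum hr1 (by omega) _ _
    (((Fintype.card R : ℝ) * r) ^ Kz z0 A *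
      Real.exp (-((100 * (8192000 * (1 + z0) ^ 2)) * LN (Fintype.card R * r)))) (ε / 4) hC₁ hq0 hq2
    (by positivity)
    (real4 _ A _ _ _ _ hNnat hC₁ hLb.1 hLb2 (by linarith) hK3)
  have hsub := bad_subset r hr1 c hc1 z0 hz0 hmnat hcz hsum hN _ hT1
  refine (measure_mono hsub).trans ?_
  refine (measure_union_le _ _).trans ?_
  have h12 : ∀ a b d e f g : ℝ≥0∞, a ≤ 0 → b ≤ g → d ≤ g → e ≤ g → f ≤ g →
      (a + b + d + e) + f ≤ g + g + g + g := by
    intro a b d e f g ha hb hd he hf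
    have ha' : a = 0 := le_antisymm ha zero_le
    rw [ha', zero_add]
    gcongr
  have h13 : ∀ (S1 S2 S3 S4 : Set (R → C → ℝ)) (μ : Measure (R → C → ℝ)),
      μ (S1 ∪ S2 ∪ S3 ∪ S4) ≤ μ S1 + μ S2 + μ S3 + μ S4 := by
    intro S1 S2 S3 S4 μ
    refine (measure_union_le _ _).trans (add_le_add_left ?_ _)
    refine (measure_union_le _ _).trans (add_le_add_left ?_ _)
    exact measure_union_le _ _
  refine (add_le_add_left (h13 _ _ _ _ _) _).trans ?_
  refine (h12 _ _ _ _ _ _ h0bd h1bd h2bd h3bd h4bd).trans (le_of_eq ?_)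
  rw [← ENNReal.ofReal_add hε4 hε4, ← ENNReal.ofReal_add (by positivity) hε4,
    ← ENNReal.ofReal_add (by positivity) hε4]
  congr 1
  ring

/-- **Theorem A.** -/
theorem main (z0 A : ℝ) (hz0 : 1 ≤ z0) (hA : 1 ≤ A) :
    ∃ K₀ : ℝ, 0 < K₀ ∧ ∀ (m n r : ℕ) (c : Fin n → ℕ), (∀ j, 1 ≤ c j) →
      (∀ j, (c j : ℝ) ≤ z0 * m) → ∑ j, c j = m * r → 2 ≤ m * r →
      K₀ * Real.log ((m : ℝ) * r) ≤ m →
      (∀ j, K₀ * Real.log ((m : ℝ) * r) * c j ≤ (m : ℝ) * r) →
      nu (fun _ : Fin m => r) c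
        {s | ((m : ℝ) * r) ^ K₀ * Rlow (fun _ : Fin m => r) c * cap (fun _ : Fin m => r) c s
            < FF (fun _ : Fin m => r) c s} ≤ ENNReal.ofReal (((m : ℝ) * r) ^ (-A)) := by
  refine ⟨Kz z0 A, ?_, ?_⟩
  · unfold Kz
    have h1 : 0 ≤ Real.log (280 * (8192000 * (1 + z0) ^ 2)) := by
      apply Real.log_nonneg
      nlinarith [sq_nonneg z0, sq_nonneg (1 + z0)]
    have h2 : 0 < 100 * (8192000 * (1 + z0) ^ 2) := by positivity
    have h3 : 0 ≤ 4 * (100 * (8192000 * (1 + z0) ^ 2)) * Real.log (280 * (8192000 * (1 + z0) ^ 2)) := by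
      positivity
    linarith
  · intro m n r c hc1 hcz hsum hN hKm hKc
    have := main_generic (R := Fin m) (C := Fin n) z0 A hz0 hA r c hc1
      (by simpa using hcz) (by simpa using hsum) (by simpa using hN)
      (by simpa using hKm) (by simpa using hKc)
    simpa using this

end Vale.Agent.Lib.P328.Blsy

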